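import Vale.Agent.P263.K.Bin

/-!
# P263, block K (helper296): the Adams filtration lemma, abstract form

`SqM` : graded vector spaces over `𝔽₂` with operations `sq q j : H^q → H^j`, `SqM.Map` : linear
maps commuting with them; `SqM.Adem` : the Adem relations.

Geometry (see notes 12205, 12167, 12420): `γ : Σ → G`, `β = a₂ a₁ : Σ → W₁ → W₂`, the double mapping
cylinder `X` of `(γ, β)`, a map `L : X → T` with a lift `b` of the fundamental class to the cone of
`L`. `AFData` is the list of the maps in cohomology and of the exactness statements which are used.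

`AFData.sq_lift_eq_zero` : for `c + 1 = 2 ^ s`, `s ≥ 1`, the square `Sq^(c+1)` of the lift of `v^c`
to the cone of `γ` vanishes.
-/

open Finset

namespace Vale.Agent.P263.K

/-- graded vector spaces over `𝔽₂` with operations -/
structure SqM where
  H : ℕ → Type
  [grp : ∀ q, AddCommGroup (H q)]
  [mdl : ∀ q, Module (ZMod 2) (H q)]
  sq : ∀ q j, H q →ₗ[ZMod 2] H j

namespace SqM

instance (A : SqM) (q : ℕ) : AddCommGroup (A.H q) := A.grp q

instance (A : SqM) (q : ℕ) : Module (ZMod 2) (A.H q) := A.mdl q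

/-- maps commuting with the operations -/
structure Map (A B : SqM) where
  app : ∀ q, A.H q →ₗ[ZMod 2] B.H q
  app_sq : ∀ q j x, app j (A.sq q j x) = B.sq q j (app q x)

/-- the Adem relations: `Sq^a Sq^b = ∑ (b - k - 1).choose (a - 2 k) Sq^(a + b - k) Sq^k` for
`a < 2 b`. -/
def Adem (A : SqM) : Prop :=
  ∀ (q a b m : ℕ) (x : A.H q), a < 2 * b → m = q + b + a →
    A.sq (q + b) m (A.sq q (q + b) x) =
      ∑ k ∈ range (a / 2 + 1), (((b - k - 1).choose (a - 2 * k) : ℕ) : ZMod 2) •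
        A.sq (q + k) m (A.sq q (q + k) x)

end SqM

/-- `(2 ^ s - 1).choose r` is odd for `r < 2 ^ s`. -/
theorem choose_two_pow_sub_one (s c r : ℕ) (hc : c + 1 = 2 ^ s) (hr : r ≤ c) :
    c.choose r % 2 = 1 := by
  induction s generalizing c r with
  | zero =>
    have h0 : c = 0 := by simpa using hc
    subst h0
    obtain rfl : r = 0 := by omega
    rfl
  | succ s ih =>
    have : Fact (Nat.Prime 2) := ⟨Nat.prime_two⟩
    have h := Choose.choose_modEq_choose_mod_mul_choose_div_nat (n := c) (k := r) (p := 2)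
    rw [Nat.ModEq] at h
    rw [pow_succ] at hc
    rw [h]
    have e1 : c % 2 = 1 := by omega
    have e2 := ih (c / 2) (r / 2) (by omega) (by omega)
    have e3 : r % 2 = 0 ∨ r % 2 = 1 := by omega
    rcases e3 with e3 | e3 <;> rw [e1, e3, Nat.mul_mod, e2] <;> rfl

theorem natCast_choose_eq_one (s c r : ℕ) (hc : c + 1 = 2 ^ s) (hr : r ≤ c) :
    ((c.choose r : ℕ) : ZMod 2) = 1 := by
  rw [← ZMod.natCast_mod, choose_two_pow_sub_one s c r hc hr, Nat.cast_one]

/-- The cone part: `pg : H(C_γ) → H(G)` in low degrees. -/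
structure ConeData (R c : ℕ) (P Cg : SqM) where
  pg : Cg.Map P
  /-- the classes `v^i` -/
  v : ∀ i, P.H (R + i)
  sq_v : ∀ i k, i + k ≤ 2 * c →
    P.sq (R + i) (R + (i + k)) (v i) = ((i.choose k : ℕ) : ZMod 2) • v (i + k)
  pg_inj : ∀ i, i ≤ 2 * c → ∀ x : Cg.H (R + i), pg.app (R + i) x = 0 → x = 0
  pg_surj : ∀ i, i < 2 * c → ∃ x : Cg.H (R + i), pg.app (R + i) x = v i
  sq_self : ∀ q (x : Cg.H q), Cg.sq q q x = x
  adem : Cg.Adem

namespace ConeData

variable {R c : ℕ} {P Cg : SqM} (D : ConeData R c P Cg)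

/-- squares of lifts -/
theorem sq_lift {g : ∀ i, Cg.H (R + i)} (hg : ∀ i, i < 2 * c → D.pg.app (R + i) (g i) = D.v i)
    {i k : ℕ} (hik : i + k < 2 * c) :
    Cg.sq (R + i) (R + (i + k)) (g i) = ((i.choose k : ℕ) : ZMod 2) • g (i + k) := by
  rw [← sub_eq_zero]
  apply D.pg_inj (i + k) hik.le
  rw [map_sub, D.pg.app_sq, hg i (by omega), D.sq_v i k hik.le, map_smul, hg (i + k) hik, sub_self]

theorem sq_sq_lift {g : ∀ i, Cg.H (R + i)} (hg : ∀ i, i < 2 * c → D.pg.app (R + i) (g i) = D.v i)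
    {i k : ℕ} (hik : i + k < 2 * c) (u m : ℕ) (hu : u = R + (i + k)) :
    Cg.sq u m (Cg.sq (R + i) u (g i)) =
      ((i.choose k : ℕ) : ZMod 2) • Cg.sq (R + (i + k)) m (g (i + k)) := by
  subst hu
  rw [D.sq_lift hg hik, map_smul]

theorem sq_big_lift {g : ∀ i, Cg.H (R + i)}
    (hg : ∀ i, i < 2 * c → D.pg.app (R + i) (g i) = D.v i) {i : ℕ} (hi : i < c) (u m : ℕ)
    (hu : u = R + (i + (c + 1))) : Cg.sq u m (Cg.sq (R + i) u (g i)) = 0 := by
  subst hu
  have h1 : Cg.sq (R + i) (R + (i + (c + 1))) (g i) = 0 := by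
    apply D.pg_inj (i + (c + 1)) (by omega)
    rw [D.pg.app_sq, hg i (by omega), D.sq_v i (c + 1) (by omega),
      Nat.choose_eq_zero_of_lt (by omega), Nat.cast_zero, zero_smul]
  rw [h1, map_zero]

/-- **Downward induction**: `Sq^(d+1-i)` of the lift of `v^i` vanishes for `i < c`. -/
theorem sq_lift_eq_zero_of_lt (s : ℕ) (hc : c + 1 = 2 ^ s) {g : ∀ i, Cg.H (R + i)}
    (hg : ∀ i, i < 2 * c → D.pg.app (R + i) (g i) = D.v i) (i : ℕ) (hi : i < c) :
    Cg.sq (R + i) (R + (2 * c + 1)) (g i) = 0 := by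
  obtain ⟨n, hn⟩ : ∃ n, n = c - i := ⟨_, rfl⟩
  induction n using Nat.strong_induction_on generalizing i with
  | _ n ih =>
  have h2 := D.adem (R + i) (c - i) (c + 1) (R + (2 * c + 1)) (g i) (by omega) (by omega)
  rw [D.sq_big_lift hg hi _ _ (by ring), sum_range_succ', sum_eq_zero, zero_add] at h2
  · rw [Nat.sub_zero, Nat.add_sub_cancel, Nat.mul_zero, Nat.sub_zero,
      natCast_choose_eq_one s c (c - i) hc (by omega), one_smul] at h2
    change 0 = Cg.sq (R + i) (R + (2 * c + 1)) (Cg.sq (R + i) (R + i) (g i)) at h2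
    rw [D.sq_self] at h2
    exact h2.symm
  · intro k hk
    have hk' := mem_range.1 hk
    rw [D.sq_sq_lift hg (i := i) (k := k + 1) (by omega) _ _ (by ring),
      ih (c - (i + (k + 1))) (by omega) (i + (k + 1)) (by omega) rfl, smul_zero, smul_zero]

end ConeData

/-- The data of the Adams filtration lemma: the double mapping cylinder `X` of `γ : Σ → G` and
`β = a₂ a₁ : Σ → W₁ → W`, with a map `L : X → T` and a lift `b` of the fundamental class to the cone
of `L`; `Cg`, `Cb`, `Ca`, `CL` are the cohomologies of the cones of `γ`, `β`, `a₂`, `L`. -/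
structure AFData (R c : ℕ) (P W Cg Cb X Ca CL : SqM) extends ConeData R c P Cg where
  rP : X.Map P
  rW : X.Map W
  ig : Cg.Map X
  ib : Cb.Map X
  pb : Cb.Map W
  kap : Ca.Map Cb
  pa : Ca.Map W
  rP_ig : ∀ q x, rP.app q (ig.app q x) = pg.app q x
  rW_ig : ∀ q x, rW.app q (ig.app q x) = 0
  rP_ib : ∀ q x, rP.app q (ib.app q x) = 0
  rW_ib : ∀ q x, rW.app q (ib.app q x) = pb.app q x
  pb_kap : ∀ q x, pb.app q (kap.app q x) = pa.app q x
  r_inj : ∀ i, i ≤ 2 * c → ∀ x : X.H (R + i), rP.app (R + i) x = 0 → rW.app (R + i) x = 0 → x = 0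
  ig_inj : ∀ x : Cg.H (R + (2 * c + 1)), ig.app _ x = 0 → x = 0
  /-- `a₂` vanishes in cohomology -/
  pa_surj : ∀ q (w : W.H q), ∃ z : Ca.H q, pa.app q z = w
  /-- `a₁` vanishes in cohomology -/
  kap_eq_zero : ∀ q (z : Ca.H q), pa.app q z = 0 → kap.app q z = 0
  /-- the connecting map of the cone of `L` -/
  dl : ∀ q, X.H q →ₗ[ZMod 2] CL.H (q + 1)
  dl_sq : ∀ q j x, dl j (X.sq q j x) = CL.sq (q + 1) (j + 1) (dl q x)
  dl_inj : ∀ x : X.H (R + (2 * c + 1)), dl _ x = 0 → x = 0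
  /-- the lift of the fundamental class -/
  b : CL.H R
  /-- the functional squares -/
  fsq : ∀ i, i ≤ c → ∃ f : X.H (R + i), dl (R + i) f = CL.sq R (R + i + 1) b ∧
    rP.app (R + i) f = v i
  ademL : CL.Adem

namespace AFData

variable {R c : ℕ} {P W Cg Cb X Ca CL : SqM} (D : AFData R c P W Cg Cb X Ca CL)

/-- **The Adams filtration lemma**: for `c + 1 = 2 ^ s`, `s ≥ 1`, the square `Sq^(c+1)` of the lift
of `v^c` to the cone of `γ` vanishes. -/
theorem sq_lift_eq_zero (s : ℕ) (hs : 1 ≤ s) (hc : c + 1 = 2 ^ s) (y : Cg.H (R + c))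
    (hy : D.pg.app (R + c) y = D.v c) : Cg.sq (R + c) (R + (2 * c + 1)) y = 0 := by
  have hc1 : 1 ≤ c := by
    obtain ⟨s, rfl⟩ : ∃ t, s = t + 1 := ⟨s - 1, by omega⟩
    have : 0 < 2 ^ s := by positivity
    rw [pow_succ] at hc
    omega
  obtain ⟨n, hn⟩ : ∃ n, c + 1 = 2 * n := by
    obtain ⟨s, rfl⟩ : ∃ t, s = t + 1 := ⟨s - 1, by omega⟩
    exact ⟨2 ^ s, by rw [hc, pow_succ, mul_comm]⟩
  -- the lifts of `v^i`
  have hg' : ∀ i, ∃ x : Cg.H (R + i), i < 2 * c → D.pg.app (R + i) x = D.v i := by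
    intro i
    by_cases hi : i < 2 * c
    · obtain ⟨x, hx⟩ := D.pg_surj i hi
      exact ⟨x, fun _ => hx⟩
    · exact ⟨0, fun h => absurd h hi⟩
  choose g hg using hg'
  have hyg : y = g c := by
    rw [← sub_eq_zero]
    apply D.pg_inj c (by omega)
    rw [map_sub, hy, hg c (by omega), sub_self]
  rw [hyg]
  -- the functional squares
  have hf' : ∀ i, ∃ f : X.H (R + i), i ≤ c →
      D.dl (R + i) f = CL.sq R (R + i + 1) D.b ∧ D.rP.app (R + i) f = D.v i := by
    intro i
    by_cases hi : i ≤ c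
    · obtain ⟨x, hx⟩ := D.fsq i hi
      exact ⟨x, fun _ => hx⟩
    · exact ⟨0, fun h => absurd h hi⟩
  choose f hf using hf'
  choose z hz using fun i => D.pa_surj (R + i) (D.rW.app (R + i) (f i))
  have hfg : ∀ i, i ≤ c → f i = D.ib.app _ (D.kap.app _ (z i)) + D.ig.app _ (g i) := by
    intro i hi
    rw [← sub_eq_zero]
    apply D.r_inj i (by omega)
    · rw [map_sub, map_add, D.rP_ib, D.rP_ig, (hf i hi).2, hg i (by omega), zero_add, sub_self]
    · rw [map_sub, map_add, D.rW_ib, D.rW_ig, D.pb_kap, hz, add_zero, sub_self]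
  -- the relation
  obtain ⟨M, hM⟩ : ∃ M, M = R + (2 * c + 1) := ⟨_, rfl⟩
  obtain ⟨C, hC⟩ : ∃ C : ℕ → ZMod 2, C = fun i =>
      (((c - (i + 1)).choose (c + 1 - 2 * (i + 1)) : ℕ) : ZMod 2) := ⟨_, rfl⟩
  have rel : X.sq (R + c) M (f c) - ∑ i ∈ range n, C i • X.sq (R + i) M (f i) = 0 := by
    subst hM
    apply D.dl_inj
    have h1 := D.ademL R (c + 1) (c + 1) (R + (2 * c + 1) + 1) D.b (by omega) (by omega)
    have h2 : (c + 1) / 2 = n := by omega
    rw [h2, sum_range_succ', Nat.choose_eq_zero_of_lt (show c + 1 - 0 - 1 < c + 1 - 2 * 0 by omega),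
      Nat.cast_zero, zero_smul, add_zero] at h1
    rw [map_sub, map_sum, sub_eq_zero, D.dl_sq, (hf c le_rfl).1]
    refine h1.trans (sum_congr rfl fun i hi => ?_)
    have hi' := mem_range.1 hi
    rw [map_smul, D.dl_sq, (hf i (by omega)).1, hC]
    have h3 : c + 1 - (i + 1) - 1 = c - (i + 1) := by omega
    rw [h3]
    rfl
  -- the part of `W`
  have relz : D.kap.app M (Ca.sq (R + c) M (z c) - ∑ i ∈ range n, C i • Ca.sq (R + i) M (z i)) =
      0 := by
    apply D.kap_eq_zero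
    have h1 := congrArg (D.rW.app M) rel
    rw [map_zero, map_sub, map_sum] at h1
    rw [map_sub, map_sum, D.pa.app_sq, hz, ← h1, D.rW.app_sq]
    congr 1
    refine sum_congr rfl fun i _ => ?_
    rw [map_smul, map_smul, D.pa.app_sq, hz, D.rW.app_sq]
  -- the part of `G`
  have relg : Cg.sq (R + c) M (g c) - ∑ i ∈ range n, C i • Cg.sq (R + i) M (g i) = 0 := by
    subst hM
    apply D.ig_inj
    have h1 := congrArg (D.ib.app (R + (2 * c + 1))) relz
    have h2 : X.sq (R + c) (R + (2 * c + 1)) (f c) =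
        D.ib.app _ (D.kap.app _ (Ca.sq (R + c) (R + (2 * c + 1)) (z c))) +
          D.ig.app _ (Cg.sq (R + c) (R + (2 * c + 1)) (g c)) := by
      rw [hfg c le_rfl, map_add, D.ig.app_sq, D.kap.app_sq, D.ib.app_sq]
    have h3 : ∑ i ∈ range n, C i • X.sq (R + i) (R + (2 * c + 1)) (f i) =
        D.ib.app _ (D.kap.app _
          (∑ i ∈ range n, C i • Ca.sq (R + i) (R + (2 * c + 1)) (z i))) +
        D.ig.app _ (∑ i ∈ range n, C i • Cg.sq (R + i) (R + (2 * c + 1)) (g i)) := by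
      rw [map_sum, map_sum, map_sum, ← sum_add_distrib]
      refine sum_congr rfl fun i hi => ?_
      have hi' := mem_range.1 hi
      rw [hfg i (by omega), map_add, smul_add, map_smul, map_smul, map_smul, D.ig.app_sq,
        D.kap.app_sq, D.ib.app_sq]
    rw [h2, h3] at rel
    rw [map_zero, map_sub, map_sub] at h1
    rw [map_sub]
    rw [← rel]
    rw [sub_eq_zero] at h1
    rw [h1]
    abel
  rw [sub_eq_zero] at relg
  subst hM
  rw [relg]
  refine sum_eq_zero fun i hi => ?_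
  have hi' := mem_range.1 hi
  rw [D.toConeData.sq_lift_eq_zero_of_lt s hc (fun i hi => hg i hi) i (by omega), smul_zero]

end AFData

end Vale.Agent.P263.K
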