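import Mathlib

/-!
P263, block K (helper7): `x_c` (the dual of `v^c` in `F_2[v]`) is annihilated by all `Sq^i`, `i ≥ 1`,
exactly when `c = 2^s - 1`.
-/

namespace Vale.Agent.P263.K

/-- Lucas at a power of two: if `2^t ≤ a` with the bit `t` of `a` equal to one, then `a.choose (2^t)` is odd;
in the form `a = 2^(t+1) * b + 2^t + r`, `r < 2^t`. -/
theorem choose_two_pow_odd (t b r : ℕ) (hr : r < 2 ^ t) :
    (2 ^ (t + 1) * b + 2 ^ t + r).choose (2 ^ t) % 2 = 1 := by
  induction t generalizing b r with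
  | zero =>
    have : r = 0 := by simpa using hr
    subst this
    simp [Nat.add_mod, Nat.mul_mod]
  | succ t ih =>
    have : Fact (Nat.Prime 2) := ⟨Nat.prime_two⟩
    have h := Choose.choose_modEq_choose_mod_mul_choose_div_nat
      (n := 2 ^ (t + 1 + 1) * b + 2 ^ (t + 1) + r) (k := 2 ^ (t + 1)) (p := 2)
    have hk0 : 2 ^ (t + 1) % 2 = 0 := by rw [pow_succ]; simp
    have hk1 : 2 ^ (t + 1) / 2 = 2 ^ t := by rw [pow_succ]; simp
    have hn1 : (2 ^ (t + 1 + 1) * b + 2 ^ (t + 1) + r) / 2 = 2 ^ (t + 1) * b + 2 ^ t + r / 2 := by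
      have e : 2 ^ (t + 1 + 1) * b + 2 ^ (t + 1) + r = r + 2 * (2 ^ (t + 1) * b + 2 ^ t) := by
        rw [pow_succ 2 (t + 1), pow_succ 2 t]; ring
      rw [e, Nat.add_mul_div_left _ _ (by norm_num)]; ring
    rw [hk0, hk1, hn1, Nat.choose_zero_right, one_mul] at h
    have h2 := ih b (r / 2) (by
      rw [pow_succ] at hr; omega)
    rw [Nat.ModEq] at h
    rw [h]; exact h2

/-- If `c ≥ 1` and `(c-i).choose i` is even for all `1 ≤ i`, `2 i ≤ c`, then `c + 1` is a power of two. -/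
theorem eq_two_pow_of_choose (c : ℕ) (h : ∀ i, 1 ≤ i → 2 * i ≤ c → (c - i).choose i % 2 = 0) :
    ∃ s, c + 1 = 2 ^ s := by
  by_contra hne
  push Not at hne
  -- lowest zero bit `t` of `c`: `2^t` is the exact power of two dividing `c + 1`
  obtain ⟨t, m, hm, hc⟩ := Nat.exists_eq_two_pow_mul_odd (n := c + 1) (by omega)
  obtain ⟨k, hk⟩ := hm
  have hk0 : k ≠ 0 := by
    rintro rfl
    apply hne t
    rw [hc, hk]; simp
  obtain ⟨k', rfl⟩ : ∃ k', k = k' + 1 := ⟨k - 1, by omega⟩
  have hpos : 0 < 2 ^ t := by positivity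
  have hc' : c + 1 = 2 ^ t * (2 * k') + 2 ^ t + 2 ^ t + 2 ^ t := by
    rw [hc, hk]; ring
  have hsub : c - 2 ^ t = 2 ^ (t + 1) * k' + 2 ^ t + (2 ^ t - 1) := by
    have e : 2 ^ (t + 1) * k' = 2 ^ t * (2 * k') := by rw [pow_succ]; ring
    rw [e]; omega
  have h1 := h (2 ^ t) hpos (by
    have : 0 ≤ 2 ^ t * (2 * k') := Nat.zero_le _
    omega)
  have h2 := choose_two_pow_odd t k' (2 ^ t - 1) (by omega)
  rw [hsub] at h1
  omega

/-- the converse: for `c + 1 = 2^s` all these binomial coefficients are even. -/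
theorem choose_even_of_two_pow (s c i : ℕ) (hc : c + 1 = 2 ^ s) (hi : 1 ≤ i) (hic : i ≤ c) :
    (c - i).choose i % 2 = 0 := by
  induction s generalizing c i with
  | zero => simp at hc; omega
  | succ s ih =>
    have : Fact (Nat.Prime 2) := ⟨Nat.prime_two⟩
    have h := Choose.choose_modEq_choose_mod_mul_choose_div_nat
      (n := c - i) (k := i) (p := 2)
    rw [Nat.ModEq] at h
    rw [pow_succ] at hc
    rw [h]
    rcases Nat.even_or_odd' i with ⟨j, hj | hj⟩
    · subst hj
      have e1 : (2 * j) % 2 = 0 := by omega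
      have e2 : (2 * j) / 2 = j := by omega
      have e3 : (c - 2 * j) / 2 = (c / 2) - j := by omega
      rw [e1, e2, e3, Nat.choose_zero_right, one_mul]
      exact ih (c / 2) j (by omega) (by omega) (by omega)
    · have e1 : i % 2 = 1 := by omega
      have e2 : (c - i) % 2 = 0 := by omega
      rw [e1, e2]
      simp

end Vale.Agent.P263.K
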