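import Vale.Agent.P263.S.Sq
import Vale.Agent.P263.S.Ker
import Vale.Agent.P263.S.Htpy

/-!
# P263, section K (helper659): double mapping cylinders of cosimplicial algebras

`cyl A` : functions on `Δ¹` with values in `A` (for `A = F X` the functions on `X × Δ¹`).
`Dbl f g` for `f : P → A`, `g : W → A` : triples `(x, w, h)` with `h` a path from `f x` to `g w`.
`Dbl.del : H^k(A) → H^(k+1)(Dbl f g)` and the exact sequence
`H^k(P) × H^k(W) → H^k(A) → H^(k+1)(Dbl f g) → H^(k+1)(P) × H^(k+1)(W) → H^(k+1)(A)`.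
-/

noncomputable section

namespace Vale.Agent.P263.Cof

open Vale.Agent.P263.S CosMod

/-- cosimplicial `𝔽₂`-modules -/
abbrev CM : Type 1 := CosMod (ZMod 2)

/-! ### paths -/

/-- functions on `Δ¹` with values in `A` -/
def cyl (A : CM) : CM where
  obj p := Op p 1 → A.obj p
  map α :=
    { toFun := fun w θ => A.map α (w (θ.comp α))
      map_add' := fun w w' => by funext θ; exact map_add _ _ _
      map_smul' := fun r w => by funext θ; exact map_smul _ _ _ }
  map_id := by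
    intro p
    apply LinearMap.ext
    intro w
    funext θ
    exact A.map_id_apply _
  map_comp f g := by
    apply LinearMap.ext
    intro w
    funext θ
    exact (A.map_map f g _).symm

variable {A P W A' P' W' : CM}

theorem cyl_map {p q : ℕ} (α : Op p q) (w : (cyl A).obj p) (θ : Op q 1) :
    (cyl A).map α w θ = A.map α (w (θ.comp α)) := rfl

/-- evaluation at the vertex `0` -/
def ev0 (A : CM) : Hom (cyl A) A where
  app p := LinearMap.proj (c0 p)
  nat α w := by
    show A.map α (w _) = _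
    rw [c0_comp]; rfl

/-- evaluation at the vertex `1` -/
def ev1 (A : CM) : Hom (cyl A) A where
  app p := LinearMap.proj (c1 p)
  nat α w := by
    show A.map α (w _) = _
    rw [c1_comp]; rfl

@[simp] theorem ev0_app (p : ℕ) (w : (cyl A).obj p) : (ev0 A).app p w = w (c0 p) := rfl
@[simp] theorem ev1_app (p : ℕ) (w : (cyl A).obj p) : (ev1 A).app p w = w (c1 p) := rfl

theorem c0_ne_c1 (p : ℕ) : c0 p ≠ c1 p := fun h => by
  have e := congrArg (fun θ : Op p 1 => θ 0) h
  have e' : (c0 p) 0 = (c1 p) 0 := e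
  rw [c0_val, c1_val] at e'
  exact absurd e' (by decide)

/-- constant paths -/
def cst (A : CM) : Hom A (cyl A) where
  app p := LinearMap.pi fun _ => LinearMap.id
  nat α w := rfl

@[simp] theorem cst_app (p : ℕ) (x : A.obj p) (θ : Op p 1) : (cst A).app p x θ = x := rfl

/-- the extension of an element at the vertex `0` by zero -/
def tO (A : CM) (p : ℕ) : A.obj p →ₗ[ZMod 2] (cyl A).obj p where
  toFun x θ := if θ = c0 p then x else 0
  map_add' x y := by
    funext θ
    show (if θ = c0 p then x + y else 0) = (if θ = c0 p then x else 0) + (if θ = c0 p then y else 0)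
    split_ifs <;> simp
  map_smul' r x := by
    funext θ
    show (if θ = c0 p then r • x else 0) = r • (if θ = c0 p then x else 0)
    split_ifs <;> simp

@[simp] theorem tO_c0 (p : ℕ) (x : A.obj p) : tO A p x (c0 p) = x := if_pos rfl
@[simp] theorem tO_c1 (p : ℕ) (x : A.obj p) : tO A p x (c1 p) = 0 := if_neg (c0_ne_c1 p).symm

theorem d_c0 (p : ℕ) (w : (cyl A).obj p) : (cyl A).d p w (c0 (p + 1)) = A.d p (w (c0 p)) :=
  (ev0 A).app_d p w

theorem d_c1 (p : ℕ) (w : (cyl A).obj p) : (cyl A).d p w (c1 (p + 1)) = A.d p (w (c1 p)) :=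
  (ev1 A).app_d p w

/-- the tautological homotopy between the two ends -/
def prEnds (A : CM) : Prism (cyl A) A where
  h _ θ := LinearMap.proj θ
  nat _ _ _ := rfl

theorem ends_mapH (p : ℕ) (x : (cyl A).H p) : (ev1 A).mapH p x = (ev0 A).mapH p x :=
  (prEnds A).mapH_end p x

/-- paths ending at zero -/
def PA (A : CM) : CM := Hom.ker (ev1 A)

/-- the contraction of the paths ending at zero -/
def prPA (A : CM) : Prism (PA A) (PA A) where
  h p η :=
    { toFun := fun w => ⟨fun θ => w.1 (θ ⊔ η), by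
        show w.1 (c1 p ⊔ η) = 0
        have e : c1 p ⊔ η = c1 p := by
          apply OrderHom.ext
          funext x
          show c1 p x ⊔ η x = c1 p x
          rw [c1_val]
          exact sup_eq_left.2 (Fin.le_last _)
        rw [e]
        exact w.2⟩
      map_add' := fun w w' => rfl
      map_smul' := fun r w => rfl }
  nat α θ x := rfl

/-- the paths ending at zero are acyclic -/
theorem PA_acyclic (A : CM) (p : ℕ) : (PA A).Z p ≤ (PA A).Bd p := by
  refine CosMod.Z_le_Bd_of_prism' (prPA A) (fun p x => ?_) (fun p x => ?_) p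
  · apply Subtype.ext
    funext θ
    show x.1 (θ ⊔ c1 p) = 0
    have e : θ ⊔ c1 p = c1 p := by
      apply OrderHom.ext
      funext y
      show θ y ⊔ c1 p y = c1 p y
      rw [c1_val]
      exact sup_eq_right.2 (Fin.le_last _)
    rw [e]
    exact x.2
  · apply Subtype.ext
    funext θ
    show x.1 (θ ⊔ c0 p) = x.1 θ
    have e : θ ⊔ c0 p = θ := by
      apply OrderHom.ext
      funext y
      show θ y ⊔ c0 p y = θ y
      rw [c0_val]
      exact sup_eq_left.2 (Fin.zero_le _)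
    rw [e]

theorem exists_path {k : ℕ} {h : (cyl A).obj (k + 1)} (hd : (cyl A).d (k + 1) h = 0)
    (h1 : h (c1 (k + 1)) = 0) : ∃ y : (cyl A).obj k, (cyl A).d k y = h ∧ y (c1 k) = 0 := by
  have hz : (PA A).d (k + 1) (⟨h, h1⟩ : (PA A).obj (k + 1)) = 0 :=
    Subtype.ext (((Hom.kerI (ev1 A)).app_d (k + 1) (⟨h, h1⟩ : (PA A).obj (k + 1))).trans hd)
  obtain ⟨y, hy⟩ := PA_acyclic A (k + 1) hz
  refine ⟨y.1, ?_, y.2⟩
  exact ((Hom.kerI (ev1 A)).app_d k y).symm.trans (congrArg Subtype.val hy)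

theorem path_zero {h : (cyl A).obj 0} (hd : (cyl A).d 0 h = 0) (h1 : h (c1 0) = 0) : h = 0 := by
  have hz : (PA A).d 0 (⟨h, h1⟩ : (PA A).obj 0) = 0 :=
    Subtype.ext (((Hom.kerI (ev1 A)).app_d 0 (⟨h, h1⟩ : (PA A).obj 0)).trans hd)
  exact congrArg Subtype.val (mem_Bd_zero.1 (PA_acyclic A 0 hz))

/-! ### double mapping cylinders -/

/-- the triples `(x, w, h)` with `h` a path from `f x` to `g w` -/
def dblS (f : Hom P A) (g : Hom W A) (p : ℕ) :
    Submodule (ZMod 2) (P.obj p × W.obj p × (cyl A).obj p) where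
  carrier := {x | x.2.2 (c0 p) = f.app p x.1 ∧ x.2.2 (c1 p) = g.app p x.2.1}
  add_mem' := by
    rintro x y ⟨h1, h2⟩ ⟨h3, h4⟩
    refine ⟨?_, ?_⟩
    · show x.2.2 _ + y.2.2 _ = f.app p (x.1 + y.1)
      rw [h1, h3, map_add]
    · show x.2.2 _ + y.2.2 _ = g.app p (x.2.1 + y.2.1)
      rw [h2, h4, map_add]
  zero_mem' := ⟨(map_zero (f.app p)).symm, (map_zero (g.app p)).symm⟩
  smul_mem' := by
    rintro r x ⟨h1, h2⟩
    refine ⟨?_, ?_⟩
    · show r • x.2.2 _ = f.app p (r • x.1)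
      rw [h1, map_smul]
    · show r • x.2.2 _ = g.app p (r • x.2.1)
      rw [h2, map_smul]

/-- **The double mapping cylinder.** -/
def Dbl (f : Hom P A) (g : Hom W A) : CM where
  obj p := dblS f g p
  map {p q} α := ((P.map α).prodMap ((W.map α).prodMap ((cyl A).map α))).restrict (by
    rintro x ⟨h1, h2⟩
    refine ⟨?_, ?_⟩
    · show A.map α (x.2.2 ((c0 q).comp α)) = f.app q (P.map α x.1)
      rw [c0_comp, h1, f.nat]
    · show A.map α (x.2.2 ((c1 q).comp α)) = g.app q (W.map α x.2.1)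
      rw [c1_comp, h2, g.nat])
  map_id := by
    intro p
    apply LinearMap.ext
    intro x
    apply Subtype.ext
    refine Prod.ext (P.map_id_apply _) (Prod.ext (W.map_id_apply _) ((cyl A).map_id_apply _))
  map_comp α β := by
    apply LinearMap.ext
    intro x
    apply Subtype.ext
    exact Prod.ext (P.map_map α β _).symm (Prod.ext (W.map_map α β _).symm
      ((cyl A).map_map α β _).symm)

namespace Dbl

variable (f : Hom P A) (g : Hom W A)

/-- the first projection -/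
def fst : Hom (Dbl f g) P where
  app p := (LinearMap.fst _ _ _).comp (dblS f g p).subtype
  nat _ _ := rfl

/-- the second projection -/
def snd : Hom (Dbl f g) W where
  app p := (LinearMap.fst _ _ _).comp ((LinearMap.snd _ _ _).comp (dblS f g p).subtype)
  nat _ _ := rfl

/-- the path -/
def pth : Hom (Dbl f g) (cyl A) where
  app p := (LinearMap.snd _ _ _).comp ((LinearMap.snd _ _ _).comp (dblS f g p).subtype)
  nat _ _ := rfl

variable {f g}

@[simp] theorem fst_app (p : ℕ) (x : (Dbl f g).obj p) : (fst f g).app p x = x.1.1 := rfl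
@[simp] theorem snd_app (p : ℕ) (x : (Dbl f g).obj p) : (snd f g).app p x = x.1.2.1 := rfl
@[simp] theorem pth_app (p : ℕ) (x : (Dbl f g).obj p) : (pth f g).app p x = x.1.2.2 := rfl

/-- the element `(x, w, h)` -/
def mk (f : Hom P A) (g : Hom W A) {p : ℕ} (x : P.obj p) (w : W.obj p) (h : (cyl A).obj p)
    (h0 : h (c0 p) = f.app p x) (h1 : h (c1 p) = g.app p w) : (Dbl f g).obj p :=
  ⟨(x, w, h), h0, h1⟩

theorem ext {p : ℕ} {x y : (Dbl f g).obj p} (h1 : x.1.1 = y.1.1) (h2 : x.1.2.1 = y.1.2.1)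
    (h3 : x.1.2.2 = y.1.2.2) : x = y := Subtype.ext (Prod.ext h1 (Prod.ext h2 h3))

theorem c0_eq {p : ℕ} (x : (Dbl f g).obj p) : x.1.2.2 (c0 p) = f.app p x.1.1 := x.2.1
theorem c1_eq {p : ℕ} (x : (Dbl f g).obj p) : x.1.2.2 (c1 p) = g.app p x.1.2.1 := x.2.2

theorem d_fst {p : ℕ} (x : (Dbl f g).obj p) : ((Dbl f g).d p x).1.1 = P.d p x.1.1 :=
  (fst f g).app_d p x

theorem d_snd {p : ℕ} (x : (Dbl f g).obj p) : ((Dbl f g).d p x).1.2.1 = W.d p x.1.2.1 :=
  (snd f g).app_d p x

theorem d_pth {p : ℕ} (x : (Dbl f g).obj p) :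
    ((Dbl f g).d p x).1.2.2 = (cyl A).d p x.1.2.2 := (pth f g).app_d p x

theorem mem_Z_iff {p : ℕ} {x : (Dbl f g).obj p} : x ∈ (Dbl f g).Z p ↔
    P.d p x.1.1 = 0 ∧ W.d p x.1.2.1 = 0 ∧ (cyl A).d p x.1.2.2 = 0 := by
  rw [mem_Z]
  constructor
  · intro h
    refine ⟨?_, ?_, ?_⟩
    · rw [← d_fst, h]; rfl
    · rw [← d_snd, h]; rfl
    · rw [← d_pth, h]; rfl
  · rintro ⟨h1, h2, h3⟩
    apply ext
    · rw [d_fst, h1]; rfl
    · rw [d_snd, h2]; rfl
    · rw [d_pth, h3]; rfl

variable (f g)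

/-- `a ↦ (0, 0, d (t a))` -/
def delZ (k : ℕ) : A.Z k →ₗ[ZMod 2] (Dbl f g).Z (k + 1) where
  toFun a := ⟨mk f g 0 0 ((cyl A).d k (tO A k a.1)) (by
      rw [d_c0, tO_c0, map_zero]; exact a.2) (by
      rw [d_c1, tO_c1, map_zero, map_zero]),
    mem_Z_iff.2 ⟨map_zero _, map_zero _, (cyl A).d_d k _⟩⟩
  map_add' a b := by
    apply Subtype.ext
    refine ext (add_zero (0 : P.obj (k + 1))).symm (add_zero (0 : W.obj (k + 1))).symm ?_
    show (cyl A).d k (tO A k (a.1 + b.1)) = (cyl A).d k (tO A k a.1) + (cyl A).d k (tO A k b.1)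
    rw [map_add, map_add]
  map_smul' r a := by
    apply Subtype.ext
    refine ext (smul_zero (A := P.obj (k + 1)) r).symm (smul_zero (A := W.obj (k + 1)) r).symm ?_
    show (cyl A).d k (tO A k (r • a.1)) = r • (cyl A).d k (tO A k a.1)
    rw [map_smul, map_smul]

theorem delZ_mem {k : ℕ} {a : A.Z k} (ha : (a : A.obj k) ∈ A.Bd k) :
    ((delZ f g k a : (Dbl f g).Z (k + 1)) : (Dbl f g).obj (k + 1)) ∈ (Dbl f g).Bd (k + 1) := by
  cases k with
  | zero =>
    rw [mem_Bd_zero] at ha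
    have e : a = 0 := Subtype.ext ha
    rw [e, map_zero]
    exact Submodule.zero_mem _
  | succ k =>
    obtain ⟨a', ha'⟩ := ha
    refine ⟨mk f g 0 0 (tO A (k + 1) a.1 + (cyl A).d k (tO A k a')) ?_ ?_, ?_⟩
    · show tO A (k + 1) a.1 _ + (cyl A).d k (tO A k a') _ = _
      rw [tO_c0, d_c0, tO_c0, ha', map_zero]
      exact add_self_two _
    · show tO A (k + 1) a.1 _ + (cyl A).d k (tO A k a') _ = _
      rw [tO_c1, d_c1, tO_c1, map_zero, map_zero, add_zero]
    · apply ext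
      · rw [d_fst]; exact map_zero _
      · rw [d_snd]; exact map_zero _
      · rw [d_pth]
        show (cyl A).d (k + 1) (tO A (k + 1) a.1 + (cyl A).d k (tO A k a')) = _
        rw [map_add, d_d, add_zero]
        rfl

/-- **The connecting map.** -/
def del (k : ℕ) : A.H k →ₗ[ZMod 2] (Dbl f g).H (k + 1) :=
  liftH (((Dbl f g).cls (k + 1)).comp (delZ f g k)) fun z hz =>
    cls_eq_zero_iff.2 (delZ_mem f g hz)

@[simp] theorem del_cls (k : ℕ) (a : A.Z k) :
    del f g k (A.cls k a) = (Dbl f g).cls (k + 1) (delZ f g k a) := rfl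

theorem fst_del (k : ℕ) (a : A.H k) : (fst f g).mapH (k + 1) (del f g k a) = 0 := by
  induction a using H_ind with
  | h z =>
    rw [del_cls, Hom.mapH_cls, cls_eq_zero_iff]
    exact Submodule.zero_mem _

theorem snd_del (k : ℕ) (a : A.H k) : (snd f g).mapH (k + 1) (del f g k a) = 0 := by
  induction a using H_ind with
  | h z =>
    rw [del_cls, Hom.mapH_cls, cls_eq_zero_iff]
    exact Submodule.zero_mem _

/-- compatibility of the projections -/
theorem fst_snd (k : ℕ) (x : (Dbl f g).H k) :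
    f.mapH k ((fst f g).mapH k x) = g.mapH k ((snd f g).mapH k x) := by
  rw [← Hom.mapH_comp, ← Hom.mapH_comp]
  have h1 : f.comp (fst f g) = (ev0 A).comp (pth f g) := by
    apply Hom.ext
    intro p y
    exact (c0_eq y).symm
  have h2 : g.comp (snd f g) = (ev1 A).comp (pth f g) := by
    apply Hom.ext
    intro p y
    exact (c1_eq y).symm
  rw [h1, h2, Hom.mapH_comp, Hom.mapH_comp, ends_mapH]

/-- exactness at `H(P) × H(W)` -/
theorem exists_lift (k : ℕ) (x : P.H k) (w : W.H k) (h : f.mapH k x = g.mapH k w) :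
    ∃ z : (Dbl f g).H k, (fst f g).mapH k z = x ∧ (snd f g).mapH k z = w := by
  induction x using H_ind with
  | h x =>
  induction w using H_ind with
  | h w =>
  rw [Hom.mapH_cls, Hom.mapH_cls, cls_eq_iff] at h
  have hx : P.d k x.1 = 0 := x.2
  have hw : W.d k w.1 = 0 := w.2
  have key : ∃ t : (cyl A).obj k, (cyl A).d k t = 0 ∧ t (c0 k) = f.app k x.1 - g.app k w.1 ∧
      t (c1 k) = 0 := by
    cases k with
    | zero =>
      rw [mem_Bd_zero] at h
      exact ⟨0, map_zero _, h.symm, rfl⟩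
    | succ k =>
      obtain ⟨a, ha⟩ := h
      refine ⟨(cyl A).d k (tO A k a), (cyl A).d_d k _, ?_, ?_⟩
      · rw [d_c0, tO_c0, ha]; rfl
      · rw [d_c1, tO_c1, map_zero]
  obtain ⟨t, ht, ht0, ht1⟩ := key
  have e0 : (t + (cst A).app k (g.app k w.1)) (c0 k) = f.app k x.1 := by
    show t (c0 k) + g.app k w.1 = _
    rw [ht0, sub_add_cancel]
  have e1 : (t + (cst A).app k (g.app k w.1)) (c1 k) = g.app k w.1 := by
    show t (c1 k) + g.app k w.1 = _
    rw [ht1, zero_add]
  have hz : mk f g x.1 w.1 (t + (cst A).app k (g.app k w.1)) e0 e1 ∈ (Dbl f g).Z k := by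
    refine mem_Z_iff.2 ⟨hx, hw, ?_⟩
    show (cyl A).d k (t + (cst A).app k (g.app k w.1)) = 0
    rw [map_add, ht, ← (cst A).app_d, ← g.app_d, hw, map_zero, map_zero, add_zero]
  exact ⟨(Dbl f g).cls k ⟨_, hz⟩, rfl, rfl⟩

/-- exactness at `H(Dbl)` -/
theorem exists_del (k : ℕ) (z : (Dbl f g).H (k + 1)) (h1 : (fst f g).mapH (k + 1) z = 0)
    (h2 : (snd f g).mapH (k + 1) z = 0) : ∃ a, del f g k a = z := by
  induction z using H_ind with
  | h z =>
  rw [Hom.mapH_cls, cls_eq_zero_iff] at h1 h2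
  obtain ⟨x', hx'⟩ := h1
  obtain ⟨w', hw'⟩ := h2
  have hx : P.d k x' = z.1.1.1 := hx'
  have hw : W.d k w' = z.1.1.2.1 := hw'
  obtain ⟨hz1, hz2, hz3⟩ := mem_Z_iff.1 z.2
  -- subtract the boundary of `(x', w', H)`
  let H : (cyl A).obj k := tO A k (f.app k x' - g.app k w') + (cst A).app k (g.app k w')
  have H0 : H (c0 k) = f.app k x' := by
    show tO A k (f.app k x' - g.app k w') (c0 k) + g.app k w' = _
    rw [tO_c0, sub_add_cancel]
  have H1 : H (c1 k) = g.app k w' := by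
    show tO A k (f.app k x' - g.app k w') (c1 k) + g.app k w' = _
    rw [tO_c1, zero_add]
  obtain ⟨y, hy, hy1⟩ := exists_path (A := A) (k := k) (h := z.1.1.2.2 - (cyl A).d k H)
    (by rw [map_sub, hz3, d_d, sub_zero]) (by
      show z.1.1.2.2 (c1 (k + 1)) - (cyl A).d k H (c1 (k + 1)) = 0
      rw [d_c1, H1, c1_eq, ← hw, ← g.app_d, sub_self])
  have hy0 : A.d k (y (c0 k)) = 0 := by
    rw [← d_c0, hy]
    show z.1.1.2.2 (c0 (k + 1)) - (cyl A).d k H (c0 (k + 1)) = 0
    rw [d_c0, H0, c0_eq, ← hx, ← f.app_d, sub_self]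
  refine ⟨A.cls k ⟨y (c0 k), hy0⟩, ?_⟩
  rw [del_cls, cls_eq_iff]
  refine ⟨mk f g x' w' (H + (y - tO A k (y (c0 k)))) ?_ ?_, ?_⟩
  · show H _ + (y _ - tO A k (y (c0 k)) _) = _
    rw [H0, tO_c0, sub_self, add_zero]
  · show H _ + (y _ - tO A k (y (c0 k)) _) = _
    rw [H1, tO_c1, hy1, sub_zero, add_zero]
  · apply ext
    · rw [d_fst]
      show P.d k x' = 0 - z.1.1.1
      rw [hx, zero_sub]
      exact (neg_eq_of_add_eq_zero_left (add_self_two _)).symm
    · rw [d_snd]
      show W.d k w' = 0 - z.1.1.2.1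
      rw [hw, zero_sub]
      exact (neg_eq_of_add_eq_zero_left (add_self_two _)).symm
    · rw [d_pth]
      show (cyl A).d k (H + (y - tO A k (y (c0 k)))) =
        (cyl A).d k (tO A k (y (c0 k))) - z.1.1.2.2
      rw [map_add, map_sub, hy]
      have e : ∀ a b c : (cyl A).obj (k + 1), a + (b - a - c) = c - b := by
        intro a b c
        have h1 : b + b = 0 := add_self_two b
        have h2 : c + c = 0 := add_self_two c
        calc a + (b - a - c) = (c - b) + (b + b) - (c + c) := by abel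
          _ = c - b := by rw [h1, h2, add_zero, sub_zero]
      exact e _ _ _

theorem eq_zero_of_zero (z : (Dbl f g).H 0) (h1 : (fst f g).mapH 0 z = 0)
    (h2 : (snd f g).mapH 0 z = 0) : z = 0 := by
  induction z using H_ind with
  | h z =>
  rw [Hom.mapH_cls, cls_eq_zero_iff, mem_Bd_zero] at h1 h2
  have h1' : z.1.1.1 = 0 := h1
  have h2' : z.1.1.2.1 = 0 := h2
  obtain ⟨hz1, hz2, hz3⟩ := mem_Z_iff.1 z.2
  have e := path_zero hz3 (by rw [c1_eq, h2', map_zero])
  rw [cls_eq_zero_iff, mem_Bd_zero]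
  exact ext h1' h2' e

theorem del_fg (k : ℕ) (x : P.H k) (w : W.H k) : del f g k (f.mapH k x + g.mapH k w) = 0 := by
  induction x using H_ind with
  | h x =>
  induction w using H_ind with
  | h w =>
  have hx : P.d k x.1 = 0 := x.2
  have hw : W.d k w.1 = 0 := w.2
  rw [Hom.mapH_cls, Hom.mapH_cls, ← map_add, del_cls, cls_eq_zero_iff]
  refine ⟨mk f g x.1 w.1 (tO A k (f.app k x.1 + g.app k w.1) + (cst A).app k (g.app k w.1))
    ?_ ?_, ?_⟩
  · show tO A k (f.app k x.1 + g.app k w.1) (c0 k) + g.app k w.1 = _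
    rw [tO_c0, add_assoc, add_self_two, add_zero]
  · show tO A k (f.app k x.1 + g.app k w.1) (c1 k) + g.app k w.1 = _
    rw [tO_c1, zero_add]
  · apply ext
    · rw [d_fst]; exact hx
    · rw [d_snd]; exact hw
    · rw [d_pth]
      show (cyl A).d k (tO A k (f.app k x.1 + g.app k w.1) + (cst A).app k (g.app k w.1)) =
        (cyl A).d k (tO A k (f.app k x.1 + g.app k w.1))
      rw [map_add, ← (cst A).app_d, ← g.app_d, hw, map_zero, map_zero, add_zero]

/-- exactness at `H(A)` -/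
theorem exists_of_del_eq_zero (k : ℕ) (a : A.H k) (h : del f g k a = 0) :
    ∃ (x : P.H k) (w : W.H k), a = f.mapH k x + g.mapH k w := by
  induction a using H_ind with
  | h a =>
  rw [del_cls, cls_eq_zero_iff] at h
  obtain ⟨z, hz⟩ := h
  have h1 : P.d k z.1.1 = 0 := by rw [← d_fst, hz]; rfl
  have h2 : W.d k z.1.2.1 = 0 := by rw [← d_snd, hz]; rfl
  have h3 : (cyl A).d k z.1.2.2 = (cyl A).d k (tO A k a.1) := by rw [← d_pth, hz]; rfl
  have hy : z.1.2.2 - tO A k a.1 ∈ (cyl A).Z k := by rw [mem_Z, map_sub, h3, sub_self]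
  have h4 := ends_mapH (A := A) k ((cyl A).cls k ⟨_, hy⟩)
  rw [Hom.mapH_cls, Hom.mapH_cls] at h4
  have e1 : (ev1 A).app k (z.1.2.2 - tO A k a.1) = g.app k z.1.2.1 := by
    show z.1.2.2 (c1 k) - tO A k a.1 (c1 k) = _
    rw [tO_c1, sub_zero, c1_eq]
  have e0 : (ev0 A).app k (z.1.2.2 - tO A k a.1) = f.app k z.1.1 - a.1 := by
    show z.1.2.2 (c0 k) - tO A k a.1 (c0 k) = _
    rw [tO_c0, c0_eq]
  refine ⟨P.cls k ⟨z.1.1, h1⟩, W.cls k ⟨z.1.2.1, h2⟩, ?_⟩
  rw [Hom.mapH_cls, Hom.mapH_cls]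
  have h5 : A.cls k ⟨g.app k z.1.2.1, g.app_mem_Z h2⟩ =
      A.cls k ⟨f.app k z.1.1, f.app_mem_Z h1⟩ - A.cls k a := by
    rw [← map_sub]
    refine Eq.trans ?_ (h4.trans ?_)
    · exact congrArg _ (Subtype.ext e1.symm)
    · exact congrArg _ (Subtype.ext e0)
  show A.cls k a = A.cls k ⟨f.app k z.1.1, f.app_mem_Z h1⟩ + A.cls k ⟨g.app k z.1.2.1, g.app_mem_Z h2⟩
  rw [h5, ← add_sub_assoc, add_self_two, zero_sub]
  exact (neg_eq_of_add_eq_zero_left (add_self_two _)).symm

end Dbl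

end Vale.Agent.P263.Cof
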