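import Vale.Agent.P263.K.CofAlg

/-!
# P263, section K (helper659): the Adams filtration lemma for cosimplicial algebras

`AFIn` : the input (algebras of cochains of spaces, `λ : G → T`, `γ : Σ → G`, `β = a₂ a₁`, a
homotopy from `λ γ` to `a₃ β`); `AFIn.data : K.AFData ..`; **`AFIn.sq_eq_zero`** : if
`c + 1 = 2 ^ s`, `s ≥ 1`, then `Sq^(c+1)` of the lift of `v^c` to the cone of `γ` vanishes.
-/

noncomputable section

namespace Vale.Agent.P263.Cof

open Finset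
open Vale.Agent.P263.S CosMod

section zero

variable {P W A W1 : CAlg} (φ : AHom P A) (ψ : AHom W A)

/-- a class of positive degree on which both projections vanish comes from `A` -/
theorem dbl.exists_del {k : ℕ} (z : (dbl φ ψ).H (k + 1)) (h1 : (dbl.fst φ ψ).H (k + 1) z = 0)
    (h2 : (dbl.snd φ ψ).H (k + 1) z = 0) : ∃ a, dbl.del φ ψ k a = z :=
  Dbl.exists_del φ.f ψ.f k z h1 h2

theorem dbl.eq_zero {k : ℕ} (hk : ∀ i, k = i + 1 → ∀ x : A.H i, x = 0) (z : (dbl φ ψ).H k)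
    (h1 : (dbl.fst φ ψ).H k z = 0) (h2 : (dbl.snd φ ψ).H k z = 0) : z = 0 := by
  cases k with
  | zero => exact Dbl.eq_zero_of_zero φ.f ψ.f z h1 h2
  | succ k =>
    obtain ⟨a, rfl⟩ := dbl.exists_del φ ψ z h1 h2
    rw [hk k rfl a, map_zero]

theorem dbl.exists_lift {k : ℕ} (x : P.H k) (w : W.H k) (h : φ.H k x = ψ.H k w) :
    ∃ z : (dbl φ ψ).H k, (dbl.fst φ ψ).H k z = x ∧ (dbl.snd φ ψ).H k z = w :=
  Dbl.exists_lift φ.f ψ.f k x w h

/-- the mapping cone of `φ` -/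
abbrev cone : CAlg := dbl φ (CAlg.zeroHom A)

theorem cone_exists_lift {k : ℕ} (x : P.H k) (h : φ.H k x = 0) :
    ∃ z : (cone φ).H k, (dbl.fst φ (CAlg.zeroHom A)).H k z = x := by
  obtain ⟨z, hz, _⟩ := dbl.exists_lift φ (CAlg.zeroHom A) x 0 (by rw [h, map_zero])
  exact ⟨z, hz⟩

theorem cone_exists_del {k : ℕ} (z : (cone φ).H (k + 1))
    (h : (dbl.fst φ (CAlg.zeroHom A)).H (k + 1) z = 0) :
    ∃ a, dbl.del φ (CAlg.zeroHom A) k a = z :=
  dbl.exists_del φ _ z h (CAlg.zero_H _ _)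

theorem cone_eq_zero {k : ℕ} (hk : ∀ i, k = i + 1 → ∀ x : A.H i, x = 0) (z : (cone φ).H k)
    (h : (dbl.fst φ (CAlg.zeroHom A)).H k z = 0) : z = 0 :=
  dbl.eq_zero φ _ hk z h (CAlg.zero_H _ _)

theorem cone_exists_of_del_eq_zero {k : ℕ} (a : A.H k)
    (h : dbl.del φ (CAlg.zeroHom A) k a = 0) : ∃ x : P.H k, a = φ.H k x := by
  obtain ⟨x, w, hx⟩ := Dbl.exists_of_del_eq_zero φ.f (CAlg.zeroHom A).f k a h
  refine ⟨x, ?_⟩
  have hw : (CAlg.zeroHom A).f.mapH k w = 0 := by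
    rw [CAlg.zero_H k w, map_zero]
  rw [hx, hw, add_zero]

theorem cone_del_map {k : ℕ} (x : P.H k) : dbl.del φ (CAlg.zeroHom A) k (φ.H k x) = 0 := by
  have h := Dbl.del_fg φ.f (CAlg.zeroHom A).f k x 0
  rwa [map_zero, add_zero] at h

end zero

/-- The squares of the functional squares `v i` of `λ`: `Sq^k v_i = binom(i, k) v_(i+k)` follows from
the Adem relations in the cone of `λ` and from the instability of `H(G)`. -/
theorem sq_v_of {T G : CAlg} (lam : AHom T G) {R N : ℕ} (bl : (cone lam).H R)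
    (v : ∀ i, G.H (R + i))
    (hinst : ∀ q a m (x : G.H (R + q)), q < a → m = R + q + a → G.sq (R + q) m x = 0)
    (hT : ∀ k, R < k → k ≤ R + N → ∀ x : T.H k, x = 0)
    (fsq : ∀ i, i ≤ N → (cone lam).sq R (R + i + 1) bl =
      dbl.del lam (CAlg.zeroHom G) (R + i) (v i)) (i k : ℕ) (hik : i + k ≤ N) :
    G.sq (R + i) (R + (i + k)) (v i) = ((i.choose k : ℕ) : ZMod 2) • v (i + k) := by
  rcases Nat.lt_or_ge i k with h | h
  · rw [hinst i k _ (v i) h (by omega), Nat.choose_eq_zero_of_lt h, Nat.cast_zero, zero_smul]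
  rcases Nat.eq_zero_or_pos k with rfl | hk
  · rw [Nat.choose_zero_right, Nat.cast_one, one_smul]
    exact G.sq_self _ _
  rw [← sub_eq_zero]
  have key : dbl.del lam (CAlg.zeroHom G) (R + (i + k))
      (G.sq (R + i) (R + (i + k)) (v i) - ((i.choose k : ℕ) : ZMod 2) • v (i + k)) = 0 := by
    rw [map_sub, map_smul, dbl.sq_del, ← fsq i (by omega), ← fsq (i + k) (by omega), sub_eq_zero]
    have h1 := (cone lam).adem R k (i + 1) (R + (i + k) + 1) bl (by omega) (by omega)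
    refine Eq.trans h1 ?_
    rw [sum_range_succ', sum_eq_zero, zero_add]
    · show (((i + 1 - 0 - 1).choose (k - 2 * 0) : ℕ) : ZMod 2) •
        (cone lam).sq (R + 0) (R + (i + k) + 1) ((cone lam).sq R (R + 0) bl) = _
      have e : (cone lam).sq R (R + 0) bl = bl := (cone lam).sq_self R bl
      rw [e]
      rfl
    · intro j hj
      have hj' := mem_range.1 hj
      have e : (cone lam).sq R (R + (j + 1)) bl =
          dbl.del lam (CAlg.zeroHom G) (R + j) (v j) := fsq j (by omega)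
      have e2 : (cone lam).sqM.sq (R + (j + 1)) (R + (i + k) + 1)
          ((cone lam).sqM.sq R (R + (j + 1)) bl) = 0 := by
        refine (congrArg ((cone lam).sq (R + (j + 1)) (R + (i + k) + 1)) e).trans ?_
        refine (dbl.sq_del lam (CAlg.zeroHom G) (R + j) (R + (i + k)) (v j)).symm.trans ?_
        exact (congrArg _ (hinst j (i + k - j) _ (v j) (by omega) (by omega))).trans (map_zero _)
      rw [e2, smul_zero]
  obtain ⟨t, ht⟩ := cone_exists_of_del_eq_zero lam _ key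
  rw [ht, hT (R + (i + k)) (by omega) (by omega) t, map_zero]

/-- The input of the Adams filtration lemma; `R = r + 1`. -/
structure AFIn (r c : ℕ) where
  {T : CAlg}
  {G : CAlg}
  {W : CAlg}
  {W1 : CAlg}
  {A : CAlg}
  γ : AHom G A
  a2 : AHom W W1
  a1 : AHom W1 A
  lam : AHom T G
  a3 : AHom T W
  /-- the homotopy -/
  η : AHom T A.cyl
  η0 : ∀ p x, (A.ev0.comp η).f.app p x = (γ.comp lam).f.app p x
  η1 : ∀ p x, (A.ev1.comp η).f.app p x = ((a1.comp a2).comp a3).f.app p x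
  a2_zero : ∀ q x, a2.H q x = 0
  a1_zero : ∀ q x, a1.H q x = 0
  hA : ∀ k, r ≤ k → k < r + 1 + 2 * c → ∀ x : A.H k, x = 0
  hT : ∀ k, r + 1 < k → k ≤ r + 1 + (2 * c + 1) → ∀ x : T.H k, x = 0
  hG : ∀ x : G.H r, x = 0
  lam_zero : ∀ x : T.H (r + 1), lam.H (r + 1) x = 0
  ι : T.H (r + 1)
  a3_zero : a3.H (r + 1) ι = 0
  /-- the classes `v^i` -/
  v : ∀ i, G.H (r + 1 + i)
  sq_v : ∀ i k, i + k ≤ 2 * c → G.sq (r + 1 + i) (r + 1 + (i + k)) (v i) =
    ((i.choose k : ℕ) : ZMod 2) • v (i + k)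
  /-- a lift of the fundamental class to the cone of `λ` -/
  bl : (cone lam).H (r + 1)
  fst_bl : (dbl.fst lam (CAlg.zeroHom G)).H (r + 1) bl = ι
  /-- the functional squares of `λ` -/
  fsq : ∀ i, i ≤ c → (cone lam).sq (r + 1) (r + 1 + i + 1) bl =
    dbl.del lam (CAlg.zeroHom G) (r + 1 + i) (v i)

namespace AFIn

variable {r c : ℕ} (I : AFIn r c)

/-- the double mapping cylinder of `γ` and `β` -/
abbrev X : CAlg := dbl I.γ (I.a1.comp I.a2)

/-- the map `L : X → T` -/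
def L : AHom I.T I.X := dbl.lift I.γ (I.a1.comp I.a2) I.lam I.a3 I.η I.η0 I.η1

/-- the inclusion of the cone of `γ` -/
def ig : AHom (cone I.γ) I.X :=
  dbl.map (AHom.id I.G) (CAlg.zeroHom I.W) (AHom.id I.A) (fun _ _ => rfl) (fun n x => by
    show (0 : I.A.m.obj n) = (I.a1.comp I.a2).f.app n 0
    rw [map_zero])

/-- the inclusion of the cone of `β` -/
def ib : AHom (dbl (CAlg.zeroHom I.A) (I.a1.comp I.a2)) I.X :=
  dbl.map (CAlg.zeroHom I.G) (AHom.id I.W) (AHom.id I.A) (fun n x => by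
    show (0 : I.A.m.obj n) = I.γ.f.app n 0
    rw [map_zero]) (fun _ _ => rfl)

/-- the map of the cones of `β` and `a₂` -/
def kap : AHom (dbl (CAlg.zeroHom I.W1) I.a2) (dbl (CAlg.zeroHom I.A) (I.a1.comp I.a2)) :=
  dbl.map (AHom.id CAlg.zero) (AHom.id I.W) I.a1 (fun n x => by
    show I.a1.f.app n 0 = (0 : I.A.m.obj n)
    rw [map_zero]) (fun _ _ => rfl)

/-- the map of the cones of `L` and `λ` -/
def rL : AHom (cone I.L) (cone I.lam) :=
  dbl.map (AHom.id I.T) (AHom.id CAlg.zero) (dbl.fst I.γ (I.a1.comp I.a2)) (fun _ _ => rfl)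
    (fun n _ => rfl)

theorem zeroHom_H (A : CAlg) (q : ℕ) (x : CAlg.zero.H q) : (CAlg.zeroHom A).H q x = 0 := by
  rw [CAlg.zero_H q x, map_zero]

theorem H_id {A : CAlg} (q : ℕ) (x : A.H q) : (AHom.id A).H q x = x := by
  show (Hom.id A.m).mapH q x = x
  rw [Hom.mapH_id]

theorem r_inj (i : ℕ) (hi : i ≤ 2 * c) (x : I.X.H (r + 1 + i))
    (h1 : (dbl.fst I.γ (I.a1.comp I.a2)).H _ x = 0)
    (h2 : (dbl.snd I.γ (I.a1.comp I.a2)).H _ x = 0) : x = 0 :=
  dbl.eq_zero _ _ (fun k hk => I.hA k (by omega) (by omega)) x h1 h2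

theorem L_ι : I.L.H (r + 1) I.ι = 0 := by
  apply I.r_inj 0 (by omega)
  · exact (dbl.fst_lift _ _ _ _ _ I.η0 I.η1 (r + 1) I.ι).trans (I.lam_zero _)
  · exact (dbl.snd_lift _ _ _ _ _ I.η0 I.η1 (r + 1) I.ι).trans I.a3_zero

/-- the lift of the fundamental class to the cone of `L` -/
theorem exists_b : ∃ z : (cone I.L).H (r + 1),
    (dbl.fst I.L (CAlg.zeroHom I.X)).H (r + 1) z = I.ι :=
  cone_exists_lift I.L I.ι I.L_ι

theorem rL_b (z : (cone I.L).H (r + 1))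
    (hz : (dbl.fst I.L (CAlg.zeroHom I.X)).H (r + 1) z = I.ι) : I.rL.H (r + 1) z = I.bl := by
  rw [← sub_eq_zero]
  apply cone_eq_zero I.lam (fun i hi => ?_)
  · rw [map_sub, I.fst_bl, sub_eq_zero]
    refine (dbl.fst_map _ _ _ _ _ (r + 1) z).trans ?_
    rw [hz, H_id]
  · obtain rfl : r = i := by omega
    exact I.hG

theorem exists_fsq (z : (cone I.L).H (r + 1))
    (hz : (dbl.fst I.L (CAlg.zeroHom I.X)).H (r + 1) z = I.ι) (i : ℕ) (hi : i ≤ c) :
    ∃ f : I.X.H (r + 1 + i), dbl.del I.L (CAlg.zeroHom I.X) (r + 1 + i) f =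
      (cone I.L).sq (r + 1) (r + 1 + i + 1) z ∧
      (dbl.fst I.γ (I.a1.comp I.a2)).H (r + 1 + i) f = I.v i := by
  obtain ⟨f, hf⟩ := cone_exists_del I.L ((cone I.L).sq (r + 1) (r + 1 + i + 1) z)
    (I.hT (r + 1 + i + 1) (by omega) (by omega) _)
  refine ⟨f, hf, ?_⟩
  have h1 : dbl.del I.lam (CAlg.zeroHom I.G) (r + 1 + i)
      ((dbl.fst I.γ (I.a1.comp I.a2)).H (r + 1 + i) f - I.v i) = 0 := by
    rw [map_sub, sub_eq_zero, ← I.fsq i hi, ← I.rL_b z hz, ← AHom.sq, ← hf]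
    exact (dbl.map_del _ _ _ _ _ (r + 1 + i) f).symm
  obtain ⟨t, ht⟩ := cone_exists_of_del_eq_zero I.lam _ h1
  rw [← sub_eq_zero, ht]
  rcases Nat.eq_zero_or_pos i with rfl | h
  · exact I.lam_zero t
  · rw [I.hT (r + 1 + i) (by omega) (by omega) t, map_zero]

/-- the data of helper296's lemma -/
def data : K.AFData (r + 1) c I.G.sqM I.W.sqM (cone I.γ).sqM
    (dbl (CAlg.zeroHom I.A) (I.a1.comp I.a2)).sqM I.X.sqM (dbl (CAlg.zeroHom I.W1) I.a2).sqM
    (cone I.L).sqM where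
  pg := (dbl.fst I.γ (CAlg.zeroHom I.A)).sqM
  v := I.v
  sq_v := I.sq_v
  pg_inj i hi x hx := cone_eq_zero I.γ (fun k hk => I.hA k (by omega) (by omega)) x hx
  pg_surj i hi := cone_exists_lift I.γ (I.v i) (I.hA (r + 1 + i) (by omega) (by omega) _)
  sq_self q x := (cone I.γ).sq_self q x
  adem := (cone I.γ).adem
  rP := (dbl.fst I.γ (I.a1.comp I.a2)).sqM
  rW := (dbl.snd I.γ (I.a1.comp I.a2)).sqM
  ig := I.ig.sqM
  ib := I.ib.sqM
  pb := (dbl.snd (CAlg.zeroHom I.A) (I.a1.comp I.a2)).sqM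
  kap := I.kap.sqM
  pa := (dbl.snd (CAlg.zeroHom I.W1) I.a2).sqM
  rP_ig q x := (dbl.fst_map _ _ _ _ _ q x).trans (H_id q _)
  rW_ig q x := (dbl.snd_map _ _ _ _ _ q x).trans (zeroHom_H _ q _)
  rP_ib q x := (dbl.fst_map _ _ _ _ _ q x).trans (zeroHom_H _ q _)
  rW_ib q x := (dbl.snd_map _ _ _ _ _ q x).trans (H_id q _)
  pb_kap q x := (dbl.snd_map _ _ _ _ _ q x).trans (H_id q _)
  r_inj i hi x h1 h2 := I.r_inj i hi x h1 h2
  ig_inj x hx := by
    have h1 : (dbl.fst I.γ (CAlg.zeroHom I.A)).H _ x = 0 := by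
      have := (dbl.fst_map (AHom.id I.G) (CAlg.zeroHom I.W) (AHom.id I.A) (fun _ _ => rfl)
        (fun n x => by
          show (0 : I.A.m.obj n) = (I.a1.comp I.a2).f.app n 0
          rw [map_zero]) (r + 1 + (2 * c + 1)) x)
      rw [H_id] at this
      rw [← this]
      exact (congrArg ((dbl.fst I.γ (I.a1.comp I.a2)).H (r + 1 + (2 * c + 1))) hx).trans
        (map_zero _)
    obtain ⟨a, rfl⟩ := cone_exists_del (k := r + 1 + 2 * c) I.γ x h1
    have h2 : dbl.del I.γ (I.a1.comp I.a2) (r + 1 + 2 * c) a = 0 := by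
      have h3 := dbl.map_del (φ := I.γ) (ψ := CAlg.zeroHom I.A) (φ' := I.γ) (ψ' := I.a1.comp I.a2) (AHom.id I.G)
        (CAlg.zeroHom I.W) (AHom.id I.A) (fun _ _ => rfl)
        (fun n x => by
          show (0 : I.A.m.obj n) = (I.a1.comp I.a2).f.app n 0
          rw [map_zero]) (r + 1 + 2 * c) a
      rw [H_id] at h3
      exact h3.symm.trans hx
    obtain ⟨x, w, hxw⟩ := Dbl.exists_of_del_eq_zero _ _ _ a h2
    have hw : (I.a1.comp I.a2).f.mapH (r + 1 + 2 * c) w = 0 := by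
      refine (AHom.H_comp I.a1 I.a2 _ w).trans ?_
      exact I.a1_zero _ _
    rw [hw, add_zero] at hxw
    rw [hxw]
    exact cone_del_map I.γ x
  pa_surj q w := by
    obtain ⟨z, _, hz⟩ := dbl.exists_lift (CAlg.zeroHom I.W1) I.a2 0 w
      ((map_zero _).trans (I.a2_zero q w).symm)
    exact ⟨z, hz⟩
  kap_eq_zero q z hz := by
    cases q with
    | zero =>
      have : z = 0 := dbl.eq_zero _ _ (fun i hi => by omega) z (CAlg.zero_H _ _) hz
      rw [this, map_zero]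
    | succ k =>
      obtain ⟨a, rfl⟩ := dbl.exists_del _ _ z (CAlg.zero_H _ _) hz
      refine (dbl.map_del _ _ _ _ _ k a).trans ?_
      exact (congrArg _ (I.a1_zero k a)).trans (map_zero _)
  dl q := dbl.del I.L (CAlg.zeroHom I.X) q
  dl_sq q j x := dbl.sq_del _ _ q j x
  dl_inj x hx := by
    obtain ⟨t, ht⟩ := cone_exists_of_del_eq_zero I.L x hx
    rw [ht, I.hT _ (by omega) le_rfl t]
    exact map_zero _
  b := I.exists_b.choose
  fsq i hi := I.exists_fsq _ I.exists_b.choose_spec i hi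
  ademL := (cone I.L).adem

/-- **The Adams filtration lemma.** -/
theorem sq_eq_zero (s : ℕ) (hs : 1 ≤ s) (hc : c + 1 = 2 ^ s) (y : (cone I.γ).H (r + 1 + c))
    (hy : (dbl.fst I.γ (CAlg.zeroHom I.A)).H (r + 1 + c) y = I.v c) :
    (cone I.γ).sq (r + 1 + c) (r + 1 + (2 * c + 1)) y = 0 :=
  I.data.sq_lift_eq_zero s hs hc y hy

end AFIn

end Vale.Agent.P263.Cof
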