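import Vale.Agent.P263.K.Cof
import Vale.Agent.P263.K.AFLem
import Vale.Agent.P263.S.Adem

/-!
# P263, section K (helper659): double mapping cylinders of cosimplicial algebras

`CAlg` : commutative, associative, idempotent cosimplicial `𝔽₂`-algebras without unit (functions
on a simplicial set which vanish on a sub simplicial set), `AHom` : multiplicative maps.
`CAlg.sq q j = Sq^(j-q)` : natural (`AHom.sq`), `Sq^0 = 1`, Adem relations (`CAlg.adem`).
`CAlg.cyl`, `CAlg.dbl φ ψ` (double mapping cylinder), `dbl.map`, `dbl.lift`, and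
**`dbl.sq_del` : the connecting map commutes with the squares**.
-/

noncomputable section

namespace Vale.Agent.P263.Cof

open Finset
open Vale.Agent.P263.S CosMod

/-- commutative idempotent cosimplicial `𝔽₂`-algebras (no unit) -/
structure CAlg where
  m : CM
  s : SqAlg m
  idem : ∀ (p : ℕ) (x : m.obj p), s.mul.app p x x = x

/-- multiplicative maps -/
structure AHom (A B : CAlg) where
  f : Hom A.m B.m
  mul : ∀ (p : ℕ) (x y : A.m.obj p),
    f.app p (A.s.mul.app p x y) = B.s.mul.app p (f.app p x) (f.app p y)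

namespace CAlg

/-- the product -/
abbrev mu (A : CAlg) (p : ℕ) (x y : A.m.obj p) : A.m.obj p := A.s.mul.app p x y

/-- the cohomology -/
abbrev H (A : CAlg) (q : ℕ) : Type := A.m.H q

/-- `Sq^(j-q)` -/
def sq (A : CAlg) (q j : ℕ) : A.H q →ₗ[ZMod 2] A.H j := A.s.sq q j

theorem sq_self (A : CAlg) (q : ℕ) (x : A.H q) : A.sq q q x = x :=
  Sq_id A.s.mul A.s.sym A.idem q x

theorem sq_lt (A : CAlg) (q j : ℕ) (x : A.H q) (h : j < q) : A.sq q j x = 0 :=
  Sq_lt _ _ q j x h

theorem sq_gt (A : CAlg) (q j : ℕ) (x : A.H q) (h : q + q < j) : A.sq q j x = 0 :=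
  Sq_gt _ _ q j x h

/-- the cohomology with the squares -/
def sqM (A : CAlg) : K.SqM where
  H := A.m.H
  sq := A.sq

theorem rel (A : CAlg) : EX.BM.Rel (totSq A.sq) := A.s.rel

/-- the Adem relations, vector form -/
theorem adem_vec (A : CAlg) (q a b : ℕ) (x : A.H q) (hab : a < 2 * b) :
    A.sq (q + b) (q + b + a) (A.sq q (q + b) x) =
      ∑ k ∈ range (a / 2 + 1), (((b - k - 1).choose (a - 2 * k) : ℕ) : ZMod 2) •
        A.sq (q + k) (q + b + a) (A.sq q (q + k) x) := by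
  have h := LinearMap.congr_fun (S.Adem.adem A.rel hab) (DirectSum.lof (ZMod 2) ℕ A.m.H q x)
  rw [Module.End.mul_apply, totSq_lof, totSq_lof, LinearMap.sum_apply] at h
  have e : ∀ k ∈ range (a / 2 + 1), ((((b - k - 1).choose (a - 2 * k) : ℕ) :
      Module.End (ZMod 2) (DirectSum ℕ A.m.H)) * (totSq A.sq (a + b - k) * totSq A.sq k))
        (DirectSum.lof (ZMod 2) ℕ A.m.H q x) =
      DirectSum.lof (ZMod 2) ℕ A.m.H (q + b + a)
        ((((b - k - 1).choose (a - 2 * k) : ℕ) : ZMod 2) •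
          A.sq (q + k) (q + b + a) (A.sq q (q + k) x)) := by
    intro k hk
    have hk' := mem_range.1 hk
    rw [Module.End.mul_apply, Module.End.natCast_apply, Module.End.mul_apply, totSq_lof,
      totSq_lof, lof_congr A.sq (show q + k + (a + b - k) = q + b + a by omega), map_smul,
      Nat.cast_smul_eq_nsmul]
  rw [sum_congr rfl e, ← map_sum] at h
  exact DirectSum.of_injective (β := A.m.H) (q + b + a) h

/-- **the Adem relations** -/
theorem adem (A : CAlg) : A.sqM.Adem := by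
  intro q a b m x hab hm
  subst hm
  exact A.adem_vec q a b x hab

end CAlg

namespace AHom

variable {A B C : CAlg}

/-- the identity -/
def id (A : CAlg) : AHom A A := ⟨Hom.id A.m, fun _ _ _ => rfl⟩

/-- composition -/
def comp (g : AHom B C) (f : AHom A B) : AHom A C :=
  ⟨g.f.comp f.f, fun p x y => by
    show g.f.app p (f.f.app p _) = _
    rw [f.mul, g.mul]; rfl⟩

/-- the map in cohomology -/
abbrev H (f : AHom A B) (q : ℕ) : A.H q →ₗ[ZMod 2] B.H q := f.f.mapH q

theorem H_comp (g : AHom B C) (f : AHom A B) (q : ℕ) (x : A.H q) :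
    (g.comp f).H q x = g.H q (f.H q x) := Hom.mapH_comp _ _ _ _

/-- naturality of the squares -/
theorem sq (f : AHom A B) (q j : ℕ) (x : A.H q) : f.H j (A.sq q j x) = B.sq q j (f.H q x) :=
  (Sq_nat A.s.mul A.s.sym B.s.mul B.s.sym f.f f.f f.mul q j x).symm

/-- the map of the cohomologies with squares -/
def sqM (f : AHom A B) : K.SqM.Map A.sqM B.sqM where
  app q := f.H q
  app_sq q j x := f.sq q j x

end AHom

/-! ### cup-i products -/

section cupi

variable {A B C A' B' C' : CM}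

theorem cupi_nat (μ : Bil A B C) (μ' : Bil A' B' C') (f : Hom A A') (g : Hom B B') (h : Hom C C')
    (hm : ∀ p x y, h.app p (μ.app p x y) = μ'.app p (f.app p x) (g.app p y)) (j N : ℕ) {m n : ℕ}
    (x : A.obj m) (y : B.obj n) :
    h.app N (cupi μ j N x y) = cupi μ' j N (f.app m x) (g.app n y) := by
  rw [cupi, cupi, map_cupG]
  refine cupG_congr fun P _ Q _ => ?_
  rw [hm, app_fc, app_fc]

theorem cupiT_eq {μ : Bil A A C} (hc : ∀ p x y, μ.app p x y = μ.app p y x) (j N : ℕ) {m n : ℕ}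
    (x : A.obj m) (y : A.obj n) : cupiT μ j N x y = cupi μ j N y x := by
  rw [cupi, cupiT]
  exact cupG_congr fun P _ Q _ => hc _ _ _

theorem cupi_right_zero (μ : Bil A B C) (j N : ℕ) {m n : ℕ} (x : A.obj m) :
    cupi μ j N x (0 : B.obj n) = 0 :=
  cupG_eq_zero fun J _ _ => by rw [fc_zero, map_zero]

theorem cupi_left_zero (μ : Bil A B C) (j N : ℕ) {m n : ℕ} (y : B.obj n) :
    cupi μ j N (0 : A.obj m) y = 0 :=
  cupG_eq_zero fun J _ _ => by rw [fc_zero, map_zero, LinearMap.zero_apply]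

/-- Steenrod's formula for the coboundary of `y ∪_(i-1) y + y ∪_i dy` (`i = J + 1`). -/
theorem d_Q {μ : Bil A A C} (hc : ∀ p x y, μ.app p x y = μ.app p y x) (J N : ℕ) {n : ℕ}
    (y : A.obj n) :
    C.d N (cupi μ J N y y + cupi μ (J + 1) N y (A.d n y)) =
      cupi μ (J + 1) (N + 1) (A.d n y) (A.d n y) := by
  rw [map_add, d_cupi, d_d, cupiT_eq hc, cupi_right_zero, add_zero]
  cases J with
  | zero =>
    rw [cupi_zero, map_zero, zero_add, cupi_zero, cupi_zero, add_zero, add_zero]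
  | succ J =>
    rw [d_cupi, cupiT_eq hc]
    have h1 := add_self_two (cupi μ J (N + 1) y y)
    have h2 := add_self_two (cupi μ (J + 1) (N + 1) y (A.d n y))
    have h3 := add_self_two (cupi μ (J + 1) (N + 1) (A.d n y) y)
    generalize cupi μ J (N + 1) y y = a at *
    generalize cupi μ (J + 1) (N + 1) y (A.d n y) = b at *
    generalize cupi μ (J + 1) (N + 1) (A.d n y) y = c at *
    generalize cupi μ (J + 1 + 1) (N + 1) (A.d n y) (A.d n y) = e at *
    calc c + b + a + a + (e + b + c) = e + (a + a) + (b + b) + (c + c) := by abel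
      _ = e := by rw [h1, h2, h3, add_zero, add_zero, add_zero]

end cupi

namespace CAlg

/-- the squares by the cup-i formula -/
theorem sq_cls (A : CAlg) {q : ℕ} (x : A.m.Z q) {j J : ℕ} (hJ : J + j = q + q + 1) :
    ∃ h : cupi A.s.mul J j x.1 x.1 ∈ A.m.Z j,
      A.sq q j (A.m.cls q x) = A.m.cls j ⟨cupi A.s.mul J j x.1 x.1, h⟩ := by
  rcases Nat.lt_or_ge (q + q) j with h | h
  · obtain rfl : J = 0 := by omega
    have e : cupi A.s.mul 0 j x.1 x.1 = 0 := cupi_zero _ _ _ _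
    refine ⟨by rw [e]; exact Submodule.zero_mem _, ?_⟩
    rw [A.sq_gt q j _ h, eq_comm, cls_eq_zero_iff]
    show cupi A.s.mul 0 j x.1 x.1 ∈ _
    rw [e]
    exact Submodule.zero_mem _
  · obtain rfl : J = q + q + 1 - j := by omega
    refine ⟨sqf_mem_Z A.s.mul A.s.sym x.2 j, ?_⟩
    exact cf_P A.s.mul A.s.sym x j h

/-! ### paths -/

/-- functions on `Δ¹` -/
def cyl (A : CAlg) : CAlg where
  m := Cof.cyl A.m
  s :=
    { mul :=
        { app := fun p => LinearMap.mk₂ (ZMod 2) (fun w w' θ => A.mu p (w θ) (w' θ))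
            (fun w w' w'' => by funext θ; exact A.s.mul.app p |>.map_add₂ _ _ _)
            (fun r w w' => by funext θ; exact A.s.mul.app p |>.map_smul₂ _ _ _)
            (fun w w' w'' => by funext θ; exact map_add _ _ _)
            (fun r w w' => by funext θ; exact map_smul _ _ _)
          nat := fun α w w' => by
            funext θ
            exact A.s.mul.nat α _ _ }
      comm := fun p w w' => by funext θ; exact A.s.comm p _ _
      assoc := fun p w w' w'' => by funext θ; exact A.s.assoc p _ _ _ }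
  idem p w := by funext θ; exact A.idem p _

@[simp] theorem cyl_mul (A : CAlg) (p : ℕ) (w w' : A.cyl.m.obj p) (θ : Op p 1) :
    A.cyl.s.mul.app p w w' θ = A.s.mul.app p (w θ) (w' θ) := rfl

/-- evaluation at the vertex `0` -/
def ev0 (A : CAlg) : AHom A.cyl A := ⟨Cof.ev0 A.m, fun _ _ _ => rfl⟩

/-- evaluation at the vertex `1` -/
def ev1 (A : CAlg) : AHom A.cyl A := ⟨Cof.ev1 A.m, fun _ _ _ => rfl⟩

/-- the zero algebra -/
def zero : CAlg where
  m :=
    { obj := fun _ => PUnit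
      map := fun _ => LinearMap.id
      map_id := rfl
      map_comp := fun _ _ => rfl }
  s :=
    { mul := ⟨fun _ => 0, fun _ _ _ => rfl⟩
      comm := fun _ _ _ => rfl
      assoc := fun _ _ _ _ => rfl }
  idem _ _ := rfl

/-- the zero map -/
def zeroHom (A : CAlg) : AHom zero A :=
  ⟨⟨fun _ => 0, fun α _ => (map_zero (A.m.map α)).symm⟩, fun p x y => (map_zero (A.s.mul.app p 0)).symm⟩

theorem zero_H (q : ℕ) (x : zero.H q) : x = 0 := by
  induction x using H_ind with
  | h z =>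
    have e : z = 0 := rfl
    rw [e, map_zero]

end CAlg

/-! ### double mapping cylinders -/

section dbl

variable {P W A P' W' A' T : CAlg}

/-- the double mapping cylinder -/
def dbl (φ : AHom P A) (ψ : AHom W A) : CAlg where
  m := Dbl φ.f ψ.f
  s :=
    { mul :=
        { app := fun p => LinearMap.mk₂ (ZMod 2)
            (fun x y => (⟨(P.mu p x.1.1 y.1.1, W.mu p x.1.2.1 y.1.2.1,
              fun θ => A.mu p (x.1.2.2 θ) (y.1.2.2 θ)), by
                refine ⟨?_, ?_⟩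
                · show A.mu p (x.1.2.2 (c0 p)) (y.1.2.2 (c0 p)) = _
                  rw [Dbl.c0_eq, Dbl.c0_eq]
                  exact (φ.mul p _ _).symm
                · show A.mu p (x.1.2.2 (c1 p)) (y.1.2.2 (c1 p)) = _
                  rw [Dbl.c1_eq, Dbl.c1_eq]
                  exact (ψ.mul p _ _).symm⟩ : (Dbl φ.f ψ.f).obj p))
            (fun w w' w'' => Dbl.ext ((P.s.mul.app p).map_add₂ _ _ _)
              ((W.s.mul.app p).map_add₂ _ _ _) (by funext θ; exact (A.s.mul.app p).map_add₂ _ _ _))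
            (fun r w w' => Dbl.ext ((P.s.mul.app p).map_smul₂ _ _ _)
              ((W.s.mul.app p).map_smul₂ _ _ _)
              (by funext θ; exact (A.s.mul.app p).map_smul₂ _ _ _))
            (fun w w' w'' => Dbl.ext (map_add _ _ _) (map_add _ _ _)
              (by funext θ; exact map_add _ _ _))
            (fun r w w' => Dbl.ext (map_smul _ _ _) (map_smul _ _ _)
              (by funext θ; exact map_smul _ _ _))
          nat := fun α w w' => Dbl.ext (P.s.mul.nat α _ _) (W.s.mul.nat α _ _)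
            (by funext θ; exact A.s.mul.nat α _ _) }
      comm := fun p w w' => Dbl.ext (P.s.comm p _ _) (W.s.comm p _ _)
        (by funext θ; exact A.s.comm p _ _)
      assoc := fun p w w' w'' => Dbl.ext (P.s.assoc p _ _ _) (W.s.assoc p _ _ _)
        (by funext θ; exact A.s.assoc p _ _ _) }
  idem p w := Dbl.ext (P.idem p _) (W.idem p _) (by funext θ; exact A.idem p _)

namespace dbl

variable (φ : AHom P A) (ψ : AHom W A)

/-- first projection -/
def fst : AHom (dbl φ ψ) P := ⟨Dbl.fst φ.f ψ.f, fun _ _ _ => rfl⟩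

/-- second projection -/
def snd : AHom (dbl φ ψ) W := ⟨Dbl.snd φ.f ψ.f, fun _ _ _ => rfl⟩

/-- the path -/
def pth : AHom (dbl φ ψ) A.cyl := ⟨Dbl.pth φ.f ψ.f, fun _ _ _ => rfl⟩

/-- the connecting map -/
abbrev del (k : ℕ) : A.H k →ₗ[ZMod 2] (dbl φ ψ).H (k + 1) := Dbl.del φ.f ψ.f k

theorem del_cls (k : ℕ) (a : A.m.Z k) : del φ ψ k (A.m.cls k a) =
    (dbl φ ψ).m.cls (k + 1) (Dbl.delZ φ.f ψ.f k a) := rfl

/-- maps into a double mapping cylinder -/
def lift (l : AHom T P) (a : AHom T W) (η : AHom T A.cyl)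
    (h0 : ∀ p x, (A.ev0.comp η).f.app p x = (φ.comp l).f.app p x)
    (h1 : ∀ p x, (A.ev1.comp η).f.app p x = (ψ.comp a).f.app p x) : AHom T (dbl φ ψ) where
  f :=
    { app := fun p => (((l.f.app p).prod ((a.f.app p).prod (η.f.app p))).codRestrict
        (dblS φ.f ψ.f p) fun x => ⟨h0 p x, h1 p x⟩)
      nat := fun α x => Dbl.ext (l.f.nat α x) (a.f.nat α x) (η.f.nat α x) }
  mul p x y := Dbl.ext (l.mul p x y) (a.mul p x y) (η.mul p x y)

theorem fst_lift (l : AHom T P) (a : AHom T W) (η : AHom T A.cyl) (h0 h1) (k : ℕ) (x : T.H k) :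
    (fst φ ψ).H k ((lift φ ψ l a η h0 h1).H k x) = l.H k x := by
  rw [← AHom.H_comp]
  rfl

theorem snd_lift (l : AHom T P) (a : AHom T W) (η : AHom T A.cyl) (h0 h1) (k : ℕ) (x : T.H k) :
    (snd φ ψ).H k ((lift φ ψ l a η h0 h1).H k x) = a.H k x := by
  rw [← AHom.H_comp]
  rfl

variable {φ ψ}

/-- functoriality -/
def map {φ' : AHom P' A'} {ψ' : AHom W' A'} (p : AHom P P') (w : AHom W W') (a : AHom A A')
    (hp : ∀ n x, a.f.app n (φ.f.app n x) = φ'.f.app n (p.f.app n x))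
    (hw : ∀ n x, a.f.app n (ψ.f.app n x) = ψ'.f.app n (w.f.app n x)) :
    AHom (dbl φ ψ) (dbl φ' ψ') where
  f :=
    { app := fun n =>
        { toFun := fun x => ⟨(p.f.app n x.1.1, w.f.app n x.1.2.1, fun θ => a.f.app n (x.1.2.2 θ)), by
            exact ⟨(congrArg (a.f.app n) x.2.1).trans (hp n _),
              (congrArg (a.f.app n) x.2.2).trans (hw n _)⟩⟩
          map_add' := fun x y => Dbl.ext (map_add _ _ _) (map_add _ _ _)
            (by funext θ; exact map_add _ _ _)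
          map_smul' := fun r x => Dbl.ext (map_smul _ _ _) (map_smul _ _ _)
            (by funext θ; exact map_smul _ _ _) }
      nat := fun α x => Dbl.ext (p.f.nat α _) (w.f.nat α _) (by funext θ; exact a.f.nat α _) }
  mul n x y := Dbl.ext (p.mul n _ _) (w.mul n _ _) (by funext θ; exact a.mul n _ _)

section map

variable {φ' : AHom P' A'} {ψ' : AHom W' A'} (p : AHom P P') (w : AHom W W') (a : AHom A A')
    (hp : ∀ n x, a.f.app n (φ.f.app n x) = φ'.f.app n (p.f.app n x))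
    (hw : ∀ n x, a.f.app n (ψ.f.app n x) = ψ'.f.app n (w.f.app n x))

theorem fst_map (k : ℕ) (x : (dbl φ ψ).H k) :
    (fst φ' ψ').H k ((map p w a hp hw).H k x) = p.H k ((fst φ ψ).H k x) := by
  rw [← AHom.H_comp, ← AHom.H_comp]
  rfl

theorem snd_map (k : ℕ) (x : (dbl φ ψ).H k) :
    (snd φ' ψ').H k ((map p w a hp hw).H k x) = w.H k ((snd φ ψ).H k x) := by
  rw [← AHom.H_comp, ← AHom.H_comp]
  rfl

theorem map_tO (k : ℕ) (x : A.m.obj k) (θ : Op k 1) :
    a.f.app k (tO A.m k x θ) = tO A'.m k (a.f.app k x) θ := by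
  show a.f.app k (if θ = c0 k then x else 0) = if θ = c0 k then a.f.app k x else 0
  split_ifs
  · rfl
  · exact map_zero _

/-- the map of paths -/
def cylMap (a : AHom A A') : Hom (Cof.cyl A.m) (Cof.cyl A'.m) where
  app n :=
    { toFun := fun x θ => a.f.app n (x θ)
      map_add' := fun x y => by funext θ; exact map_add _ _ _
      map_smul' := fun r x => by funext θ; exact map_smul _ _ _ }
  nat α x := by funext θ; exact a.f.nat α _

theorem map_del (k : ℕ) (x : A.H k) :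
    (map p w a hp hw).H (k + 1) (del φ ψ k x) = del φ' ψ' k (a.H k x) := by
  induction x using H_ind with
  | h z =>
  show (dbl φ' ψ').m.cls (k + 1) _ = (dbl φ' ψ').m.cls (k + 1) _
  refine congrArg _ (Subtype.ext (Dbl.ext (map_zero _) (map_zero _) ?_))
  show (cylMap a).app (k + 1) ((Cof.cyl A.m).d k (tO A.m k z.1)) =
    (Cof.cyl A'.m).d k (tO A'.m k (a.f.app k z.1))
  rw [(cylMap a).app_d]
  congr 1
  funext θ
  exact map_tO a k z.1 θ

end map

variable (φ ψ)

/-- **The connecting map commutes with the squares.** -/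
theorem sq_del (k j : ℕ) (x : A.H k) :
    del φ ψ j (A.sq k j x) = (dbl φ ψ).sq (k + 1) (j + 1) (del φ ψ k x) := by
  rcases Nat.lt_or_ge (k + k + 1) j with hj | hj
  · rw [A.sq_gt k j x (by omega), map_zero, (dbl φ ψ).sq_gt (k + 1) (j + 1) _ (by omega)]
  obtain ⟨J, hJ⟩ : ∃ J, J + j = k + k + 1 := ⟨k + k + 1 - j, by omega⟩
  induction x using H_ind with
  | h a =>
  obtain ⟨h1, e1⟩ := A.sq_cls a (j := j) (J := J) hJ
  obtain ⟨h2, e2⟩ := (dbl φ ψ).sq_cls (Dbl.delZ φ.f ψ.f k a) (j := j + 1) (J := J + 1) (by omega)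
  rw [e1, del_cls, del_cls, e2]
  refine (cls_eq_iff (A := Dbl φ.f ψ.f)).2 ?_
  -- the path `L`
  have ha : A.m.d k a.1 = 0 := a.2
  obtain ⟨y, hy⟩ : ∃ y : A.cyl.m.obj k, y = tO A.m k a.1 := ⟨_, rfl⟩
  have y0 : A.ev0.f.app k y = a.1 := by rw [hy]; exact tO_c0 _ _
  have y1 : A.ev1.f.app k y = 0 := by rw [hy]; exact tO_c1 _ _
  obtain ⟨L, hL⟩ : ∃ L : A.cyl.m.obj j, L = cupi A.cyl.s.mul J j y y +
    cupi A.cyl.s.mul (J + 1) j y (A.cyl.m.d k y) := ⟨_, rfl⟩
  have hdL : A.cyl.m.d j L = cupi A.cyl.s.mul (J + 1) (j + 1) (A.cyl.m.d k y) (A.cyl.m.d k y) := by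
    rw [hL]
    exact d_Q (fun p x y => A.cyl.s.comm p x y) J j y
  have hL0 : L (c0 j) = cupi A.s.mul J j a.1 a.1 := by
    have e := cupi_nat A.cyl.s.mul A.s.mul A.ev0.f A.ev0.f A.ev0.f
      (fun _ _ _ => rfl) J j y y
    have e' := cupi_nat A.cyl.s.mul A.s.mul A.ev0.f A.ev0.f A.ev0.f
      (fun _ _ _ => rfl) (J + 1) j y (A.cyl.m.d k y)
    have dy0 : A.ev0.f.app (k + 1) (A.cyl.m.d k y) = 0 := by
      rw [← ha, ← y0]
      exact A.ev0.f.app_d k y
    rw [y0] at e
    rw [y0, dy0, cupi_right_zero] at e'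
    rw [hL]
    show A.ev0.f.app j (cupi A.cyl.s.mul J j y y) +
      A.ev0.f.app j (cupi A.cyl.s.mul (J + 1) j y (A.cyl.m.d k y)) = _
    rw [e, e', add_zero]
  have hL1 : L (c1 j) = 0 := by
    have e := cupi_nat A.cyl.s.mul A.s.mul A.ev1.f A.ev1.f A.ev1.f
      (fun _ _ _ => rfl) J j y y
    have e' := cupi_nat A.cyl.s.mul A.s.mul A.ev1.f A.ev1.f A.ev1.f
      (fun _ _ _ => rfl) (J + 1) j y (A.cyl.m.d k y)
    rw [y1, cupi_left_zero] at e
    rw [y1, cupi_left_zero] at e'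
    rw [hL]
    show A.ev1.f.app j (cupi A.cyl.s.mul J j y y) +
      A.ev1.f.app j (cupi A.cyl.s.mul (J + 1) j y (A.cyl.m.d k y)) = _
    rw [e, e', add_zero]
  -- the components of the square
  obtain ⟨z, hz⟩ : ∃ z : (dbl φ ψ).m.Z (k + 1), z = Dbl.delZ φ.f ψ.f k a := ⟨_, rfl⟩
  have f1 := cupi_nat (dbl φ ψ).s.mul P.s.mul (fst φ ψ).f (fst φ ψ).f
    (fst φ ψ).f (fun _ _ _ => rfl) (J + 1) (j + 1) z.1 z.1
  have f2 := cupi_nat (dbl φ ψ).s.mul W.s.mul (snd φ ψ).f (snd φ ψ).f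
    (snd φ ψ).f (fun _ _ _ => rfl) (J + 1) (j + 1) z.1 z.1
  have f3 := cupi_nat (dbl φ ψ).s.mul A.cyl.s.mul (pth φ ψ).f (pth φ ψ).f
    (pth φ ψ).f (fun _ _ _ => rfl) (J + 1) (j + 1) z.1 z.1
  have g1 : (fst φ ψ).f.app (k + 1) z.1 = 0 := by rw [hz]; rfl
  have g2 : (snd φ ψ).f.app (k + 1) z.1 = 0 := by rw [hz]; rfl
  have g3 : (pth φ ψ).f.app (k + 1) z.1 = A.cyl.m.d k y := by rw [hz, hy]; rfl
  rw [g1, cupi_left_zero] at f1
  rw [g2, cupi_left_zero] at f2
  rw [g3, ← hdL] at f3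
  rw [hz] at f1 f2 f3
  obtain ⟨t, ht⟩ : ∃ t : A.cyl.m.obj j, t = tO A.m j (cupi A.s.mul J j a.1 a.1) := ⟨_, rfl⟩
  have ht0 : t (c0 j) = cupi A.s.mul J j a.1 a.1 := by rw [ht]; exact tO_c0 _ _
  have ht1 : t (c1 j) = 0 := by rw [ht]; exact tO_c1 _ _
  refine ⟨Dbl.mk φ.f ψ.f 0 0 (t - L) ?_ ?_, ?_⟩
  · show t (c0 j) - L (c0 j) = _
    rw [ht0, hL0, sub_self, map_zero]
  · show t (c1 j) - L (c1 j) = _
    rw [ht1, hL1, sub_self, map_zero]
  · apply Dbl.ext
    · refine (Dbl.d_fst _).trans ?_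
      show P.m.d j 0 = (0 : P.m.obj (j + 1)) - (fst φ ψ).f.app (j + 1)
        (cupi (dbl φ ψ).s.mul (J + 1) (j + 1) (Dbl.delZ φ.f ψ.f k a).1 (Dbl.delZ φ.f ψ.f k a).1)
      rw [f1, map_zero, sub_zero]
    · refine (Dbl.d_snd _).trans ?_
      show W.m.d j 0 = (0 : W.m.obj (j + 1)) - (snd φ ψ).f.app (j + 1)
        (cupi (dbl φ ψ).s.mul (J + 1) (j + 1) (Dbl.delZ φ.f ψ.f k a).1 (Dbl.delZ φ.f ψ.f k a).1)
      rw [f2, map_zero, sub_zero]
    · refine (Dbl.d_pth _).trans ?_
      show A.cyl.m.d j (t - L) =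
        A.cyl.m.d j (tO A.m j (cupi A.s.mul J j a.1 a.1)) - (pth φ ψ).f.app (j + 1)
        (cupi (dbl φ ψ).s.mul (J + 1) (j + 1) (Dbl.delZ φ.f ψ.f k a).1 (Dbl.delZ φ.f ψ.f k a).1)
      rw [f3, map_sub, ht]

end dbl

end dbl

end Vale.Agent.P263.Cof
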