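import Vale.Agent.P263.K.CofAF
import Vale.Agent.P263.S.SqF
import Vale.Agent.P263.TJ.SqCc
import Vale.Agent.P263.TJ.FSq

/-!
# P263, section K (helper659): pairs of simplicial sets as cosimplicial algebras; functional squares

`relF A : CAlg` : the functions on `X` which vanish on `A : Sb X`; `relPull` : maps of pairs,
`relHtpy` : homotopies of pairs; `rcl A n u` : the class of the component of degree `n` of a
relative cocycle `u : Cc X`; dictionary with `Cc`: `exists_rcl`, `rcl_eq_zero_iff`, `sq_rcl`.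
`cone_fsq` : for a functional square `(b, e, c)` there is a lift of `b` to the cone whose square is
`del` of the functional square; `cone_FSqD` : the same for `FSqD (relHom f ..) i`.
-/

noncomputable section

namespace Vale.Agent.P263.Cof

open Finset
open Vale.Agent.P263.S Vale.Agent.P263.E Vale.Agent.P263.TJ Vale.Agent.P263.H83 CosMod

/-! ### functional squares and the cone -/

section fsq

variable {P A : CAlg} (φ : AHom P A)

/-- **The square of a lift of `b` to the cone is `del` of the functional square.** -/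
theorem cone_fsq {k j J : ℕ} (hJ : J + j = k + k + 1) (b : P.m.Z (k + 1)) (e : A.m.obj k)
    (c : P.m.obj j) (he : A.m.d k e = φ.f.app (k + 1) b.1)
    (hc : P.m.d j c = cupi P.s.mul (J + 1) (j + 1) b.1 b.1) :
    ∃ (hv : cupi A.s.mul J j e e + cupi A.s.mul (J + 1) j e (A.m.d k e) + φ.f.app j c ∈ A.m.Z j)
      (z : (cone φ).H (k + 1)), (dbl.fst φ (CAlg.zeroHom A)).H (k + 1) z = P.m.cls (k + 1) b ∧
      (cone φ).sq (k + 1) (j + 1) z = dbl.del φ (CAlg.zeroHom A) j (A.m.cls j ⟨_, hv⟩) := by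
  have hv : cupi A.s.mul J j e e + cupi A.s.mul (J + 1) j e (A.m.d k e) + φ.f.app j c ∈
      A.m.Z j := by
    rw [mem_Z, map_add, d_Q (fun p x y => A.s.comm p x y), ← φ.f.app_d, hc,
      cupi_nat P.s.mul A.s.mul φ.f φ.f φ.f φ.mul, he]
    exact add_self_two _
  refine ⟨hv, ?_⟩
  -- the lift
  obtain ⟨y, hy⟩ : ∃ y : A.cyl.m.obj k, y = tO A.m k e := ⟨_, rfl⟩
  have y0 : A.ev0.f.app k y = e := by rw [hy]; exact tO_c0 _ _
  have y1 : A.ev1.f.app k y = 0 := by rw [hy]; exact tO_c1 _ _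
  have dy0 : A.ev0.f.app (k + 1) (A.cyl.m.d k y) = A.m.d k e := by rw [A.ev0.f.app_d, y0]
  have dy1 : A.ev1.f.app (k + 1) (A.cyl.m.d k y) = 0 := by rw [A.ev1.f.app_d, y1, map_zero]
  obtain ⟨z, hz⟩ : ∃ z : (cone φ).m.obj (k + 1),
      z = Dbl.mk φ.f (CAlg.zeroHom A).f b.1 PUnit.unit (A.cyl.m.d k y) (dy0.trans he)
        (dy1.trans rfl) := ⟨_, rfl⟩
  have z1 : (dbl.fst φ (CAlg.zeroHom A)).f.app (k + 1) z = b.1 := by rw [hz]; rfl
  have z3 : (dbl.pth φ (CAlg.zeroHom A)).f.app (k + 1) z = A.cyl.m.d k y := by rw [hz]; rfl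
  have zZ : z ∈ (cone φ).m.Z (k + 1) := by
    rw [hz]
    exact Dbl.mem_Z_iff.2 ⟨b.2, rfl, A.cyl.m.d_d k y⟩
  obtain ⟨h2, e2⟩ := (cone φ).sq_cls ⟨z, zZ⟩ (j := j + 1) (J := J + 1) (by omega)
  refine ⟨(cone φ).m.cls (k + 1) ⟨z, zZ⟩, ?_, ?_⟩
  · rw [AHom.H, Hom.mapH_cls]
    exact congrArg _ (Subtype.ext z1)
  rw [e2, dbl.del_cls]
  refine (cls_eq_iff (A := Dbl φ.f (CAlg.zeroHom A).f)).2 ?_
  obtain ⟨L, hL⟩ : ∃ L : A.cyl.m.obj j, L = cupi A.cyl.s.mul J j y y +
    cupi A.cyl.s.mul (J + 1) j y (A.cyl.m.d k y) := ⟨_, rfl⟩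
  have hdL : A.cyl.m.d j L = cupi A.cyl.s.mul (J + 1) (j + 1) (A.cyl.m.d k y) (A.cyl.m.d k y) := by
    rw [hL]
    exact d_Q (fun p x y => A.cyl.s.comm p x y) J j y
  have hL0 : L (c0 j) = cupi A.s.mul J j e e + cupi A.s.mul (J + 1) j e (A.m.d k e) := by
    have e1 := cupi_nat A.cyl.s.mul A.s.mul A.ev0.f A.ev0.f A.ev0.f
      (fun _ _ _ => rfl) J j y y
    have e1' := cupi_nat A.cyl.s.mul A.s.mul A.ev0.f A.ev0.f A.ev0.f
      (fun _ _ _ => rfl) (J + 1) j y (A.cyl.m.d k y)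
    rw [y0] at e1
    rw [y0, dy0] at e1'
    rw [hL]
    show A.ev0.f.app j (cupi A.cyl.s.mul J j y y) +
      A.ev0.f.app j (cupi A.cyl.s.mul (J + 1) j y (A.cyl.m.d k y)) = _
    rw [e1, e1']
  have hL1 : L (c1 j) = 0 := by
    have e1 := cupi_nat A.cyl.s.mul A.s.mul A.ev1.f A.ev1.f A.ev1.f
      (fun _ _ _ => rfl) J j y y
    have e1' := cupi_nat A.cyl.s.mul A.s.mul A.ev1.f A.ev1.f A.ev1.f
      (fun _ _ _ => rfl) (J + 1) j y (A.cyl.m.d k y)
    rw [y1, cupi_left_zero] at e1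
    rw [y1, cupi_left_zero] at e1'
    rw [hL]
    show A.ev1.f.app j (cupi A.cyl.s.mul J j y y) +
      A.ev1.f.app j (cupi A.cyl.s.mul (J + 1) j y (A.cyl.m.d k y)) = _
    rw [e1, e1', add_zero]
  have f1 := cupi_nat (cone φ).s.mul P.s.mul (dbl.fst φ (CAlg.zeroHom A)).f
    (dbl.fst φ (CAlg.zeroHom A)).f (dbl.fst φ (CAlg.zeroHom A)).f (fun _ _ _ => rfl) (J + 1)
    (j + 1) z z
  have f3 := cupi_nat (cone φ).s.mul A.cyl.s.mul (dbl.pth φ (CAlg.zeroHom A)).f
    (dbl.pth φ (CAlg.zeroHom A)).f (dbl.pth φ (CAlg.zeroHom A)).f (fun _ _ _ => rfl) (J + 1)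
    (j + 1) z z
  rw [z1, ← hc] at f1
  rw [z3, ← hdL] at f3
  obtain ⟨v, hvv⟩ : ∃ v : A.m.obj j, v = cupi A.s.mul J j e e +
    cupi A.s.mul (J + 1) j e (A.m.d k e) + φ.f.app j c := ⟨_, rfl⟩
  obtain ⟨t, ht⟩ : ∃ t : A.cyl.m.obj j, t = tO A.m j v := ⟨_, rfl⟩
  have ht0 : t (c0 j) = v := by rw [ht]; exact tO_c0 _ _
  have ht1 : t (c1 j) = 0 := by rw [ht]; exact tO_c1 _ _
  refine ⟨Dbl.mk φ.f (CAlg.zeroHom A).f c PUnit.unit (L - t) ?_ ?_, ?_⟩
  · show L (c0 j) - t (c0 j) = _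
    rw [ht0, hL0, hvv, sub_add_cancel_left]
    exact neg_eq_of_add_eq_zero_left (add_self_two _)
  · show L (c1 j) - t (c1 j) = _
    rw [ht1, hL1, sub_self]
    rfl
  · apply Dbl.ext
    · refine (Dbl.d_fst _).trans ?_
      show P.m.d j c = (dbl.fst φ (CAlg.zeroHom A)).f.app (j + 1)
        (cupi (cone φ).s.mul (J + 1) (j + 1) z z) - 0
      rw [f1, sub_zero]
    · rfl
    · refine (Dbl.d_pth _).trans ?_
      show A.cyl.m.d j (L - t) = (dbl.pth φ (CAlg.zeroHom A)).f.app (j + 1)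
        (cupi (cone φ).s.mul (J + 1) (j + 1) z z) - A.cyl.m.d j (tO A.m j _)
      rw [f3, map_sub, ht, hvv]

end fsq

/-! ### pairs -/

variable {X Y : SS}

/-- the functions on the `p`-simplices which vanish on `A` -/
def relSub (A : Sb X) (p : ℕ) : Submodule (ZMod 2) ((SS.F (ZMod 2) X).obj p) where
  carrier := {u | ∀ x : X.obj p, A.mem x → u x = 0}
  add_mem' := fun {u v} hu hv x hx => by
    show u x + v x = 0
    rw [hu x hx, hv x hx, add_zero]
  zero_mem' := fun _ _ => rfl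
  smul_mem' := fun r u hu x hx => by
    show r * u x = 0
    rw [hu x hx, mul_zero]

/-- **The cochain algebra of a pair.** -/
def relF (A : Sb X) : CAlg where
  m :=
    { obj := fun p => relSub A p
      map := fun {p q} α => ((SS.F (ZMod 2) X).map α).restrict (fun u hu x hx =>
        hu (X.map α x) (A.map_mem α hx))
      map_id := by
        intro p
        apply LinearMap.ext
        intro u
        exact Subtype.ext ((SS.F (ZMod 2) X).map_id_apply _)
      map_comp := fun α β => by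
        apply LinearMap.ext
        intro u
        exact Subtype.ext ((SS.F (ZMod 2) X).map_map α β _).symm }
  s :=
    { mul :=
        { app := fun p => LinearMap.mk₂ (ZMod 2)
            (fun u v => (⟨fun x => u.1 x * v.1 x, fun x hx =>
              (congrArg (fun r => r * v.1 x) (u.2 x hx)).trans (zero_mul _)⟩ : relSub A p))
            (fun u u' v => Subtype.ext (funext fun x => add_mul _ _ _))
            (fun r u v => Subtype.ext (funext fun x => mul_assoc _ _ _))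
            (fun u v v' => Subtype.ext (funext fun x => mul_add _ _ _))
            (fun r u v => Subtype.ext (funext fun x => mul_left_comm _ _ _))
          nat := fun _ _ _ => rfl }
      comm := fun p u v => Subtype.ext (funext fun x => mul_comm _ _)
      assoc := fun p u v w => Subtype.ext (funext fun x => mul_assoc _ _ _) }
  idem p u := Subtype.ext (funext fun x => by
    have key : ∀ r : ZMod 2, r * r = r := by decide
    exact key _)

/-- the inclusion of the relative cochains -/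
def relInc (A : Sb X) : Hom (relF A).m (SS.F (ZMod 2) X) :=
  ⟨fun p => (relSub A p).subtype, fun _ _ => rfl⟩

/-- pull-back along a map of pairs -/
def relPull (f : SS.Map X Y) (A : Sb X) (B : Sb Y)
    (h : ∀ {p : ℕ} (x : X.obj p), A.mem x → B.mem (f.app x)) : AHom (relF B) (relF A) where
  f :=
    { app := fun p =>
        { toFun := fun u => ⟨fun x => u.1 (f.app x), fun x hx => u.2 _ (h x hx)⟩
          map_add' := fun _ _ => rfl
          map_smul' := fun _ _ => rfl }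
      nat := fun α u => Subtype.ext (funext fun x => congrArg u.1 (f.nat α x).symm) }
  mul _ _ _ := rfl

/-- pull-back along a homotopy of maps of pairs -/
def relHtpy (H : SS.Map (cylS X) Y) (A : Sb X) (B : Sb Y)
    (h : ∀ {p : ℕ} (z : (cylS X).obj p), A.mem z.1 → B.mem (H.app z)) :
    AHom (relF B) (relF A).cyl where
  f :=
    { app := fun p =>
        { toFun := fun u θ => ⟨fun x => u.1 (H.app (x, θ)), fun x hx => u.2 _ (h (x, θ) hx)⟩
          map_add' := fun _ _ => rfl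
          map_smul' := fun _ _ => rfl }
      nat := fun {p q} α u => by
        funext θ
        refine Subtype.ext (funext fun x => ?_)
        show u.1 (Y.map α (H.app (x, θ))) = u.1 (H.app (X.map α x, θ.comp α))
        exact congrArg u.1 (H.nat α (x, θ)).symm }
  mul _ _ _ := rfl

theorem relHtpy_ev0 (H : SS.Map (cylS X) Y) (A : Sb X) (B : Sb Y)
    (h : ∀ {p : ℕ} (z : (cylS X).obj p), A.mem z.1 → B.mem (H.app z)) (f : SS.Map X Y)
    (hf : ∀ {p : ℕ} (x : X.obj p), A.mem x → B.mem (f.app x))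
    (e : ∀ {p : ℕ} (x : X.obj p), H.app (x, c0 p) = f.app x) (p : ℕ) (u : (relF B).m.obj p) :
    ((relF A).ev0.comp (relHtpy H A B h)).f.app p u = (relPull f A B hf).f.app p u :=
  Subtype.ext (funext fun x => congrArg u.1 (e x))

theorem relHtpy_ev1 (H : SS.Map (cylS X) Y) (A : Sb X) (B : Sb Y)
    (h : ∀ {p : ℕ} (z : (cylS X).obj p), A.mem z.1 → B.mem (H.app z)) (f : SS.Map X Y)
    (hf : ∀ {p : ℕ} (x : X.obj p), A.mem x → B.mem (f.app x))
    (e : ∀ {p : ℕ} (x : X.obj p), H.app (x, c1 p) = f.app x) (p : ℕ) (u : (relF B).m.obj p) :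
    ((relF A).ev1.comp (relHtpy H A B h)).f.app p u = (relPull f A B hf).f.app p u :=
  Subtype.ext (funext fun x => congrArg u.1 (e x))

/-! ### the dictionary with `Cc` -/

/-- the component of degree `n` of a relative cochain -/
def rto (A : Sb X) (n : ℕ) (u : Cc X) (hA : Vn A u) : (relF A).m.obj n := ⟨u n, hA n⟩

@[simp] theorem rto_val (A : Sb X) (n : ℕ) (u : Cc X) (hA : Vn A u) : (rto A n u hA).1 = u n := rfl

theorem rto_d (A : Sb X) (n : ℕ) (u : Cc X) (hA : Vn A u) :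
    (relF A).m.d n (rto A n u hA) = rto A (n + 1) (Cc.d u) hA.d :=
  Subtype.ext (((relInc A).app_d n (rto A n u hA)).trans (Cc.toF_d n u).symm)

theorem rto_mem_Z (A : Sb X) (n : ℕ) (u : Cc X) (hA : Vn A u) (hd : Cc.d u = 0) :
    rto A n u hA ∈ (relF A).m.Z n := by
  rw [mem_Z, rto_d]
  apply Subtype.ext
  show Cc.d u (n + 1) = 0
  rw [hd]
  rfl

/-- the class of the component of degree `n` of a relative cocycle -/
def rcl (A : Sb X) (n : ℕ) (u : Cc X) (hA : Vn A u) (hd : Cc.d u = 0) : (relF A).H n :=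
  (relF A).m.cls n ⟨rto A n u hA, rto_mem_Z A n u hA hd⟩

/-- a relative function as a homogeneous cochain -/
theorem vn_ofF (A : Sb X) {n : ℕ} (u : (relF A).m.obj n) : Vn A (Cc.ofF n u.1) := by
  intro p x hx
  by_cases h : p = n
  · subst h
    exact (Cc.single_self p u.1 x).trans (u.2 x hx)
  · exact Cc.isDeg_ofF n u.1 p h x

theorem rto_ofF (A : Sb X) {n : ℕ} (u : (relF A).m.obj n) :
    rto A n (Cc.ofF n u.1) (vn_ofF A u) = u := Subtype.ext (Cc.toF_ofF n u.1)

/-- every class is the class of a homogeneous relative cocycle -/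
theorem exists_rcl (A : Sb X) {n : ℕ} (x : (relF A).H n) :
    ∃ (u : Cc X) (hA : Vn A u) (hd : Cc.d u = 0), Cc.IsDeg n u ∧ x = rcl A n u hA hd := by
  induction x using H_ind with
  | h z =>
    have hd : Cc.d (Cc.ofF n z.1.1) = 0 := by
      rw [Cc.d_ofF]
      have h1 : (SS.F (ZMod 2) X).d n z.1.1 = 0 :=
        ((relInc A).app_d n z.1).symm.trans (congrArg Subtype.val (mem_Z.1 z.2))
      rw [h1]
      funext p y
      by_cases h : p = n + 1
      · subst h
        exact Cc.single_self (n + 1) _ y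
      · exact Cc.isDeg_ofF (n + 1) _ p h y
    refine ⟨Cc.ofF n z.1.1, vn_ofF A z.1, hd, Cc.isDeg_ofF n z.1.1, ?_⟩
    rw [rcl]
    exact congrArg _ (Subtype.ext (rto_ofF A z.1).symm)

theorem rcl_eq_zero_iff (A : Sb X) {n : ℕ} {u : Cc X} (hu : Cc.IsDeg n u) (hA : Vn A u)
    (hd : Cc.d u = 0) : rcl A n u hA hd = 0 ↔ ∃ a : Cc X, Vn A a ∧ Cc.d a = u := by
  rw [rcl, cls_eq_zero_iff]
  constructor
  · intro h
    cases n with
    | zero =>
      have h0 : u 0 = 0 := congrArg Subtype.val (mem_Bd_zero.1 h)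
      have h1 : u = 0 := Cc.IsDeg.ext hu (fun _ _ _ => rfl) h0
      refine ⟨0, Vn.zero, ?_⟩
      rw [h1]
      exact (Cc.cupC X).d.map_zero
    | succ n =>
      obtain ⟨w, hw⟩ := h
      refine ⟨Cc.ofF n w.1, vn_ofF A w, ?_⟩
      have h1 : (SS.F (ZMod 2) X).d n w.1 = Cc.toF (n + 1) u :=
        ((relInc A).app_d n w).symm.trans (congrArg Subtype.val hw)
      rw [Cc.d_ofF, h1, Cc.ofF_toF hu]
  · rintro ⟨a, ha, rfl⟩
    cases n with
    | zero =>
      rw [mem_Bd_zero]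
      exact Subtype.ext (Cc.toF_zero_d a)
    | succ n => exact ⟨rto A n a ha, rto_d A n a ha⟩

theorem rcl_add (A : Sb X) (n : ℕ) {u v : Cc X} (hA : Vn A u) (hd : Cc.d u = 0) (hA' : Vn A v)
    (hd' : Cc.d v = 0) (hA'' : Vn A (u + v)) (hd'' : Cc.d (u + v) = 0) :
    rcl A n (u + v) hA'' hd'' = rcl A n u hA hd + rcl A n v hA' hd' := rfl

theorem relPull_rcl (f : SS.Map X Y) (A : Sb X) (B : Sb Y)
    (h : ∀ {p : ℕ} (x : X.obj p), A.mem x → B.mem (f.app x)) (n : ℕ) {u : Cc Y} (hB : Vn B u)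
    (hd : Cc.d u = 0) (hA' : Vn A (Cc.pull f u)) (hd' : Cc.d (Cc.pull f u) = 0) :
    (relPull f A B h).H n (rcl B n u hB hd) = rcl A n (Cc.pull f u) hA' hd' := rfl

/-- faces of homogeneous cochains in the two languages -/
theorem fc_toF {m N : ℕ} {u : Cc X} (hu : Cc.IsDeg m u) (Q : Finset ℕ) (σ : X.obj N) :
    (Vale.Agent.P263.S.fc (A := SS.F (ZMod 2) X) (n := m) (Cc.toF m u) N Q :
      (SS.F (ZMod 2) X).obj N) σ = co u σ Q := by
  by_cases h : Q.card = m + 1
  · rw [Vale.Agent.P263.S.fc_of_card h, co_of_ne (by omega)]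
    have e : Q.card - 1 = m := by omega
    rw [e]
    rfl
  · rw [Vale.Agent.P263.S.fc_of_ne h]
    by_cases h0 : Q.card = 0
    · rw [card_eq_zero.1 h0, co_empty]
      rfl
    · rw [co_of_ne h0]
      exact (hu _ (by omega) _).symm

/-- cup-i products in the two languages -/
theorem cupi_toF {m n N : ℕ} {u v : Cc X} (hu : Cc.IsDeg m u) (hv : Cc.IsDeg n v) (j : ℕ)
    (σ : X.obj N) : (cupi (mulF (ZMod 2) X) j N (Cc.toF m u) (Cc.toF n v) :
      (SS.F (ZMod 2) X).obj N) σ = Cc.cup j u v N σ := by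
  rw [Cc.cup_def, cupi, cupG, cupJ]
  refine Eq.trans (Finset.sum_apply (M := fun _ => ZMod 2) σ _ _) (sum_congr rfl fun J _ => ?_)
  rw [← fc_toF hu, ← fc_toF hv]
  rfl

theorem cupi_rto (A : Sb X) {m n N : ℕ} {u v : Cc X} (hu : Cc.IsDeg m u) (hv : Cc.IsDeg n v)
    (hA : Vn A u) (hA' : Vn A v) (j : ℕ) (hA'' : Vn A (Cc.cup j u v)) :
    cupi (relF A).s.mul j N (rto A m u hA) (rto A n v hA') = rto A N (Cc.cup j u v) hA'' := by
  have h := cupi_nat (relF A).s.mul (mulF (ZMod 2) X) (relInc A) (relInc A) (relInc A)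
    (fun _ _ _ => rfl) j N (rto A m u hA) (rto A n v hA')
  refine Subtype.ext (h.trans ?_)
  funext σ
  exact cupi_toF hu hv j σ

/-- the squares in the two languages -/
theorem sq_rcl (A : Sb X) {n j J : ℕ} {u : Cc X} (hu : Cc.IsDeg n u) (hA : Vn A u)
    (hd : Cc.d u = 0) (hJ : J + j = n + n + 1) (hA' : Vn A (Cc.cup J u u))
    (hd' : Cc.d (Cc.cup J u u) = 0) :
    (relF A).sq n j (rcl A n u hA hd) = rcl A j (Cc.cup J u u) hA' hd' := by
  obtain ⟨h, e⟩ := (relF A).sq_cls ⟨rto A n u hA, rto_mem_Z A n u hA hd⟩ hJ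
  rw [rcl, e, rcl]
  exact congrArg _ (Subtype.ext (cupi_rto A (N := j) hu hu hA hA J hA'))

/-- **Functional squares of maps of pairs and the cone.** -/
theorem cone_FSqD (f : SS.Map X Y) (A : Sb X) (B : Sb Y)
    (h : ∀ {p : ℕ} (x : X.obj p), A.mem x → B.mem (f.app x)) {k i j : ℕ}
    (hij : i + j = k + k + 1) (D : CupC.FSqD (Cc.relHom f A B h) i)
    (hb : Cc.IsDeg (k + 1) (Cc.val D.b)) (he : Cc.IsDeg k (Cc.val D.e)) :
    ∃ z : (cone (relPull f A B h)).H (k + 1),
      (dbl.fst (relPull f A B h) (CAlg.zeroHom (relF A))).H (k + 1) z =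
        rcl B (k + 1) (Cc.val D.b) (Cc.vn_val D.b) (congrArg Cc.val D.d_b) ∧
      (cone (relPull f A B h)).sq (k + 1) (j + 1) z =
        dbl.del (relPull f A B h) (CAlg.zeroHom (relF A)) j
          (rcl A j (Cc.val D.val) (Cc.vn_val D.val) (congrArg Cc.val D.d_val)) := by
  have hde : (relF A).m.d k (rto A k (Cc.val D.e) (Cc.vn_val D.e)) =
      (relPull f A B h).f.app (k + 1) (rto B (k + 1) (Cc.val D.b) (Cc.vn_val D.b)) := by
    rw [rto_d]
    apply Subtype.ext
    exact congrFun (congrArg Cc.val D.d_e) (k + 1)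
  have hdc : (relF B).m.d j (rto B j (Cc.val D.c) (Cc.vn_val D.c)) =
      cupi (relF B).s.mul (i + 1) (j + 1) (rto B (k + 1) (Cc.val D.b) (Cc.vn_val D.b))
        (rto B (k + 1) (Cc.val D.b) (Cc.vn_val D.b)) := by
    have hv : Vn B (Cc.cup (i + 1) (Cc.val D.b) (Cc.val D.b)) := (Cc.vn_val D.b).cup_left _ _
    rw [rto_d, cupi_rto B hb hb _ _ (i + 1) hv]
    apply Subtype.ext
    exact (congrFun (congrArg Cc.val D.d_c) (j + 1)).symm
  obtain ⟨hv, z, hz1, hz2⟩ := cone_fsq (relPull f A B h) (J := i) (j := j) hij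
    ⟨rto B (k + 1) (Cc.val D.b) (Cc.vn_val D.b), rto_mem_Z B _ _ _ (congrArg Cc.val D.d_b)⟩
    (rto A k (Cc.val D.e) (Cc.vn_val D.e)) (rto B j (Cc.val D.c) (Cc.vn_val D.c)) hde hdc
  refine ⟨z, hz1, hz2.trans ?_⟩
  refine congrArg _ (congrArg _ (Subtype.ext ?_))
  show cupi (relF A).s.mul i j (rto A k (Cc.val D.e) (Cc.vn_val D.e))
      (rto A k (Cc.val D.e) (Cc.vn_val D.e)) +
    cupi (relF A).s.mul (i + 1) j (rto A k (Cc.val D.e) (Cc.vn_val D.e))
      ((relF A).m.d k (rto A k (Cc.val D.e) (Cc.vn_val D.e))) +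
    (relPull f A B h).f.app j (rto B j (Cc.val D.c) (Cc.vn_val D.c)) =
    rto A j (Cc.val D.val) (Cc.vn_val D.val)
  rw [rto_d, cupi_rto A he he _ _ i ((Cc.vn_val D.e).cup_left _ _),
    cupi_rto A he he.d _ _ (i + 1) ((Cc.vn_val D.e).cup_left _ _)]
  rfl

end Vale.Agent.P263.Cof
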