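import Vale.Agent.P263.K.CofRel

/-!
# P263, section K (helper659): the Adams filtration lemma for pairs of simplicial sets

`AFSp r c` : pairs `(T, T0)`, `(G, G0)`, `(W, W0)`, `(W1, W10)`, `(U, U0)`, maps
`γ : U → G`, `a1 : U → W1`, `a2 : W1 → W`, `a3 : W → T`, `λ : G → T` and a homotopy from `λ γ` to
`a3 a2 a1`. **`AFSp.coh`** : for `c + 1 = 2 ^ s`, `s ≥ 1`, a functional square of `γ` on a cocycle
of the class `v^c` is the pull-back of a cocycle of `G` plus a coboundary.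
-/

noncomputable section

namespace Vale.Agent.P263.Cof

open Finset
open Vale.Agent.P263.S Vale.Agent.P263.E Vale.Agent.P263.TJ Vale.Agent.P263.H83 CosMod

/-- maps of pairs -/
structure PMap {X Y : SS} (A : Sb X) (B : Sb Y) where
  map : SS.Map X Y
  mem : ∀ {p : ℕ} (x : X.obj p), A.mem x → B.mem (map.app x)

namespace PMap

variable {X Y Z : SS} {A : Sb X} {B : Sb Y} {C : Sb Z}

/-- pull-back of relative cochains -/
def pull (f : PMap A B) : AHom (relF B) (relF A) := relPull f.map A B f.mem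

/-- pull-back in the language of `Cc` -/
def hom (f : PMap A B) : CupC.Hom (Cc.rel B) (Cc.rel A) := Cc.relHom f.map A B f.mem

end PMap

/-- the cone and functional squares, with free degrees -/
theorem cone_FSqD' {X Y : SS} {A : Sb X} {B : Sb Y} (f : PMap A B) {n k i j m : ℕ}
    (hn : n = k + 1) (hm : m = j + 1) (hij : i + j = k + k + 1) (D : CupC.FSqD f.hom i)
    (hb : Cc.IsDeg n (Cc.val D.b)) (he : Cc.IsDeg k (Cc.val D.e)) :
    ∃ z : (cone f.pull).H n,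
      (dbl.fst f.pull (CAlg.zeroHom (relF A))).H n z =
        rcl B n (Cc.val D.b) (Cc.vn_val D.b) (congrArg Cc.val D.d_b) ∧
      (cone f.pull).sq n (j + 1) z =
        dbl.del f.pull (CAlg.zeroHom (relF A)) j
          (rcl A j (Cc.val D.val) (Cc.vn_val D.val) (congrArg Cc.val D.d_val)) := by
  subst hn hm
  exact cone_FSqD f.map A B f.mem hij D hb he

section lam

variable {T G : SS} {T0 : Sb T} {G0 : Sb G} (lam : PMap G0 T0) {r : ℕ} {b : Cc T}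
  (b_vn : Vn T0 b) (d_b : Cc.d b = 0)

/-- a functional square of `λ` on `b`, with value `x` -/
def IsFS (lam : PMap G0 T0) (r : ℕ) (b : Cc T) (i : ℕ) (x : (relF G0).H (r + 1 + i)) : Prop :=
  ∃ D : CupC.FSqD lam.hom (r - i), Cc.val D.b = b ∧ Cc.IsDeg r (Cc.val D.e) ∧
    rcl G0 (r + 1 + i) (Cc.val D.val) (Cc.vn_val D.val) (congrArg Cc.val D.d_val) = x

include d_b in
/-- one lift of the fundamental class to the cone of `λ` serves for all functional squares -/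
theorem exists_bl (hG : ∀ x : (relF G0).H r, x = 0) (hb : Cc.IsDeg (r + 1) b) {N : ℕ}
    (hN : N ≤ r) (v : ∀ i, (relF G0).H (r + 1 + i)) (fs : ∀ i, i ≤ N → IsFS lam r b i (v i)) :
    ∃ z : (cone lam.pull).H (r + 1),
      (dbl.fst lam.pull (CAlg.zeroHom (relF G0))).H (r + 1) z = rcl T0 (r + 1) b b_vn d_b ∧
      ∀ i, i ≤ N → (cone lam.pull).sq (r + 1) (r + 1 + i + 1) z =
        dbl.del lam.pull (CAlg.zeroHom (relF G0)) (r + 1 + i) (v i) := by
  have key : ∀ i, i ≤ N → ∃ z : (cone lam.pull).H (r + 1),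
      (dbl.fst lam.pull (CAlg.zeroHom (relF G0))).H (r + 1) z = rcl T0 (r + 1) b b_vn d_b ∧
      (cone lam.pull).sq (r + 1) (r + 1 + i + 1) z =
        dbl.del lam.pull (CAlg.zeroHom (relF G0)) (r + 1 + i) (v i) := by
    intro i hi
    obtain ⟨D, hD1, hD2, hD3⟩ := fs i hi
    obtain ⟨z, hz1, hz2⟩ := cone_FSqD' (m := r + 1 + i + 1) lam (n := r + 1) (k := r)
      (i := r - i) (j := r + 1 + i) rfl rfl (by omega) D (by rw [hD1]; exact hb) hD2
    refine ⟨z, hz1.trans ?_, hz2.trans ?_⟩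
    · exact congrArg ((relF T0).m.cls (r + 1))
        (Subtype.ext (Subtype.ext (congrFun hD1 (r + 1))))
    · rw [hD3]
  obtain ⟨z, hz1, _⟩ := key 0 (Nat.zero_le _)
  refine ⟨z, hz1, fun i hi => ?_⟩
  obtain ⟨z', hz1', hz2'⟩ := key i hi
  have e : z = z' := by
    rw [← sub_eq_zero]
    apply cone_eq_zero lam.pull (fun i hi => ?_)
    · rw [map_sub, hz1, hz1', sub_self]
    · obtain rfl : r = i := by omega
      exact hG
  rw [e]
  exact hz2'

include b_vn d_b in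
/-- **the squares of the functional squares of `λ`** (from the Adem relations in the cone) -/
theorem sq_v_of_fs (hG : ∀ x : (relF G0).H r, x = 0) (hb : Cc.IsDeg (r + 1) b) {N : ℕ}
    (hN : N ≤ r) (v : ∀ i, (relF G0).H (r + 1 + i)) (fs : ∀ i, i ≤ N → IsFS lam r b i (v i))
    (hinst : ∀ q a m (x : (relF G0).H (r + 1 + q)), q < a → m = r + 1 + q + a →
      (relF G0).sq (r + 1 + q) m x = 0)
    (hT : ∀ k, r + 1 < k → k ≤ r + 1 + N → ∀ x : (relF T0).H k, x = 0) (i k : ℕ)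
    (hik : i + k ≤ N) : (relF G0).sq (r + 1 + i) (r + 1 + (i + k)) (v i) =
      ((i.choose k : ℕ) : ZMod 2) • v (i + k) := by
  obtain ⟨z, _, hz⟩ := exists_bl lam b_vn d_b hG hb hN v fs
  exact sq_v_of lam.pull z v hinst hT hz i k hik

end lam

/-- The input of the Adams filtration lemma. -/
structure AFSp (r c : ℕ) where
  {T : SS}
  {G : SS}
  {W : SS}
  {W1 : SS}
  {U : SS}
  {T0 : Sb T}
  {G0 : Sb G}
  {W0 : Sb W}
  {W10 : Sb W1}
  {U0 : Sb U}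
  γ : PMap U0 G0
  a1 : PMap U0 W10
  a2 : PMap W10 W0
  a3 : PMap W0 T0
  lam : PMap G0 T0
  /-- the homotopy -/
  htp : SS.Map (cylS U) T
  htp_mem : ∀ {p : ℕ} (z : (cylS U).obj p), U0.mem z.1 → T0.mem (htp.app z)
  htp0 : ∀ {p : ℕ} (x : U.obj p), htp.app (x, c0 p) = lam.map.app (γ.map.app x)
  htp1 : ∀ {p : ℕ} (x : U.obj p), htp.app (x, c1 p) = a3.map.app (a2.map.app (a1.map.app x))
  a2_zero : ∀ q x, a2.pull.H q x = 0
  a1_zero : ∀ q x, a1.pull.H q x = 0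
  hU : ∀ k, r ≤ k → k < r + 1 + 2 * c → ∀ x : (relF U0).H k, x = 0
  hT : ∀ k, r + 1 < k → k ≤ r + 1 + (2 * c + 1) → ∀ x : (relF T0).H k, x = 0
  hG : ∀ x : (relF G0).H r, x = 0
  lam_zero : ∀ x : (relF T0).H (r + 1), lam.pull.H (r + 1) x = 0
  /-- the fundamental cocycle -/
  b : Cc T
  b_vn : Vn T0 b
  d_b : Cc.d b = 0
  b_deg : Cc.IsDeg (r + 1) b
  a3_zero : a3.pull.H (r + 1) (rcl T0 (r + 1) b b_vn d_b) = 0
  /-- the classes `v^i` -/
  v : ∀ i, (relF G0).H (r + 1 + i)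
  sq_v : ∀ i k, i + k ≤ 2 * c → (relF G0).sq (r + 1 + i) (r + 1 + (i + k)) (v i) =
    ((i.choose k : ℕ) : ZMod 2) • v (i + k)
  hcr : c ≤ r
  /-- the functional squares of `λ` -/
  fs : ∀ i, i ≤ c → IsFS lam r b i (v i)

namespace AFSp

variable {r c : ℕ} (I : AFSp r c)

theorem exists_bl : ∃ z : (cone I.lam.pull).H (r + 1),
    (dbl.fst I.lam.pull (CAlg.zeroHom (relF I.G0))).H (r + 1) z =
      rcl I.T0 (r + 1) I.b I.b_vn I.d_b ∧
    ∀ i, i ≤ c → (cone I.lam.pull).sq (r + 1) (r + 1 + i + 1) z =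
        dbl.del I.lam.pull (CAlg.zeroHom (relF I.G0)) (r + 1 + i) (I.v i) :=
  Cof.exists_bl I.lam I.b_vn I.d_b I.hG I.b_deg I.hcr I.v I.fs

/-- the input for algebras -/
def toIn : AFIn r c where
  γ := I.γ.pull
  a2 := I.a2.pull
  a1 := I.a1.pull
  lam := I.lam.pull
  a3 := I.a3.pull
  η := relHtpy I.htp I.U0 I.T0 I.htp_mem
  η0 p x := relHtpy_ev0 I.htp I.U0 I.T0 I.htp_mem (I.lam.map.comp I.γ.map)
    (fun x hx => I.lam.mem _ (I.γ.mem x hx)) I.htp0 p x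
  η1 p x := relHtpy_ev1 I.htp I.U0 I.T0 I.htp_mem (I.a3.map.comp (I.a2.map.comp I.a1.map))
    (fun x hx => I.a3.mem _ (I.a2.mem _ (I.a1.mem x hx))) I.htp1 p x
  a2_zero := I.a2_zero
  a1_zero := I.a1_zero
  hA := I.hU
  hT := I.hT
  hG := I.hG
  lam_zero := I.lam_zero
  ι := rcl I.T0 (r + 1) I.b I.b_vn I.d_b
  a3_zero := I.a3_zero
  v := I.v
  sq_v := I.sq_v
  bl := I.exists_bl.choose
  fst_bl := I.exists_bl.choose_spec.1
  fsq i hi := I.exists_bl.choose_spec.2 i hi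

/-- **The Adams filtration lemma for pairs.** -/
theorem exists_eq (s : ℕ) (hs : 1 ≤ s) (hc : c + 1 = 2 ^ s) {i : ℕ}
    (hi : i + (r + 1 + 2 * c) = r + c + (r + c) + 1) (D : CupC.FSqD I.γ.hom i)
    (hb : Cc.IsDeg (r + 1 + c) (Cc.val D.b)) (he : Cc.IsDeg (r + c) (Cc.val D.e))
    (hv : rcl I.G0 (r + 1 + c) (Cc.val D.b) (Cc.vn_val D.b) (congrArg Cc.val D.d_b) = I.v c) :
    ∃ x : (relF I.G0).H (r + 1 + 2 * c),
      rcl I.U0 (r + 1 + 2 * c) (Cc.val D.val) (Cc.vn_val D.val) (congrArg Cc.val D.d_val) =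
        I.γ.pull.H (r + 1 + 2 * c) x := by
  obtain ⟨z, hz1, hz2⟩ := cone_FSqD' (m := r + 1 + 2 * c + 1) I.γ (n := r + 1 + c) (k := r + c)
    (i := i) (j := r + 1 + 2 * c) (by omega) rfl hi D hb he
  have h := I.toIn.sq_eq_zero s hs hc z (hz1.trans hv)
  exact cone_exists_of_del_eq_zero I.γ.pull _ (hz2.symm.trans h)

/-- the same in the language of `Cc` -/
theorem coh (s : ℕ) (hs : 1 ≤ s) (hc : c + 1 = 2 ^ s) {i : ℕ}
    (hi : i + (r + 1 + 2 * c) = r + c + (r + c) + 1) (D : CupC.FSqD I.γ.hom i)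
    (hb : Cc.IsDeg (r + 1 + c) (Cc.val D.b)) (he : Cc.IsDeg (r + c) (Cc.val D.e))
    (hval : Cc.IsDeg (r + 1 + 2 * c) (Cc.val D.val))
    (hv : rcl I.G0 (r + 1 + c) (Cc.val D.b) (Cc.vn_val D.b) (congrArg Cc.val D.d_b) = I.v c) :
    ∃ (y : Cc I.G) (a : Cc I.U), Vn I.G0 y ∧ Cc.d y = 0 ∧ Cc.IsDeg (r + 1 + 2 * c) y ∧
      Vn I.U0 a ∧ Cc.d a = Cc.val D.val + Cc.pull I.γ.map y := by
  obtain ⟨x, hx⟩ := I.exists_eq s hs hc hi D hb he hv
  obtain ⟨y, hy0, hyd, hydeg, rfl⟩ := exists_rcl I.G0 x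
  have h1 : Vn I.U0 (Cc.pull I.γ.map y) := fun p x hx => hy0 p _ (I.γ.mem x hx)
  have h2 : Cc.d (Cc.pull I.γ.map y) = 0 := by
    rw [← pull_d, hyd]; rfl
  have hval0 : Cc.d (Cc.val D.val) = 0 := congrArg Cc.val D.d_val
  have h3 : Vn I.U0 (Cc.val D.val + Cc.pull I.γ.map y) := (Cc.vn_val D.val).add h1
  have h4 : Cc.d (Cc.val D.val + Cc.pull I.γ.map y) = 0 := by
    have e : Cc.d (Cc.val D.val + Cc.pull I.γ.map y) =
      Cc.d (Cc.val D.val) + Cc.d (Cc.pull I.γ.map y) := (Cc.cupC I.U).d.map_add _ _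
    rw [e, hval0, h2, add_zero]
  have h5 : rcl I.U0 (r + 1 + 2 * c) (Cc.val D.val + Cc.pull I.γ.map y) h3 h4 = 0 := by
    rw [rcl_add I.U0 (r + 1 + 2 * c) (Cc.vn_val D.val) hval0 h1 h2 h3 h4, hx]
    exact add_self_two _
  obtain ⟨a, ha, hda⟩ := (rcl_eq_zero_iff I.U0 (hval.add (hydeg.pull I.γ.map)) h3 h4).1 h5
  exact ⟨y, a, hy0, hyd, hydeg, ha, hda⟩

end AFSp

end Vale.Agent.P263.Cof
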