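import Vale.Agent.P263.TJ.SCup
import Vale.Agent.P263.TJ.Dstar
import Vale.Agent.P263.G2.SingSS
import Mathlib.Topology.CompactOpen

/-!
# P263, block K: the mapping cylinder and the Steenrod squares of a pair

* `Cyl f` : the mapping cylinder of `f : C(X, Y)`; `Cyl.top f : C(X, Cyl f)`.
* `SqNe f k i` : the Steenrod square `Sqᵏ : H^{k+i}(Cyl f, X; 𝔽₂) → H^{2k+i}(Cyl f, X; 𝔽₂)` is not
  zero. (`H^*(Cyl f, X)` is the reduced cohomology of the mapping cone of `f`.)
* `sqNe_of_FSqD` : if Steenrod's functional square of a class `b` of degree `k + i` of `Y` with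
  `f^* b = 0` and `Sqᵏ b = 0` is not in `f^* H^{2k+i-1}(Y)`, then `SqNe f k i`.
-/

open Finset

namespace Vale.Agent.P263.K

open Vale.Agent.P263.S Vale.Agent.P263.E Vale.Agent.P263.G2 Vale.Agent.P263.TJ

variable {X Y : Type} [TopologicalSpace X] [TopologicalSpace Y]

/-! ### the mapping cylinder -/

/-- the relation `(x, 0) ~ f x` -/
inductive CylRel (f : C(X, Y)) : (X × unitInterval) ⊕ Y → (X × unitInterval) ⊕ Y → Prop
  | glue (x : X) : CylRel f (Sum.inl (x, 0)) (Sum.inr (f x))

/-- The mapping cylinder of `f`: the quotient of `(X × [0, 1]) ⊔ Y` by `(x, 0) ~ f x`. -/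
def Cyl (f : C(X, Y)) : Type := Quot (CylRel f)

instance (f : C(X, Y)) : TopologicalSpace (Cyl f) := instTopologicalSpaceQuot

namespace Cyl

/-- the quotient map -/
def mk (f : C(X, Y)) : C((X × unitInterval) ⊕ Y, Cyl f) := ⟨Quot.mk (CylRel f), continuous_quot_mk⟩

theorem mk_glue (f : C(X, Y)) (x : X) : mk f (Sum.inl (x, 0)) = mk f (Sum.inr (f x)) :=
  Quot.sound (CylRel.glue x)

/-- The inclusion of `X` as the top of the mapping cylinder, `x ↦ (x, 1)`. -/
def top (f : C(X, Y)) : C(X, Cyl f) :=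
  ⟨fun x => mk f (Sum.inl (x, 1)),
    (mk f).continuous.comp (continuous_inl.comp (continuous_id.prodMk continuous_const))⟩

/-- the inclusion of `Y` -/
def base (f : C(X, Y)) : C(Y, Cyl f) :=
  ⟨fun y => mk f (Sum.inr y), (mk f).continuous.comp continuous_inr⟩

/-- a continuous map out of the mapping cylinder -/
def desc {Z : Type} [TopologicalSpace Z] {f : C(X, Y)} (g : C(X × unitInterval, Z)) (h : C(Y, Z))
    (hgh : ∀ x, g (x, 0) = h (f x)) : C(Cyl f, Z) :=
  ⟨Quot.lift (Sum.elim g h) (by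
    intro a b hab
    cases hab with
    | glue x => exact hgh x), continuous_quot_lift _ (g.continuous.sumElim h.continuous)⟩

section desc

variable {Z : Type} [TopologicalSpace Z] {f : C(X, Y)} (g : C(X × unitInterval, Z)) (h : C(Y, Z))
    (hgh : ∀ x, g (x, 0) = h (f x))

theorem desc_inl (p : X × unitInterval) : desc g h hgh (mk f (Sum.inl p)) = g p := rfl

theorem desc_base (y : Y) : desc g h hgh (base f y) = h y := rfl

end desc

theorem ind {f : C(X, Y)} {P : Cyl f → Prop} (h1 : ∀ p, P (mk f (Sum.inl p)))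
    (h2 : ∀ y, P (base f y)) (z : Cyl f) : P z := by
  induction z using Quot.ind with
  | _ a =>
    cases a with
    | inl p => exact h1 p
    | inr y => exact h2 y

/-- the retraction to `Y` -/
def retr (f : C(X, Y)) : C(Cyl f, Y) :=
  desc (f.comp ⟨Prod.fst, continuous_fst⟩) (ContinuousMap.id Y) fun _ => rfl

theorem retr_top (f : C(X, Y)) : (retr f).comp (top f) = f := rfl

theorem retr_base (f : C(X, Y)) : (retr f).comp (base f) = ContinuousMap.id Y := rfl

theorem continuous_mul_I : Continuous fun q : unitInterval × unitInterval => q.1 * q.2 :=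
  Continuous.subtype_mk ((continuous_subtype_val.comp continuous_fst).mul
    (continuous_subtype_val.comp continuous_snd)) _

/-- the adjoint of the contraction -/
def contrA (f : C(X, Y)) : C(Cyl f, C(unitInterval, Cyl f)) :=
  desc (ContinuousMap.curry ⟨fun q : (X × unitInterval) × unitInterval =>
      mk f (Sum.inl (q.1.1, q.1.2 * q.2)), (mk f).continuous.comp (continuous_inl.comp
        ((continuous_fst.comp continuous_fst).prodMk
          (continuous_mul_I.comp ((continuous_snd.comp continuous_fst).prodMk continuous_snd))))⟩)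
    (ContinuousMap.curry ⟨fun q : Y × unitInterval => base f q.1,
      (base f).continuous.comp continuous_fst⟩)
    (by
      intro x
      apply ContinuousMap.ext
      intro t
      show mk f (Sum.inl (x, 0 * t)) = mk f (Sum.inr (f x))
      rw [zero_mul, mk_glue])

/-- the contraction of the mapping cylinder to `Y` -/
def contr (f : C(X, Y)) : C(Cyl f × unitInterval, Cyl f) := (contrA f).uncurry

theorem contr_one (f : C(X, Y)) (z : Cyl f) : contr f (z, 1) = z := by
  refine ind (P := fun z => contr f (z, 1) = z) (fun p => ?_) (fun y => rfl) z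
  show mk f (Sum.inl (p.1, p.2 * 1)) = mk f (Sum.inl p)
  rw [mul_one]

theorem contr_zero (f : C(X, Y)) (z : Cyl f) : contr f (z, 0) = base f (retr f z) := by
  refine ind (P := fun z => contr f (z, 0) = base f (retr f z)) (fun p => ?_) (fun y => rfl) z
  show mk f (Sum.inl (p.1, p.2 * 0)) = mk f (Sum.inr (f p.1))
  rw [mul_zero, mk_glue]

/-- the coordinate of the mapping cylinder: `(x, s) ↦ s`, `y ↦ 0` -/
def coord (f : C(X, Y)) : C(Cyl f, unitInterval) :=
  desc ⟨Prod.snd, continuous_snd⟩ (ContinuousMap.const Y 0) fun _ => rfl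

theorem top_injective (f : C(X, Y)) : Function.Injective (top f) := by
  -- the quotient relation does not identify points of the top
  let F : (X × unitInterval) ⊕ Y → Option X := Sum.elim
    (fun p => by classical exact if p.2 = 0 then none else some p.1) (fun _ => none)
  have hF : ∀ a b, CylRel f a b → F a = F b := by
    intro a b hab
    cases hab with
    | glue x => simp [F]
  intro x y hxy
  have h : F (Sum.inl (x, 1)) = F (Sum.inl (y, 1)) :=
    congrArg (Quot.lift F hF) hxy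
  have h1 : ∀ x : X, F (Sum.inl (x, 1)) = some x := fun x => if_neg one_ne_zero
  rw [h1, h1] at h
  exact Option.some_injective _ h

end Cyl

/-! ### cochains of the mapping cylinder -/

/-- `Sqᵏ : H^{k+i}(Cyl f, X; 𝔽₂) → H^{2k+i}(Cyl f, X; 𝔽₂)` is not zero: there is a singular cocycle
`z` of degree `k + i` of the mapping cylinder which vanishes on `X` (the top), such that Steenrod's
product `z ∪_i z` is not the coboundary of a cochain which vanishes on `X`. -/
def SqNe (f : C(X, Y)) (k i : ℕ) : Prop :=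
  ∃ z : Cc (sing (Cyl f)), Cc.IsDeg (k + i) z ∧ Cc.d z = 0 ∧
    Cc.pull (singMap (Cyl.top f)) z = 0 ∧
    ¬ ∃ w : Cc (sing (Cyl f)), Cc.pull (singMap (Cyl.top f)) w = 0 ∧ Cc.cup (i + 1) z z = Cc.d w

/-- Extension of cochains along an injective simplicial map. -/
theorem exists_extension {A B : SS} {j : SS.Map A B} (hj : SS.Map.Inj j) {n : ℕ} {e : Cc A}
    (he : Cc.IsDeg n e) : ∃ e' : Cc B, Cc.IsDeg n e' ∧ Cc.pull j e' = e := by
  classical
  refine ⟨fun p σ => if h : ∃ τ : A.obj p, j.app τ = σ then e p h.choose else 0, ?_, ?_⟩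
  · intro p hp σ
    show (if h : ∃ τ : A.obj p, j.app τ = σ then e p h.choose else 0) = 0
    split_ifs with h
    · exact he p hp _
    · rfl
  · funext p τ
    have h : ∃ τ' : A.obj p, j.app τ' = j.app τ := ⟨τ, rfl⟩
    show (if h : ∃ τ' : A.obj p, j.app τ' = j.app τ then e p h.choose else 0) = e p τ
    rw [dif_pos h]
    exact congrArg (e p) (hj p h.choose_spec)

/-- A cocycle of the mapping cylinder is cohomologous to one pulled back from `Y`. -/
theorem coh_retr (f : C(X, Y)) {u : Cc (sing (Cyl f))} (hu : Cc.d u = 0) :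
    (Cc.cupC (sing (Cyl f))).Coh u
      (Cc.pull (singMap (Cyl.retr f)) (Cc.pull (singMap (Cyl.base f)) u)) := by
  have h1 : (singHtp (Cyl.contr f)).e1 = singMap (ContinuousMap.id _) :=
    singHtp_e1 _ _ (Cyl.contr_one f)
  have h0 : (singHtp (Cyl.contr f)).e0 = singMap ((Cyl.base f).comp (Cyl.retr f)) :=
    singHtp_e0 _ _ (Cyl.contr_zero f)
  have h := htp_d (singHtp (Cyl.contr f)) u
  rw [hu, htp_zero, h1, h0] at h
  refine ⟨htp (singHtp (Cyl.contr f)) u, ?_⟩
  have h2 : Cc.pull (singMap (ContinuousMap.id (Cyl f))) u = u := rfl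
  have h3 : Cc.pull (singMap ((Cyl.base f).comp (Cyl.retr f))) u =
      Cc.pull (singMap (Cyl.retr f)) (Cc.pull (singMap (Cyl.base f)) u) := rfl
  rw [h2, h3, add_assoc] at h
  have h4 : u + Cc.pull (singMap (Cyl.retr f)) (Cc.pull (singMap (Cyl.base f)) u) =
      Cc.d (htp (singHtp (Cyl.contr f)) u) := by
    have h5 := (Cc.cupC (sing (Cyl f))).two (Cc.d (htp (singHtp (Cyl.contr f)) u))
    have h6 : Cc.d (htp (singHtp (Cyl.contr f)) u) + Cc.d (htp (singHtp (Cyl.contr f)) u) +
        (u + Cc.pull (singMap (Cyl.retr f)) (Cc.pull (singMap (Cyl.base f)) u)) =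
        Cc.d (htp (singHtp (Cyl.contr f)) u) := by
      rw [add_assoc, ← h, add_zero]
    exact ((zero_add _).symm.trans (congrArg (· + _) h5.symm)).trans h6
  exact h4

/-- The abstract form of the bridge: `V`, `W`, `U` are the cochains of the target, of the mapping
cylinder and of the source. -/
theorem cyl_sq {V W U : CupC} {g : CupC.Hom V U} (r : CupC.Hom V W) (t : CupC.Hom W U)
    (s : CupC.Hom W V) (hrt : ∀ x, t.f (r.f x) = g.f x)
    (hs : ∀ u, W.d u = 0 → W.Coh u (r.f (s.f u))) {i : ℕ} (D : CupC.FSqD g i) {E : W.C}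
    (hE : t.f E = D.e) :
    W.d (r.f D.b + W.d E) = 0 ∧ t.f (r.f D.b + W.d E) = 0 ∧
      ∀ w, t.f w = 0 → W.cup (i + 1) (r.f D.b + W.d E) (r.f D.b + W.d E) = W.d w →
        ∃ y, V.d y = 0 ∧ U.Coh D.val (g.f y) := by
  have hB : W.d (r.f D.b) = 0 := by rw [← r.f_d, D.d_b, map_zero]
  have hsq : W.cup (i + 1) (r.f D.b + W.d E) (r.f D.b + W.d E) =
      W.d (r.f D.c + W.cup (i + 2) (r.f D.b) (W.d E) + W.q i E) := by
    have h1 := W.cup_comm_coh (i + 1) hB (W.d_d E)
    have h2 : W.cup (i + 1) (r.f D.b) (r.f D.b) = W.d (r.f D.c) := by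
      rw [← r.f_cup, D.d_c, r.f_d]
    rw [map_add W.d, map_add W.d, ← h1, ← h2, W.d_q]
    simp only [map_add, AddMonoidHom.add_apply]
    abel
  refine ⟨by rw [map_add, hB, W.d_d, add_zero], ?_, ?_⟩
  · rw [map_add, hrt, t.f_d, hE, D.d_e, U.two]
  · intro w hw0 hw
    obtain ⟨w0, hw0def⟩ : ∃ w0, w0 = r.f D.c + W.cup (i + 2) (r.f D.b) (W.d E) + W.q i E :=
      ⟨_, rfl⟩
    rw [← hw0def] at hsq
    have hz : W.d (w0 + w) = 0 := by rw [map_add, ← hsq, hw, W.two]
    obtain ⟨v, hv⟩ := hs _ hz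
    refine ⟨s.f (w0 + w), by rw [← s.f_d, hz, map_zero], ?_⟩
    have h1 : U.Coh (t.f (w0 + w)) (g.f (s.f (w0 + w))) :=
      ⟨t.f v, by rw [← hrt, ← map_add, hv, t.f_d]⟩
    refine CupC.Coh.trans ?_ h1
    have h3 : t.f (w0 + w) = g.f D.c + U.cup (i + 2) (g.f D.b) (g.f D.b) + U.q i D.e := by
      rw [map_add, hw0, add_zero, hw0def, map_add, map_add, t.f_cup, t.f_q, t.f_d, hrt, hrt, hE,
        D.d_e]
    rw [h3]
    refine ⟨U.q (i + 1) D.e, ?_⟩
    rw [U.d_q, D.d_e, CupC.FSqD.val]
    have h7 := U.two (U.q i D.e)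
    have h8 := U.two (g.f D.c)
    calc _ = (U.q i D.e + U.q i D.e) + (g.f D.c + g.f D.c) +
          U.cup (i + 1 + 1) (g.f D.b) (g.f D.b) := by abel
      _ = _ := by rw [h7, h8, zero_add, zero_add]

/-- **The bridge.** Let `b` be a cocycle of degree `k + i` of `Y`, `f^* b = d e` and
`b ∪_i b = d c`. If the functional square `val = e ∪_{i-1} e + e ∪_i d e + f^* c` is not
cohomologous to `f^* y`, `y` a cocycle of `Y`, then
`Sqᵏ : H^{k+i}(Cyl f, X) → H^{2k+i}(Cyl f, X)` is not zero. -/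
theorem sqNe_of_FSqD (f : C(X, Y)) {k i m : ℕ}
    (D : CupC.FSqD (Cc.pullHom (singMap f)) i) (hb : Cc.IsDeg (k + i) (D.b : Cc (sing Y)))
    (he : Cc.IsDeg m (D.e : Cc (sing X))) (hm : m + 1 = k + i)
    (hD : ∀ y : Cc (sing Y), Cc.d y = 0 →
      ¬ (Cc.cupC (sing X)).Coh D.val (Cc.pull (singMap f) y)) :
    SqNe f k i := by
  obtain ⟨E, hEdeg, hE⟩ := exists_extension (singMap_inj (Cyl.top_injective f)) he
  obtain ⟨h1, h2, h3⟩ := cyl_sq (g := Cc.pullHom (singMap f)) (Cc.pullHom (singMap (Cyl.retr f)))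
    (Cc.pullHom (singMap (Cyl.top f))) (Cc.pullHom (singMap (Cyl.base f))) (fun _ => rfl)
    (fun u hu => coh_retr f hu) D (E := E) hE
  refine ⟨Cc.pull (singMap (Cyl.retr f)) (D.b : Cc (sing Y)) + Cc.d E, ?_, h1, h2, ?_⟩
  · refine Cc.IsDeg.add (hb.pull _) ?_
    have h4 := hEdeg.d
    rw [hm] at h4
    exact h4
  · rintro ⟨w, hw0, hw⟩
    obtain ⟨y, hy, hyc⟩ := h3 w hw0 hw
    exact hD y hy hyc

end Vale.Agent.P263.K
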