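import Vale.Agent.P263.TJ.Dstar
import Vale.Agent.P263.G2.SingSS

/-!
# P263: isomorphisms in relative mod 2 cohomology, elementwise; products with an interval

`RelIso f A B` : `f : (X, A) → (Y, B)` induces an isomorphism in relative cohomology (mixed-degree
function cochains). `Itv J` : `J` is an interval with disjoint parts `J0`, `J1`.
`RelIso.prod` : the product with a map of intervals. `relIso_RN` : the comparison
`X × (Δ¹)ⁿ → X × (sing ℝ)ⁿ`.
-/

namespace Vale.Agent.P263.K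

open Finset
open Vale.Agent.P263.S Vale.Agent.P263.E Vale.Agent.P263.TJ

variable {X Y Z X' J J' : SS}

theorem cc_self (u : Cc X) : u + u = 0 := by
  funext p x
  exact CharTwo.add_self_eq_zero _

/-- homotopies of pairs -/
theorem vn_htp {K : SS.Htp Y X} {A : Sb Y} {B : Sb X}
    (hK : ∀ {p : ℕ} (χ : Op p 1) (y : Y.obj p), A.mem y → B.mem (K.h p χ y)) {w : Cc X}
    (hw : Vn B w) : Vn A (htp K w) := by
  intro p y hy
  exact sum_eq_zero fun i _ => hw _ _ (hK _ _ (A.map_mem _ hy))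

/-- a homotopy of pairs between two maps: the pull-backs of a relative cocycle are cohomologous -/
theorem htp_pair {K : SS.Htp Y X} {A : Sb Y} {B : Sb X}
    (hK : ∀ {p : ℕ} (χ : Op p 1) (y : Y.obj p), A.mem y → B.mem (K.h p χ y)) {w : Cc X}
    (hw : Vn B w) (hd : Cc.d w = 0) :
    ∃ a : Cc Y, Vn A a ∧ Cc.d a = Cc.pull K.e1 w + Cc.pull K.e0 w := by
  refine ⟨htp K w, vn_htp hK hw, ?_⟩
  have h := htp_d K w
  rw [hd, htp_zero] at h
  have h2 : Cc.d (htp K w) + (Cc.pull K.e1 w + Cc.pull K.e0 w) = 0 := by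
    rw [← add_assoc]; exact h.symm
  rw [← add_zero (Cc.d (htp K w)), ← cc_self (Cc.pull K.e1 w + Cc.pull K.e0 w), ← add_assoc, h2,
    zero_add]

/-! ### restriction to a sub simplicial set, extended by zero -/

open Classical in
/-- the values on `B`, extended by zero -/
noncomputable def cut (B : Sb X) (m : Cc X) : Cc X := fun p x => if B.mem x then m p x else 0

theorem cut_of_mem {B : Sb X} (m : Cc X) {p : ℕ} {x : X.obj p} (h : B.mem x) :
    cut B m p x = m p x := if_pos h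

theorem cut_of_not {B : Sb X} (m : Cc X) {p : ℕ} {x : X.obj p} (h : ¬ B.mem x) :
    cut B m p x = 0 := if_neg h

theorem vn_cut {A B : Sb X} {m : Cc X} (h : Vn A m) : Vn A (cut B m) := fun p x hx => by
  unfold cut
  split_ifs
  · exact h p x hx
  · rfl

theorem vn_cut' {A B : Sb X} {m : Cc X} (h : ∀ {p : ℕ} (x : X.obj p), A.mem x → ¬ B.mem x) :
    Vn A (cut B m) := fun _ x hx => cut_of_not m (h x hx)

theorem co_cut {B : Sb X} (m : Cc X) {p : ℕ} {x : X.obj p} (h : B.mem x) (S : Finset ℕ) :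
    co (cut B m) x S = co m x S := by
  by_cases h0 : S.card = 0
  · rw [co, if_pos h0, co, if_pos h0]
  · rw [co_of_ne h0, co_of_ne h0]
    exact cut_of_mem m (B.map_mem _ h)

theorem d_cut {B : Sb X} (m : Cc X) {p : ℕ} {x : X.obj p} (h : B.mem x) :
    Cc.d (cut B m) p x = Cc.d m p x := by
  rw [Cc.d_def, Cc.d_def]
  exact dd_congr fun T _ => co_cut m h T

/-- the coboundary on a sub simplicial set only depends on the values there -/
theorem d_eq_of_mem {B : Sb X} {u v : Cc X}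
    (h : ∀ {p : ℕ} (x : X.obj p), B.mem x → u p x = v p x) {p : ℕ} {x : X.obj p}
    (hx : B.mem x) : Cc.d u p x = Cc.d v p x := by
  have h2 : cut B u = cut B v := by
    funext q y
    by_cases hy : B.mem y
    · rw [cut_of_mem u hy, cut_of_mem v hy, h y hy]
    · rw [cut_of_not u hy, cut_of_not v hy]
  rw [← d_cut u hx, ← d_cut v hx, h2]

theorem pull_cut (f : SS.Map X Y) (B : Sb Y) (m : Cc Y) :
    Cc.pull f (cut B m) = cut (B.comap f) (Cc.pull f m) := rfl

/-! ### relative isomorphisms -/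

/-- `f : (X, A) → (Y, B)` induces an isomorphism in relative cohomology -/
structure RelIso (f : SS.Map X Y) (A : Sb X) (B : Sb Y) : Prop where
  map : ∀ {p : ℕ} (x : X.obj p), A.mem x → B.mem (f.app x)
  inj : ∀ w : Cc Y, Vn B w → Cc.d w = 0 → (∃ a, Vn A a ∧ Cc.d a = Cc.pull f w) →
    ∃ b, Vn B b ∧ Cc.d b = w
  surj : ∀ z : Cc X, Vn A z → Cc.d z = 0 →
    ∃ w, Vn B w ∧ Cc.d w = 0 ∧ ∃ a, Vn A a ∧ Cc.d a = Cc.pull f w + z

theorem RelIso.vn {f : SS.Map X Y} {A : Sb X} {B : Sb Y} (h : RelIso f A B) {w : Cc Y}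
    (hw : Vn B w) : Vn A (Cc.pull f w) := fun p x hx => hw p _ (h.map x hx)

theorem RelIso.of_iso {f : SS.Map X Y} (g : SS.Map Y X) (hfg : f.comp g = SS.Map.id Y)
    (hgf : g.comp f = SS.Map.id X) {A : Sb X} {B : Sb Y}
    (h : ∀ {p : ℕ} (x : X.obj p), A.mem x ↔ B.mem (f.app x)) : RelIso f A B where
  map x hx := (h x).1 hx
  inj w _ _ := by
    rintro ⟨a, ha, hda⟩
    refine ⟨Cc.pull g a, fun p y hy => ha p _ ((h _).2 ?_), ?_⟩
    · have : (f.comp g).app y = y := by rw [hfg]; rfl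
      have h2 : f.app (g.app y) = y := this
      rw [h2]
      exact hy
    · rw [← pull_d, hda]
      show Cc.pull (f.comp g) w = w
      rw [hfg]
      rfl
  surj z hz hd := by
    refine ⟨Cc.pull g z, fun p y hy => hz p _ ((h _).2 ?_), ?_, 0, Vn.zero, ?_⟩
    · have : (f.comp g).app y = y := by rw [hfg]; rfl
      have h2 : f.app (g.app y) = y := this
      rw [h2]
      exact hy
    · rw [← pull_d, hd, pull_zero]
    · have : Cc.pull f (Cc.pull g z) = z := by
        show Cc.pull (g.comp f) z = z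
        rw [hgf]
        rfl
      rw [this, cc_self, d_zero]

theorem RelIso.comp {g : SS.Map Y Z} {f : SS.Map X Y} {A : Sb X} {B : Sb Y} {C : Sb Z}
    (hg : RelIso g B C) (hf : RelIso f A B) : RelIso (g.comp f) A C where
  map x hx := hg.map _ (hf.map x hx)
  inj w hw hd h := hg.inj w hw hd (hf.inj _ (hg.vn hw) (by rw [← pull_d, hd, pull_zero]) h)
  surj z hz hd := by
    obtain ⟨w, hw, hwd, a, ha, had⟩ := hf.surj z hz hd
    obtain ⟨v, hv, hvd, b, hb, hbd⟩ := hg.surj w hw hwd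
    refine ⟨v, hv, hvd, Cc.pull f b + a, (hf.vn hb).add ha, ?_⟩
    rw [d_add, ← pull_d, hbd, had, pull_add]
    show Cc.pull f (Cc.pull g v) + Cc.pull f w + (Cc.pull f w + z) = Cc.pull f (Cc.pull g v) + z
    rw [add_assoc, ← add_assoc (Cc.pull f w), cc_self, zero_add]

/-! ### intervals -/

/-- an interval with disjoint ends, contractible to each of them -/
structure Itv (J : SS) where
  /-- the part `0` -/
  J0 : Sb J
  /-- the part `1` -/
  J1 : Sb J
  disj : ∀ {p : ℕ} (x : J.obj p), J0.mem x → ¬ J1.mem x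
  /-- the contraction into `J0` -/
  H0 : SS.Htp J J
  H0_id : ∀ {p : ℕ} (x : J.obj p), H0.h p (c1 p) x = x
  H0_end : ∀ {p : ℕ} (x : J.obj p), J0.mem (H0.h p (c0 p) x)
  H0_mem : ∀ {p : ℕ} (χ : Op p 1) (x : J.obj p), J0.mem x → J0.mem (H0.h p χ x)
  /-- the base point of `J1` -/
  c : ∀ p : ℕ, J.obj p
  c_map : ∀ {p q : ℕ} (f : Op p q), J.map f (c q) = c p
  c_mem : ∀ p : ℕ, J1.mem (c p)
  /-- the contraction to `c` -/
  H1 : SS.Htp J J
  H1_id : ∀ {p : ℕ} (x : J.obj p), H1.h p (c0 p) x = x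
  H1_end : ∀ {p : ℕ} (x : J.obj p), H1.h p (c1 p) x = c p
  H1_mem : ∀ {p : ℕ} (χ : Op p 1) (x : J.obj p), J1.mem x → J1.mem (H1.h p χ x)

/-- `X × H` -/
def prodH (X : SS) (H : SS.Htp J J) : SS.Htp (X.prod J) (X.prod J) :=
  ⟨fun p χ z => (z.1, H.h p χ z.2), fun f χ z => Prod.ext rfl (H.nat f χ z.2)⟩

namespace Itv

variable (I : Itv J) (I' : Itv J')

/-- the slice `X × c` -/
def sl (X : SS) : SS.Map X (X.prod J) :=
  ⟨fun {p} x => (x, I.c p), fun f _ => Prod.ext rfl (I.c_map f).symm⟩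

/-- `A × J ∪ X × (J0 ∪ J1)` -/
def side (A : Sb X) : Sb (X.prod J) where
  mem z := A.mem z.1 ∨ I.J0.mem z.2 ∨ I.J1.mem z.2
  map_mem f _ h := h.imp (A.map_mem f) (Or.imp (I.J0.map_mem f) (I.J1.map_mem f))

theorem acyc (A : Sb X) {u : Cc (X.prod J)} (hA : Vn (A.comap (SS.fst X J)) u)
    (h0 : Vn (I.J0.comap (SS.snd X J)) u) (hd : Cc.d u = 0) :
    ∃ e : Cc (X.prod J), Vn (A.comap (SS.fst X J)) e ∧ Vn (I.J0.comap (SS.snd X J)) e ∧
      Cc.d e = u := by
  refine ⟨htp (prodH X I.H0) u, vn_htp (fun _ _ hy => hy) hA,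
    vn_htp (K := prodH X I.H0) (A := I.J0.comap (SS.snd X J)) (B := I.J0.comap (SS.snd X J))
      (fun χ _ hy => I.H0_mem χ _ hy) h0, ?_⟩
  have h := htp_d (prodH X I.H0) u
  have e1 : Cc.pull (prodH X I.H0).e1 u = u := by
    funext p z
    show u p (z.1, I.H0.h p (c1 p) z.2) = u p z
    rw [I.H0_id]
    rfl
  have e0 : Cc.pull (prodH X I.H0).e0 u = 0 := by
    funext p z
    exact h0 p _ (I.H0_end z.2)
  rw [hd, htp_zero, e1, e0, add_zero] at h
  rw [← add_zero (Cc.d _), ← cc_self u, ← add_assoc, ← h, zero_add]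

theorem near (A : Sb X) {e : Cc (X.prod J)} (hA : Vn (A.comap (SS.fst X J)) e)
    (h1 : Vn (I.J1.comap (SS.snd X J)) (Cc.d e)) :
    Vn A (Cc.pull (I.sl X) e) ∧ Cc.d (Cc.pull (I.sl X) e) = 0 ∧
      ∃ k : Cc (X.prod J), Vn (A.comap (SS.fst X J)) k ∧ ∀ {p : ℕ} (z : (X.prod J).obj p),
        I.J1.mem z.2 → e p z = Cc.pull (SS.fst X J) (Cc.pull (I.sl X) e) p z + Cc.d k p z := by
  refine ⟨fun p x hx => hA p _ hx, ?_, htp (prodH X I.H1) e, vn_htp (fun _ _ hy => hy) hA, ?_⟩
  · rw [← pull_d]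
    funext p x
    exact h1 p _ (I.c_mem p)
  · intro p z hz
    have h := congrFun (congrFun (htp_d (prodH X I.H1) e) p) z
    have e1 : Cc.pull (prodH X I.H1).e1 e = Cc.pull (SS.fst X J) (Cc.pull (I.sl X) e) := by
      funext p z
      show e p (z.1, I.H1.h p (c1 p) z.2) = e p (z.1, I.c p)
      rw [I.H1_end]
    have e0 : Cc.pull (prodH X I.H1).e0 e = e := by
      funext p z
      show e p (z.1, I.H1.h p (c0 p) z.2) = e p z
      rw [I.H1_id]
      rfl
    have hz' : htp (prodH X I.H1) (Cc.d e) p z = 0 :=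
      vn_htp (K := prodH X I.H1) (A := I.J1.comap (SS.snd X J)) (B := I.J1.comap (SS.snd X J))
        (fun χ y hy => I.H1_mem χ _ hy) h1 p z hz
    rw [hz', e1, e0] at h
    have h4 : ∀ a b c : ZMod 2, 0 = a + b + c → c = b + a := by decide
    exact h4 _ _ _ h

end Itv

/-- the product of two maps -/
def mprod (f : SS.Map X X') (φ : SS.Map J J') : SS.Map (X.prod J) (X'.prod J') :=
  ⟨fun z => (f.app z.1, φ.app z.2), fun g z => Prod.ext (f.nat g z.1) (φ.nat g z.2)⟩

/-- **The product of a relative isomorphism with a map of intervals.** -/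
theorem RelIso.prod {f : SS.Map X X'} {A : Sb X} {A' : Sb X'} (hf : RelIso f A A')
    {φ : SS.Map J J'} (I : Itv J) (I' : Itv J')
    (h0 : ∀ {p : ℕ} (x : J.obj p), I.J0.mem x → I'.J0.mem (φ.app x))
    (h1 : ∀ {p : ℕ} (x : J.obj p), I.J1.mem x → I'.J1.mem (φ.app x))
    (hc : ∀ p : ℕ, φ.app (I.c p) = I'.c p) :
    RelIso (mprod f φ) (I.side A) (I'.side A') where
  map z hz := hz.imp (hf.map _) (Or.imp (h0 _) (h1 _))
  inj w hw hd := by
    rintro ⟨a, ha, hda⟩
    obtain ⟨e, heA, he0, hde⟩ := I'.acyc A' (hw.mono fun x hx => Or.inl hx)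
      (hw.mono fun x hx => Or.inr (Or.inl hx)) hd
    obtain ⟨hyA, hyd, k, hkA, hk⟩ := I'.near A' heA
      (by rw [hde]; exact hw.mono fun x hx => Or.inr (Or.inr hx))
    obtain ⟨b, hbA, hb0, hdb⟩ := I.acyc A (u := Cc.pull (mprod f φ) e + a)
      (Vn.add (fun p z hz => heA p _ (hf.map _ hz)) (ha.mono fun x hx => Or.inl hx))
      (Vn.add (fun p z hz => he0 p _ (h0 _ hz)) (ha.mono fun x hx => Or.inr (Or.inl hx)))
      (by rw [d_add, ← pull_d, hde, hda, cc_self])
    obtain ⟨h', hh'A, hh'⟩ := hf.inj (Cc.pull (I'.sl X') e) hyA hyd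
      ⟨Cc.pull (I.sl X) b, fun p x hx => hbA p _ hx, by
        rw [← pull_d, hdb, pull_add]
        have e1 : Cc.pull (I.sl X) (Cc.pull (mprod f φ) e) = Cc.pull f (Cc.pull (I'.sl X') e) := by
          funext p x
          show e p (f.app x, φ.app (I.c p)) = e p (f.app x, I'.c p)
          rw [hc]
        have e2 : Cc.pull (I.sl X) a = 0 := by
          funext p x
          exact ha p _ (Or.inr (Or.inr (I.c_mem p)))
        rw [e1, e2, add_zero]⟩
    refine ⟨e + Cc.d (cut (I'.J1.comap (SS.snd X' J')) (Cc.pull (SS.fst X' J') h' + k)), ?_, ?_⟩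
    · rintro p z (hz | hz | hz)
      · exact (heA.add (vn_cut (Vn.add (hh'A.pull _) hkA)).d) p z hz
      · exact (he0.add (Vn.d (vn_cut' (A := I'.J0.comap (SS.snd X' J'))
          fun x hx hx' => I'.disj _ hx hx'))) p z hz
      · show e p z + Cc.d _ p z = 0
        rw [d_cut (B := I'.J1.comap (SS.snd X' J')) _ hz, d_add, ← pull_d, hh', hk z hz]
        exact CharTwo.add_self_eq_zero _
    · rw [d_add, d_d, add_zero, hde]
  surj z hz hd := by
    obtain ⟨e, heA, he0, hde⟩ := I.acyc A (hz.mono fun x hx => Or.inl hx)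
      (hz.mono fun x hx => Or.inr (Or.inl hx)) hd
    obtain ⟨hyA, hyd, k, hkA, hk⟩ := I.near A heA
      (by rw [hde]; exact hz.mono fun x hx => Or.inr (Or.inr hx))
    obtain ⟨y, hy, hdy, h, hh, hdh⟩ := hf.surj _ hyA hyd
    refine ⟨Cc.d (cut (I'.J1.comap (SS.snd X' J')) (Cc.pull (SS.fst X' J') y)), ?_, d_d _,
      Cc.pull (mprod f φ) (cut (I'.J1.comap (SS.snd X' J')) (Cc.pull (SS.fst X' J') y)) + e +
        Cc.d (cut (I.J1.comap (SS.snd X J)) (Cc.pull (SS.fst X J) h + k)), ?_, ?_⟩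
    · rintro p x (hx | hx | hx)
      · exact (Vn.d (vn_cut (hy.pull _))) p x hx
      · exact (Vn.d (vn_cut' (A := I'.J0.comap (SS.snd X' J'))
          fun x hx hx' => I'.disj _ hx hx')) p x hx
      · rw [d_cut (B := I'.J1.comap (SS.snd X' J')) _ hx, ← pull_d, hdy]
        rfl
    · rintro p x (hx | hx | hx)
      · refine Vn.add (Vn.add (A := A.comap (SS.fst X J)) (fun p z hz => ?_) heA)
          (vn_cut (Vn.add (hh.pull _) hkA)).d p x hx
        exact vn_cut (hy.pull _) p _ (hf.map _ hz)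
      · refine Vn.add (Vn.add (A := I.J0.comap (SS.snd X J)) (fun p z hz => ?_) he0)
          (Vn.d (vn_cut' (A := I.J0.comap (SS.snd X J)) fun x hx hx' => I.disj _ hx hx')) p x hx
        exact cut_of_not _ (fun hx' => I'.disj _ (h0 _ hz) hx')
      · show Cc.pull (mprod f φ) (cut _ _) p x + e p x + Cc.d _ p x = 0
        rw [d_cut (B := I.J1.comap (SS.snd X J)) _ hx, d_add, ← pull_d, hdh, hk x hx]
        have e1 : Cc.pull (mprod f φ) (cut (I'.J1.comap (SS.snd X' J'))
            (Cc.pull (SS.fst X' J') y)) p x = Cc.pull (SS.fst X J) (Cc.pull f y) p x :=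
          cut_of_mem (B := I'.J1.comap (SS.snd X' J')) _ (h1 _ hx)
        rw [e1, pull_add]
        show (Cc.pull (SS.fst X J) (Cc.pull f y) p x + (Cc.pull (SS.fst X J)
          (Cc.pull (I.sl X) e) p x + Cc.d k p x)) + (Cc.pull (SS.fst X J) (Cc.pull f y) p x +
            Cc.pull (SS.fst X J) (Cc.pull (I.sl X) e) p x + Cc.d k p x) = 0
        generalize Cc.pull (SS.fst X J) (Cc.pull f y) p x = a1
        generalize Cc.pull (SS.fst X J) (Cc.pull (I.sl X) e) p x = a2
        generalize Cc.d k p x = a3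
        revert a1 a2 a3
        decide
    · rw [d_add, d_add, d_d, add_zero, hde, pull_d]

/-! ### formal rules -/

/-- two out of three -/
theorem RelIso.of_comp {g : SS.Map Y Z} {f : SS.Map X Y} {A : Sb X} {B : Sb Y} {C : Sb Z}
    (hg : RelIso g B C) (h : RelIso (g.comp f) A C)
    (hf : ∀ {p : ℕ} (x : X.obj p), A.mem x → B.mem (f.app x)) : RelIso f A B where
  map := hf
  inj w hw hd := by
    rintro ⟨a, ha, hda⟩
    obtain ⟨v, hv, hvd, b, hb, hbd⟩ := hg.surj w hw hd
    obtain ⟨c, hc, hcd⟩ := h.inj v hv hvd ⟨Cc.pull f b + a,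
      Vn.add (fun p x hx => hb p _ (hf x hx)) ha, by
        rw [d_add, ← pull_d, hbd, hda, pull_add, add_assoc, cc_self, add_zero]
        rfl⟩
    refine ⟨Cc.pull g c + b, (hg.vn hc).add hb, ?_⟩
    rw [d_add, ← pull_d, hcd, hbd, ← add_assoc, cc_self, zero_add]
  surj z hz hd := by
    obtain ⟨w, hw, hwd, a, ha, had⟩ := h.surj z hz hd
    exact ⟨Cc.pull g w, hg.vn hw, by rw [← pull_d, hwd, pull_zero], a, ha, had⟩

/-- homotopy invariance -/
theorem RelIso.of_htp {K : SS.Htp X Y} {A : Sb X} {B : Sb Y} (h : RelIso K.e1 A B)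
    (hK : ∀ {p : ℕ} (χ : Op p 1) (x : X.obj p), A.mem x → B.mem (K.h p χ x)) :
    RelIso K.e0 A B where
  map x hx := hK _ x hx
  inj w hw hd := by
    rintro ⟨a, ha, hda⟩
    obtain ⟨b, hb, hbd⟩ := htp_pair hK hw hd
    refine h.inj w hw hd ⟨b + a, hb.add ha, ?_⟩
    rw [d_add, hbd, hda, add_assoc, cc_self, add_zero]
  surj z hz hd := by
    obtain ⟨w, hw, hwd, a, ha, had⟩ := h.surj z hz hd
    obtain ⟨b, hb, hbd⟩ := htp_pair hK hw hwd
    refine ⟨w, hw, hwd, b + a, hb.add ha, ?_⟩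
    rw [d_add, hbd, had, add_comm (Cc.pull K.e1 w), add_assoc, ← add_assoc (Cc.pull K.e1 w),
      cc_self, zero_add]

/-- enlarging the subspace by an acyclic part -/
theorem RelIso.of_sub {A B : Sb X} (hAB : ∀ {p : ℕ} (x : X.obj p), A.mem x → B.mem x)
    (h : ∀ u : Cc X, Vn A u → Vn B (Cc.d u) →
      ∃ v : Cc X, Vn A v ∧ ∀ {p : ℕ} (x : X.obj p), B.mem x → Cc.d v p x = u p x) :
    RelIso (SS.Map.id X) A B where
  map x hx := hAB x hx
  inj w hw _ := by
    rintro ⟨a, ha, hda⟩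
    have hda' : Cc.d a = w := hda
    obtain ⟨v, hv, hvd⟩ := h a ha (by rw [hda']; exact hw)
    refine ⟨a + Cc.d (cut B v), fun p x hx => ?_, by rw [d_add, d_d, add_zero, hda']⟩
    show a p x + Cc.d (cut B v) p x = 0
    rw [d_cut v hx, hvd x hx]
    exact CharTwo.add_self_eq_zero _
  surj z hz hd := by
    obtain ⟨v, hv, hvd⟩ := h z hz (by rw [hd]; exact Vn.zero)
    refine ⟨z + Cc.d (cut B v), fun p x hx => ?_, by rw [d_add, d_d, add_zero, hd],
      cut B v, vn_cut hv, ?_⟩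
    · show z p x + Cc.d (cut B v) p x = 0
      rw [d_cut v hx, hvd x hx]
      exact CharTwo.add_self_eq_zero _
    · show Cc.d (cut B v) = z + Cc.d (cut B v) + z
      rw [add_comm z, add_assoc, cc_self, add_zero]

/-! ### extension by zero along an injective map -/

open Classical in
/-- extension by zero along `f` -/
noncomputable def ext (f : SS.Map X Y) (u : Cc X) : Cc Y := fun p y =>
  if h : ∃ x : X.obj p, f.app x = y then u p h.choose else 0

theorem ext_app {f : SS.Map X Y} (hf : f.Inj) (u : Cc X) {p : ℕ} (x : X.obj p) :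
    ext f u p (f.app x) = u p x := by
  have h : ∃ x' : X.obj p, f.app x' = f.app x := ⟨x, rfl⟩
  rw [ext, dif_pos h, hf p h.choose_spec]

theorem pull_ext {f : SS.Map X Y} (hf : f.Inj) (u : Cc X) : Cc.pull f (ext f u) = u := by
  funext p x
  exact ext_app hf u x

theorem vn_ext {f : SS.Map X Y} {u : Cc X} {A : Sb X} {B : Sb Y} (hu : Vn A u)
    (h : ∀ {p : ℕ} (x : X.obj p), B.mem (f.app x) → A.mem x) : Vn B (ext f u) := by
  intro p y hy
  unfold ext
  split_ifs with hx
  · exact hu p _ (h _ (by rw [hx.choose_spec]; exact hy))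
  · rfl

theorem d_ext {f : SS.Map X Y} (hf : f.Inj) (u : Cc X) {p : ℕ} (x : X.obj p) :
    Cc.d (ext f u) p (f.app x) = Cc.d u p x := by
  have h := congrFun (congrFun (pull_d f (ext f u)) p) x
  rw [pull_ext hf] at h
  exact h

/-- **excision** -/
theorem RelIso.excision {f : SS.Map X Y} (hf : f.Inj) {B : Sb Y}
    (hs : ∀ u : Cc Y, Cc.d u = 0 → Vn B u → Cc.pull f u = 0 →
      ∃ v : Cc Y, Cc.d v = u ∧ Vn B v ∧ Cc.pull f v = 0) :
    RelIso f (B.comap f) B where
  map x hx := hx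
  inj w hw hd := by
    rintro ⟨a, ha, hda⟩
    obtain ⟨v, hv, hvB, hvf⟩ := hs (w + Cc.d (ext f a)) (by rw [d_add, hd, d_d, add_zero])
      (hw.add (vn_ext ha fun x hx => hx).d)
      (by rw [pull_add, pull_d, pull_ext hf, hda, cc_self])
    refine ⟨ext f a + v, (vn_ext ha fun x hx => hx).add hvB, ?_⟩
    rw [d_add, hv, add_comm w, ← add_assoc, cc_self, zero_add]
  surj z hz hd := by
    obtain ⟨v, hv, hvB, hvf⟩ := hs (Cc.d (ext f z)) (d_d _) (vn_ext hz fun x hx => hx).d
      (by rw [pull_d, pull_ext hf, hd])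
    refine ⟨ext f z + v, (vn_ext hz fun x hx => hx).add hvB, by rw [d_add, hv, cc_self], 0,
      Vn.zero, ?_⟩
    rw [pull_add, pull_ext hf, hvf, add_zero, cc_self, d_zero]

/-! ### the cube and `(sing ℝ)ⁿ` -/

open Vale.Agent.P263.G2

/-- the maximum of two maps to the interval -/
def mxO {p : ℕ} (τ χ : Op p 1) : Op p 1 := τ ⊔ χ

theorem mxO_c0 {p : ℕ} (τ : Op p 1) : mxO τ (c0 p) = τ := by
  apply OrderHom.ext
  funext x
  show τ x ⊔ c0 p x = τ x
  rw [c0_val]
  exact sup_of_le_left (Fin.zero_le _)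

theorem mxO_c1 {p : ℕ} (τ : Op p 1) : mxO τ (c1 p) = c1 p := by
  apply OrderHom.ext
  funext x
  show τ x ⊔ c1 p x = c1 p x
  rw [c1_val]
  exact sup_of_le_right (Fin.le_last _)

theorem c1_mxO {p : ℕ} (χ : Op p 1) : mxO (c1 p) χ = c1 p := by
  apply OrderHom.ext
  funext x
  show c1 p x ⊔ χ x = c1 p x
  rw [c1_val]
  exact sup_of_le_left (Fin.le_last _)

/-- the interval `Δ¹` -/
def itvD : Itv D1 where
  J0 := ⟨fun {p} τ => τ = c0 p, fun f x h => by rw [h]; exact c0_comp f⟩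
  J1 := ⟨fun {p} τ => τ = c1 p, fun f x h => by rw [h]; exact c1_comp f⟩
  disj {p} x h h' := by
    have h2 : c0 p 0 = c1 p 0 := by rw [← h, ← h']
    rw [c0_val, c1_val] at h2
    exact absurd h2 (by decide)
  H0 := ⟨fun _ χ τ => mn τ χ, fun _ _ _ => rfl⟩
  H0_id τ := mn_thD_zero τ
  H0_end τ := mn_thD_top τ
  H0_mem χ τ h := by
    show mn τ χ = _
    rw [h]
    exact thD_top_mn χ
  c p := c1 p
  c_map f := c1_comp f
  c_mem _ := rfl
  H1 := ⟨fun _ χ τ => mxO τ χ, fun _ _ _ => rfl⟩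
  H1_id τ := mxO_c0 τ
  H1_end τ := mxO_c1 τ
  H1_mem χ τ h := by
    show mxO τ χ = _
    rw [h]
    exact c1_mxO χ

/-- straight line homotopy to `a` -/
noncomputable def lineC (a : ℝ) : C(ℝ × unitInterval, ℝ) :=
  ⟨fun z => (1 - (z.2 : ℝ)) * z.1 + (z.2 : ℝ) * a, by fun_prop⟩

/-- straight line homotopy from `a` -/
noncomputable def lineC' (a : ℝ) : C(ℝ × unitInterval, ℝ) :=
  ⟨fun z => (z.2 : ℝ) * z.1 + (1 - (z.2 : ℝ)) * a, by fun_prop⟩

/-- the interval `sing ℝ` -/
noncomputable def itvR : Itv (sing ℝ) where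
  J0 := ⟨fun {p} ρ => ∀ t : Dl p, toC ρ t < 0, fun f x h t => h (dmap f t)⟩
  J1 := ⟨fun {p} ρ => ∀ t : Dl p, 0 < toC ρ t, fun f x h t => h (dmap f t)⟩
  disj {p} x h h' := by
    have t : Dl p := stdSimplex.vertex (0 : Fin (p + 1))
    exact lt_asymm (h t) (h' t)
  H0 := singHtp (lineC' (-1))
  H0_id {p} ρ := by
    apply ContinuousMap.ext
    intro t
    show ((chiI (c1 p) t : unitInterval) : ℝ) * toC ρ t +
      (1 - ((chiI (c1 p) t : unitInterval) : ℝ)) * (-1) = toC ρ t
    rw [chiI_c1]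
    simp
  H0_end {p} ρ t := by
    show ((chiI (c0 p) t : unitInterval) : ℝ) * toC ρ t +
      (1 - ((chiI (c0 p) t : unitInterval) : ℝ)) * (-1) < 0
    rw [chiI_c0]
    simp
  H0_mem {p} χ ρ h t := by
    show ((chiI χ t : unitInterval) : ℝ) * toC ρ t +
      (1 - ((chiI χ t : unitInterval) : ℝ)) * (-1) < 0
    have h1 := (chiI χ t).2.1
    have h2 := (chiI χ t).2.2
    have h3 := h t
    rcases h1.eq_or_lt with h4 | h4
    · rw [← h4]; norm_num
    · nlinarith
  c p := ofC (ContinuousMap.const _ 1)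
  c_map _ := rfl
  c_mem p t := one_pos
  H1 := singHtp (lineC 1)
  H1_id {p} ρ := by
    apply ContinuousMap.ext
    intro t
    show (1 - ((chiI (c0 p) t : unitInterval) : ℝ)) * toC ρ t +
      ((chiI (c0 p) t : unitInterval) : ℝ) * 1 = toC ρ t
    rw [chiI_c0]
    simp
  H1_end {p} ρ := by
    apply ContinuousMap.ext
    intro t
    show (1 - ((chiI (c1 p) t : unitInterval) : ℝ)) * toC ρ t +
      ((chiI (c1 p) t : unitInterval) : ℝ) * 1 = 1
    rw [chiI_c1]
    simp
  H1_mem {p} χ ρ h t := by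
    show 0 < (1 - ((chiI χ t : unitInterval) : ℝ)) * toC ρ t +
      ((chiI χ t : unitInterval) : ℝ) * 1
    have h1 := (chiI χ t).2.1
    have h2 := (chiI χ t).2.2
    have h3 := h t
    rcases h1.eq_or_lt with h4 | h4
    · rw [← h4]; simpa using h3
    · nlinarith

/-- a continuous function on the unit interval with values in the line -/
noncomputable def toR (g : C(unitInterval, ℝ)) : SS.Map D1 (sing ℝ) :=
  ⟨fun τ => ofC (g.comp (chiI τ)), fun f τ => by
    apply ContinuousMap.ext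
    intro t
    exact congrArg g (DFunLike.congr_fun (chiI_comp τ f) t)⟩

/-- `(sing ℝ)ⁿ` -/
noncomputable def RN (n : ℕ) : SS where
  obj p := Fin n → C(Dl p, ℝ)
  map f ρ i := (ρ i).comp (dmap f)
  map_id ρ := by funext i; rw [dmap_id, ContinuousMap.comp_id]
  map_comp f g ρ := by funext i; rw [dmap_comp, ContinuousMap.comp_assoc]

/-- some coordinate has constant sign -/
noncomputable def BN (n : ℕ) : Sb (RN n) where
  mem {p} ρ := ∃ i, (∀ t : Dl p, (show Fin n → C(Dl p, ℝ) from ρ) i t < 0) ∨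
    (∀ t : Dl p, 0 < (show Fin n → C(Dl p, ℝ) from ρ) i t)
  map_mem f _ h := by
    obtain ⟨i, h⟩ := h
    exact ⟨i, h.imp (fun h t => h (dmap f t)) fun h t => h (dmap f t)⟩

/-- the comparison of the cube with `(sing ℝ)ⁿ` -/
noncomputable def kN (g : C(unitInterval, ℝ)) (n : ℕ) : SS.Map (SN n) (RN n) :=
  ⟨fun τ i => g.comp (chiI (τ i)), fun f τ => by
    funext i
    apply ContinuousMap.ext
    intro t
    exact congrArg g (DFunLike.congr_fun (chiI_comp (τ i) f) t)⟩

/-- splitting off a coordinate -/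
noncomputable def unconsR (X : SS) (n : ℕ) :
    SS.Map (X.prod (RN (n + 1))) ((X.prod (RN n)).prod (sing ℝ)) where
  app x := ((x.1, fun i => x.2 i.succ), x.2 0)
  nat _ _ := rfl

/-- adding a coordinate -/
noncomputable def consR (X : SS) (n : ℕ) :
    SS.Map ((X.prod (RN n)).prod (sing ℝ)) (X.prod (RN (n + 1))) where
  app {p} x := (x.1.1, (Fin.cons x.2 x.1.2 : Fin (n + 1) → C(Dl p, ℝ)))
  nat f x := by
    refine Prod.ext rfl ?_
    funext i
    refine Fin.cases ?_ (fun j => ?_) i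
    · rfl
    · rfl

theorem consR_uncons (X : SS) (n : ℕ) : (consR X n).comp (unconsR X n) = SS.Map.id _ := by
  apply SS.Map.ext
  rintro p ⟨x, τ⟩
  refine Prod.ext rfl ?_
  funext i
  refine Fin.cases ?_ (fun j => ?_) i
  · rfl
  · rfl

/-- the comparison `X × (Δ¹)ⁿ → X × (sing ℝ)ⁿ` -/
noncomputable def kX (g : C(unitInterval, ℝ)) (X : SS) (n : ℕ) :
    SS.Map (X.prod (SN n)) (X.prod (RN n)) :=
  ⟨fun z => (z.1, (kN g n).app z.2), fun f z => Prod.ext rfl ((kN g n).nat f z.2)⟩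

/-- `X × (sing ℝ)⁰ → X × (Δ¹)⁰` -/
noncomputable def nilR (X : SS) : SS.Map (X.prod (RN 0)) (X.prod (SN 0)) where
  app {p} z := (z.1, (fun i => i.elim0 : Fin 0 → Op p 1))
  nat f z := by
    refine Prod.ext rfl ?_
    funext i
    exact i.elim0

/-- **The comparison is a relative isomorphism.** -/
theorem relIso_kX (g : C(unitInterval, ℝ)) (h0 : g 0 < 0) (h1 : g 1 = 1) (X : SS) (n : ℕ) :
    RelIso (kX g X n) (bdX X n) ((BN n).comap (SS.snd X (RN n))) := by
  induction n with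
  | zero =>
    refine RelIso.of_iso (nilR X) ?_ ?_ ?_
    · apply SS.Map.ext
      rintro p ⟨x, ρ⟩
      refine Prod.ext rfl ?_
      funext i
      exact i.elim0
    · apply SS.Map.ext
      rintro p ⟨x, ρ⟩
      refine Prod.ext rfl ?_
      funext i
      exact i.elim0
    · intro p x
      constructor
      · rintro ⟨i, _⟩
        exact i.elim0
      · rintro ⟨i, _⟩
        exact i.elim0
  | succ n ih =>
    have e : kX g X (n + 1) = (consR X n).comp ((mprod (kX g X n) (toR g)).comp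
        (unconsM X n)) := by
      apply SS.Map.ext
      rintro p ⟨x, τ⟩
      refine Prod.ext rfl ?_
      funext i
      refine Fin.cases ?_ (fun j => ?_) i
      · rfl
      · rfl
    rw [e]
    refine RelIso.comp (B := itvR.side ((BN n).comap (SS.snd X (RN n)))) ?_
      (RelIso.comp (B := itvD.side (bdX X n)) ?_ ?_)
    · refine RelIso.of_iso (unconsR X n) (consR_uncons X n) ?_ ?_
      · rfl
      · rintro p ⟨⟨x, ρ⟩, σ⟩
        constructor
        · rintro (⟨i, h⟩ | h | h)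
          · exact ⟨i.succ, h⟩
          · exact ⟨0, Or.inl h⟩
          · exact ⟨0, Or.inr h⟩
        · rintro ⟨i, h⟩
          revert h
          refine Fin.cases (fun h => ?_) (fun j h => ?_) i
          · exact Or.inr h
          · exact Or.inl ⟨j, h⟩
    · refine RelIso.prod ih itvD itvR ?_ ?_ ?_
      · intro p x hx t
        show g (chiI x t) < 0
        rw [show x = c0 p from hx, chiI_c0]
        exact h0
      · intro p x hx t
        show 0 < g (chiI x t)
        rw [show x = c1 p from hx, chiI_c1, h1]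
        exact one_pos
      · intro p
        apply ContinuousMap.ext
        intro t
        show g (chiI (c1 p) t) = 1
        rw [chiI_c1, h1]
    · refine RelIso.of_iso (consM X n) rfl (consM_uncons X n) ?_
      rintro p ⟨x, τ⟩
      constructor
      · rintro ⟨i, h⟩
        revert h
        refine Fin.cases (fun h => ?_) (fun j h => ?_) i
        · exact Or.inr h
        · exact Or.inl ⟨j, h⟩
      · rintro (⟨i, h⟩ | h | h)
        · exact ⟨i.succ, h⟩
        · exact ⟨0, Or.inl h⟩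
        · exact ⟨0, Or.inr h⟩

end Vale.Agent.P263.K
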