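import Vale.Agent.P263.TJ.TSet
import Vale.Agent.P263.TJ.Dstar
import Vale.Agent.P263.TJ.SCup

/-!
# P263, block K: cocycles of an unreduced suspension

`exists_glue` : a cocycle on the simplices of the members of an open cover `Y = U ∪ V`, given as
`0` on `V` and as `d ā` on `U`, extends to `Y`.
`suspB` : let `Q : X × [0, 1] → Y` send `X × 0`, `X × 1` to the complements of `U`, `V`, and let
`ρ : U ∩ V → X` satisfy `ρ (Q (x, s)) = x`. Then every cocycle `y₀` of `X` is, up to a coboundary,
the integral over `[0, 1]` of `Q^* b` for a cocycle `b` of `Y`.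
-/

open Finset

namespace Vale.Agent.P263.K

open Vale.Agent.P263.S Vale.Agent.P263.E Vale.Agent.P263.G2 Vale.Agent.P263.TJ

variable {X Y Z : Type} [TopologicalSpace X] [TopologicalSpace Y] [TopologicalSpace Z]

/-- the simplices which lie in `U` or in `V` -/
def SmUV (U V : Set Y) (n : ℕ) : Set ((TSet.sing Y).obj n) :=
  {σ | (∀ t, toC σ t ∈ U) ∨ ∀ t, toC σ t ∈ V}

theorem loc_SmUV {U V : Set Y} (hU : IsOpen U) (hV : IsOpen V) (hUV : ∀ y, y ∈ U ∨ y ∈ V) :
    (TSet.sing Y).Loc (SmUV U V) where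
  pull := by
    rintro p q f x (h | h)
    · exact Or.inl fun t => h (f t)
    · exact Or.inr fun t => h (f t)
  nhd := by
    intro n x t
    rcases hUV (toC x t) with h | h
    · exact ⟨toC x ⁻¹' U, hU.preimage (toC x).continuous, h, fun f hf => Or.inl hf⟩
    · exact ⟨toC x ⁻¹' V, hV.preimage (toC x).continuous, h, fun f hf => Or.inr hf⟩

/-- the inclusion of a subspace -/
def inc (U : Set Y) : C(U, Y) := ⟨Subtype.val, continuous_subtype_val⟩

/-- a simplex in `U` -/
theorem exists_inc {U : Set Y} {p : ℕ} (σ : (sing Y).obj p) (h : ∀ t, toC σ t ∈ U) :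
    ∃ τ : (sing U).obj p, (singMap (inc U)).app τ = σ :=
  ⟨ofC ⟨fun t => ⟨toC σ t, h t⟩, (toC σ).continuous.subtype_mk _⟩, rfl⟩

/-- a cochain which is a cocycle on small simplices can be changed outside the small simplices so
that it is a cocycle -/
theorem exists_glue {U V : Set Y} (hU : IsOpen U) (hV : IsOpen V) (hUV : ∀ y, y ∈ U ∨ y ∈ V)
    (b : Cc (sing Y)) (hbU : Cc.d (Cc.pull (singMap (inc U)) b) = 0)
    (hbV : Cc.d (Cc.pull (singMap (inc V)) b) = 0) :
    ∃ b' : Cc (sing Y), Cc.d b' = 0 ∧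
      Cc.pull (singMap (inc U)) b' = Cc.pull (singMap (inc U)) b ∧
      Cc.pull (singMap (inc V)) b' = Cc.pull (singMap (inc V)) b := by
  rw [← pull_d] at hbU hbV
  obtain ⟨v, hv, hv0⟩ : ∃ v : Cc (sing Y), Cc.d v = Cc.d b ∧ ∀ p, ∀ σ ∈ SmUV U V p, v p σ = 0 :=
    TSet.exists_small_cochain (X := TSet.sing Y) (loc_SmUV hU hV hUV)
    (Cc.d (X := sing Y) b) (d_d b) (by
      rintro p σ (h | h)
      · obtain ⟨τ, rfl⟩ := exists_inc (U := U) σ h
        exact congrFun (congrFun hbU p) τ
      · obtain ⟨τ, rfl⟩ := exists_inc (U := V) σ h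
        exact congrFun (congrFun hbV p) τ)
  refine ⟨b + v, ?_, ?_, ?_⟩
  · rw [d_add, hv]
    exact (Cc.cupC (sing Y)).two _
  · funext p τ
    show b p _ + v p _ = b p _
    have h1 : v p ((singMap (inc U)).app τ) = 0 := hv0 p _ (Or.inl fun t => (toC τ t).2)
    rw [h1, add_zero]
  · funext p τ
    show b p _ + v p _ = b p _
    have h1 : v p ((singMap (inc V)).app τ) = 0 := hv0 p _ (Or.inr fun t => (toC τ t).2)
    rw [h1, add_zero]

/-- a cocycle which vanishes on small simplices is the coboundary of such a cochain -/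
theorem exists_null {U V : Set Y} (hU : IsOpen U) (hV : IsOpen V) (hUV : ∀ y, y ∈ U ∨ y ∈ V)
    (u : Cc (sing Y)) (hd : Cc.d u = 0) (huU : Cc.pull (singMap (inc U)) u = 0)
    (huV : Cc.pull (singMap (inc V)) u = 0) :
    ∃ v : Cc (sing Y), Cc.d v = u ∧ Cc.pull (singMap (inc U)) v = 0 ∧
      Cc.pull (singMap (inc V)) v = 0 := by
  obtain ⟨v, hv, hv0⟩ := TSet.exists_small_cochain (X := TSet.sing Y) (loc_SmUV hU hV hUV)
    u hd (by
      rintro p σ (h | h)
      · obtain ⟨τ, rfl⟩ := exists_inc (U := U) σ h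
        exact congrFun (congrFun huU p) τ
      · obtain ⟨τ, rfl⟩ := exists_inc (U := V) σ h
        exact congrFun (congrFun huV p) τ)
  refine ⟨v, hv, ?_, ?_⟩
  · funext p τ
    exact hv0 p _ (Or.inl fun t => (toC τ t).2)
  · funext p τ
    exact hv0 p _ (Or.inr fun t => (toC τ t).2)

/-- the product of the singular simplicial set with the simplicial interval, in the singular
simplicial set of the product with the interval -/
noncomputable def prI (X : Type) [TopologicalSpace X] :
    SS.Map ((sing X).prod D1) (sing (X × unitInterval)) :=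
  ⟨fun {p} z => ofC ((toC z.1).prodMk (chiI (p := p) z.2)), fun f z => by
    apply ContinuousMap.ext
    intro t
    exact Prod.ext rfl (congrArg (fun g : C(Dl _, unitInterval) => g t) (chiI_comp z.2 f))⟩

/-- the end `0` of the cylinder -/
def at0 (X : Type) [TopologicalSpace X] : C(X, X × unitInterval) :=
  ⟨fun x => (x, 0), continuous_id.prodMk continuous_const⟩

/-- the end `1` of the cylinder -/
def at1 (X : Type) [TopologicalSpace X] : C(X, X × unitInterval) :=
  ⟨fun x => (x, 1), continuous_id.prodMk continuous_const⟩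

theorem prI_end0 : (prI X).comp (endP0 (sing X)) = singMap (at0 X) := by
  apply SS.Map.ext
  intro p σ
  apply ContinuousMap.ext
  intro t
  exact Prod.ext rfl (chiI_c0 t)

theorem prI_end1 : (prI X).comp (endP1 (sing X)) = singMap (at1 X) := by
  apply SS.Map.ext
  intro p σ
  apply ContinuousMap.ext
  intro t
  exact Prod.ext rfl (chiI_c1 t)

/-- integration over the interval of a singular cochain of `X × [0, 1]` -/
noncomputable def DI (w : Cc (sing (X × unitInterval))) : Cc (sing X) := Dst (Cc.pull (prI X) w)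

theorem DI_add (w w' : Cc (sing (X × unitInterval))) : DI (w + w') = DI w + DI w' := Dst_add _ _

theorem DI_d (w : Cc (sing (X × unitInterval))) :
    DI (Cc.d w) = Cc.d (DI w) + Cc.pull (singMap (at1 X)) w + Cc.pull (singMap (at0 X)) w := by
  rw [DI, pull_d, Dst_d, ← prI_end0, ← prI_end1]
  rfl

/-- the product of a map with the interval -/
def timesI (f : C(X, Z)) : C(X × unitInterval, Z × unitInterval) :=
  ⟨fun z => (f z.1, z.2), (f.continuous.comp continuous_fst).prodMk continuous_snd⟩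

theorem DI_pull (f : C(X, Z)) (w : Cc (sing (Z × unitInterval))) :
    DI (Cc.pull (singMap (timesI f)) w) = Cc.pull (singMap f) (DI w) := by
  rw [DI, DI, ← Dst_pull]
  rfl

theorem isDeg_DI {n : ℕ} {w : Cc (sing (X × unitInterval))} (hw : Cc.IsDeg (n + 1) w) :
    Cc.IsDeg n (DI w) := by
  intro p hp x
  exact congrFun (Dst_degree (w := Cc.pull (prI X) w) (p := p)
    (funext fun z => hw (p + 1) (by omega) _)) x

/-- **Cocycles of the unreduced suspension.** -/
theorem suspB {U V : Set Y} (hU : IsOpen U) (hV : IsOpen V) (hUV : ∀ y, y ∈ U ∨ y ∈ V)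
    (Q : C(X × unitInterval, Y)) (hQU : ∀ x s, Q (x, s) ∈ U ↔ s ≠ 0)
    (hQV : ∀ x s, Q (x, s) ∈ V ↔ s ≠ 1) (ρ : Y → X) (hρ : ContinuousOn ρ (U ∩ V))
    (hρQ : ∀ x s, Q (x, s) ∈ U ∩ V → ρ (Q (x, s)) = x) {m : ℕ}
    {y : Cc (sing X)} (hy : Cc.IsDeg m y) (hdy : Cc.d y = 0) :
    ∃ b : Cc (sing Y), Cc.IsDeg (m + 1) b ∧ Cc.d b = 0 ∧
      (∀ (S : Type) [TopologicalSpace S] (f : C(S, Y)), (∀ s s', f s = f s') →
        Cc.pull (singMap f) b = 0) ∧
      ∃ a : Cc (sing X), DI (Cc.pull (singMap Q) b) = y + Cc.d a := by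
  classical
  -- the cochain `ρ^* y`, extended by zero
  let ρσ : ∀ {p : ℕ} (σ : (sing Y).obj p), (∀ t, toC σ t ∈ U ∩ V) → (sing X).obj p :=
    fun σ h => ofC ⟨fun t => ρ (toC σ t), hρ.comp_continuous (toC σ).continuous h⟩
  let A : Cc (sing Y) := fun p σ => if h : ∀ t, toC σ t ∈ U ∩ V then y p (ρσ σ h) else 0
  have hAdeg : Cc.IsDeg m A := by
    intro p hp σ
    show (if h : ∀ t, toC σ t ∈ U ∩ V then y p (ρσ σ h) else 0) = 0
    split_ifs with h
    · exact hy p hp _
    · rfl
  have hA1 : ∀ {p : ℕ} (σ : (sing Y).obj p) (h : ∀ t, toC σ t ∈ U ∩ V),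
      A p σ = y p (ρσ σ h) := fun σ h => dif_pos h
  have hA0 : ∀ {p : ℕ} (σ : (sing Y).obj p), (¬ ∀ t, toC σ t ∈ U ∩ V) → A p σ = 0 :=
    fun σ h => dif_neg h
  -- `d A = 0` on simplices in `U ∩ V`
  have hdA : Cc.d (Cc.pull (singMap (inc (U ∩ V))) A) = 0 := by
    have h1 : Cc.pull (singMap (inc (U ∩ V))) A = Cc.pull (singMap
        (⟨fun z : (U ∩ V : Set Y) => ρ z.1, hρ.comp_continuous continuous_subtype_val
          fun z => z.2⟩ : C((U ∩ V : Set Y), X))) y := by
      funext p σ
      exact hA1 ((singMap (inc (U ∩ V))).app σ) fun t => (toC σ t).2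
    rw [h1, ← pull_d, hdy]
    rfl
  -- the cochain `d A` on `U`, `0` elsewhere
  let B : Cc (sing Y) := fun p σ => if ∀ t, toC σ t ∈ U then Cc.d A p σ else 0
  have hBU : Cc.pull (singMap (inc U)) B = Cc.d (Cc.pull (singMap (inc U)) A) := by
    rw [← pull_d]
    funext p σ
    exact if_pos fun t => (toC σ t).2
  have hBV : Cc.pull (singMap (inc V)) B = 0 := by
    funext p σ
    show (if ∀ t, toC ((singMap (inc V)).app σ) t ∈ U then
      Cc.d A p ((singMap (inc V)).app σ) else 0) = 0
    split_ifs with h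
    · obtain ⟨τ, hτ⟩ := exists_inc (U := U ∩ V) ((singMap (inc V)).app σ)
        fun t => ⟨h t, (toC σ t).2⟩
      rw [← hτ]
      have h2 := congrFun (congrFun hdA p) τ
      rw [← pull_d] at h2
      exact h2
    · rfl
  obtain ⟨b, hdb, hbU, hbV⟩ := exists_glue hU hV hUV B (by rw [hBU, d_d]) (by
    rw [hBV]; exact d_zero)
  rw [hBU] at hbU
  rw [hBV] at hbV
  -- the homogeneous part
  have hcU : Cc.pull (singMap (inc U)) (Cc.comp (m + 1) b) =
      Cc.d (Cc.pull (singMap (inc U)) A) := by
    rw [← Cc.comp_pull, hbU, Cc.comp_d, Cc.comp_eq (hAdeg.pull _)]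
  have hcV : Cc.pull (singMap (inc V)) (Cc.comp (m + 1) b) = 0 := by
    rw [← Cc.comp_pull, hbV]
    funext p σ
    show (if p = m + 1 then (0 : ZMod 2) else 0) = 0
    split_ifs <;> rfl
  have hcd : Cc.d (Cc.comp (m + 1) b) = 0 := by
    rw [← Cc.comp_d, hdb]
    funext p σ
    show (if p = m + 1 + 1 then (0 : ZMod 2) else 0) = 0
    split_ifs <;> rfl
  refine ⟨Cc.comp (m + 1) b, Cc.isDeg_comp _ _, hcd, ?_, ?_⟩
  · -- constant maps
    intro S _ f hf
    funext p σ
    show Cc.comp (m + 1) b p ((singMap f).app σ) = 0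
    obtain ⟨t0⟩ : Nonempty (Dl p) := inferInstance
    rcases hUV (f (toC σ t0)) with h | h
    · -- in `U`
      by_cases h' : f (toC σ t0) ∈ V
      · obtain ⟨τ, hτ⟩ := exists_inc (U := V) ((singMap f).app σ) fun t => by
          show f (toC σ t) ∈ V
          rw [hf _ (toC σ t0)]; exact h'
        rw [← hτ]
        exact congrFun (congrFun hcV p) τ
      · have hfU : ∀ s, f s ∈ U := fun s => by rw [hf s (toC σ t0)]; exact h
        let g : C(S, U) := ⟨fun s => ⟨f s, hfU s⟩, f.continuous.subtype_mk hfU⟩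
        have h1 : (singMap f).app σ = (singMap (inc U)).app ((singMap g).app σ) := rfl
        rw [h1]
        have h2 : Cc.pull (singMap g) (Cc.pull (singMap (inc U)) A) = 0 := by
          funext q ξ
          refine hA0 _ fun h3 => h' ?_
          obtain ⟨t1⟩ : Nonempty (Dl q) := inferInstance
          have h4 : f (toC ξ t1) ∈ V := (h3 t1).2
          rwa [hf _ (toC σ t0)] at h4
        have h5 : Cc.pull (singMap g) (Cc.pull (singMap (inc U)) (Cc.comp (m + 1) b)) = 0 := by
          rw [hcU, pull_d, h2]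
          exact d_zero
        exact congrFun (congrFun h5 p) σ
    · obtain ⟨τ, hτ⟩ := exists_inc (U := V) ((singMap f).app σ) fun t => by
        show f (toC σ t) ∈ V
        rw [hf _ (toC σ t0)]; exact h
      rw [← hτ]
      exact congrFun (congrFun hcV p) τ
  · -- the integral
    set c := Cc.comp (m + 1) b with hc
    let TU : Set (X × unitInterval) := {z | z.2 ≠ 0}
    let TV : Set (X × unitInterval) := {z | z.2 ≠ 1}
    have hTU : IsOpen TU := (isOpen_compl_singleton (x := (0 : unitInterval))).preimage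
      continuous_snd
    have hTV : IsOpen TV := (isOpen_compl_singleton (x := (1 : unitInterval))).preimage
      continuous_snd
    have hTUV : ∀ z : X × unitInterval, z ∈ TU ∨ z ∈ TV := by
      intro z
      by_cases h : z.2 = 0
      · right
        show z.2 ≠ 1
        rw [h]
        exact zero_ne_one
      · exact Or.inl h
    let ε : Cc (sing (X × unitInterval)) :=
      Cc.pull (singMap (⟨Prod.fst, continuous_fst⟩ : C(X × unitInterval, X))) y
    let κ : Cc (sing (X × unitInterval)) := fun p σ =>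
      if ∀ t, toC σ t ∈ TV then ε p σ else A p ((singMap Q).app σ)
    have hκV : Cc.pull (singMap (inc TV)) κ = Cc.pull (singMap (inc TV)) ε := by
      funext p σ
      exact if_pos fun t => (toC σ t).2
    have hκU : Cc.pull (singMap (inc TU)) κ =
        Cc.pull (singMap (inc TU)) (Cc.pull (singMap Q) A) := by
      funext p σ
      show (if ∀ t, toC ((singMap (inc TU)).app σ) t ∈ TV then
        ε p ((singMap (inc TU)).app σ) else A p ((singMap Q).app ((singMap (inc TU)).app σ))) =
        A p ((singMap Q).app ((singMap (inc TU)).app σ))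
      split_ifs with h
      · have h1 : ∀ t, toC ((singMap Q).app ((singMap (inc TU)).app σ)) t ∈ U ∩ V := fun t =>
          ⟨(hQU _ _).2 (toC σ t).2, (hQV _ _).2 (h t)⟩
        rw [hA1 _ h1]
        show y p _ = y p _
        congr 1
        apply ContinuousMap.ext
        intro t
        exact (hρQ _ _ (h1 t)).symm
      · rfl
    -- `Q^* c + d κ` vanishes on small simplices
    let QU : C(TU, U) := ⟨fun z => ⟨Q z.1, (hQU z.1.1 z.1.2).2 z.2⟩,
      (Q.continuous.comp continuous_subtype_val).subtype_mk _⟩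
    let QV : C(TV, V) := ⟨fun z => ⟨Q z.1, (hQV z.1.1 z.1.2).2 z.2⟩,
      (Q.continuous.comp continuous_subtype_val).subtype_mk _⟩
    have hQcU : Cc.pull (singMap (inc TU)) (Cc.pull (singMap Q) c) =
        Cc.d (Cc.pull (singMap (inc TU)) (Cc.pull (singMap Q) A)) := by
      have h1 : Cc.pull (singMap (inc TU)) (Cc.pull (singMap Q) c) =
        Cc.pull (singMap QU) (Cc.pull (singMap (inc U)) c) := rfl
      rw [h1, hcU, pull_d]
      rfl
    have hQcV : Cc.pull (singMap (inc TV)) (Cc.pull (singMap Q) c) = 0 := by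
      have h1 : Cc.pull (singMap (inc TV)) (Cc.pull (singMap Q) c) =
        Cc.pull (singMap QV) (Cc.pull (singMap (inc V)) c) := rfl
      rw [h1, hcV]
      rfl
    have hεd : Cc.d ε = 0 := by
      show Cc.d (Cc.pull _ y) = 0
      rw [← pull_d, hdy]
      rfl
    obtain ⟨v, hv, hvU, hvV⟩ := exists_null hTU hTV hTUV (Cc.pull (singMap Q) c + Cc.d κ)
      (by rw [d_add, d_d, ← pull_d, hcd, add_zero]; rfl)
      (by
        rw [pull_add, hQcU, pull_d, hκU]
        exact (Cc.cupC _).two _)
      (by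
        rw [pull_add, hQcV, pull_d, hκV, zero_add, ← pull_d, hεd]
        rfl)
    have hQc : Cc.pull (singMap Q) c = Cc.d (κ + v) := by
      rw [d_add, hv, add_comm (Cc.d κ), add_assoc]
      have := (Cc.cupC (sing (X × unitInterval))).two (Cc.d κ)
      exact ((add_zero _).symm.trans (congrArg (Cc.pull (singMap Q) c + ·) this.symm))
    let g0 : C(X, TV) := ⟨fun x => ⟨(x, 0), zero_ne_one⟩,
      (continuous_id.prodMk continuous_const).subtype_mk _⟩
    let g1 : C(X, TU) := ⟨fun x => ⟨(x, 1), one_ne_zero⟩,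
      (continuous_id.prodMk continuous_const).subtype_mk _⟩
    have h0 : Cc.pull (singMap (at0 X)) (κ + v) = y := by
      have h1 : Cc.pull (singMap (at0 X)) (κ + v) =
        Cc.pull (singMap g0) (Cc.pull (singMap (inc TV)) (κ + v)) := rfl
      rw [h1, pull_add, hκV, hvV, add_zero]
      rfl
    have h1 : Cc.pull (singMap (at1 X)) (κ + v) = 0 := by
      have h1 : Cc.pull (singMap (at1 X)) (κ + v) =
        Cc.pull (singMap g1) (Cc.pull (singMap (inc TU)) (κ + v)) := rfl
      rw [h1, pull_add, hκU, hvU, add_zero]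
      funext p σ
      refine hA0 _ fun h => ?_
      obtain ⟨t0⟩ : Nonempty (Dl p) := inferInstance
      exact (hQV _ _).1 (h t0).2 rfl
    refine ⟨DI (κ + v), ?_⟩
    rw [hQc, DI_d, h0, h1, add_zero, add_comm]

end Vale.Agent.P263.K
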